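import Vale.Agent.Lib.P075.Cont

/-!
Approximation by step functions.
-/

open MeasureTheory Finset BigOperators

set_option linter.unusedSectionVars false
set_option linter.unusedSimpArgs false

namespace Vale.Agent.Lib.P075

lemma measurable_idx (N : ℕ) : Measurable (idx N) :=
  Nat.measurable_floor.comp (measurable_const.mul measurable_id)

lemma measurable_stepF (N L : ℕ) (G : ℕ → ℕ → ℝ) : Measurable (stepF N L G) := by
  have h1 : Measurable (fun p : ℝ × ℝ => ci (Ib L) p.1) :=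
    (measurable_ci measurableSet_Ico).comp measurable_fst
  have h2 : Measurable (fun p : ℝ × ℝ => ci (Ib L) p.2) :=
    (measurable_ci measurableSet_Ico).comp measurable_snd
  have h3 : Measurable (fun p : ℝ × ℝ => G (idx N p.1) (idx N p.2)) := by
    have h4 : Measurable (fun q : ℕ × ℕ => G q.1 q.2) := Measurable.of_discrete
    exact h4.comp (((measurable_idx N).comp measurable_fst).prodMk ((measurable_idx N).comp measurable_snd))
  exact (h1.mul h2).mul h3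

lemma stepF_of_mem {N L : ℕ} {G : ℕ → ℕ → ℝ} {p : ℝ × ℝ} (h1 : p.1 ∈ Ib L) (h2 : p.2 ∈ Ib L) :
    stepF N L G p = G (idx N p.1) (idx N p.2) := by
  rw [stepF, ci_of_mem h1, ci_of_mem h2]
  ring

lemma stepF_of_not_mem {N L : ℕ} {G : ℕ → ℕ → ℝ} {p : ℝ × ℝ} (h : ¬ (p.1 ∈ Ib L ∧ p.2 ∈ Ib L)) :
    stepF N L G p = 0 := by
  rw [stepF]
  by_cases h1 : p.1 ∈ Ib L
  · have h2 : p.2 ∉ Ib L := fun c => h ⟨h1, c⟩
    rw [ci_of_not_mem h2]
    ring
  · rw [ci_of_not_mem h1]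
    ring

lemma adm_stepF {B : ℝ} (hB : 0 ≤ B) {N L : ℕ} {G : ℕ → ℕ → ℝ} (hG : ∀ a b, |G a b| ≤ B) :
    Adm B L (stepF N L G) where
  meas := measurable_stepF N L G
  bd := by
    intro p
    by_cases h : p.1 ∈ Ib L ∧ p.2 ∈ Ib L
    · rw [stepF_of_mem h.1 h.2]
      exact hG _ _
    · rw [stepF_of_not_mem h, abs_zero]
      exact hB
  supp := by
    intro p hp
    by_contra h
    exact hp (stepF_of_not_mem h)

lemma clamp_abs {B y : ℝ} (hB : 0 ≤ B) : |max (-B) (min B y)| ≤ B := by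
  rw [abs_le]
  constructor
  · exact le_max_left _ _
  · exact max_le (by linarith) (min_le_left _ _)

lemma clamp_contr {B a y : ℝ} (ha : |a| ≤ B) : |a - max (-B) (min B y)| ≤ |a - y| := by
  rw [abs_le] at ha
  rcases le_total B y with h1 | h1
  · rw [min_eq_left h1, max_eq_right (by linarith)]
    rw [abs_of_nonneg (by linarith : 0 ≤ B - a) |> fun _ => abs_sub_comm a B, abs_of_nonneg (by linarith : 0 ≤ B - a),
      abs_sub_comm a y, abs_of_nonneg (by linarith : 0 ≤ y - a)]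
    linarith
  · rw [min_eq_right h1]
    rcases le_total y (-B) with h2 | h2
    · rw [max_eq_left h2, abs_of_nonneg (by linarith : 0 ≤ a - -B), abs_of_nonneg (by linarith : 0 ≤ a - y)]
      linarith
    · rw [max_eq_right h2]

lemma mesh_point {N L : ℕ} {x : ℝ} (hx : x ∈ Ib L) :
    ((idx N x : ℝ) / 2 ^ N) ∈ Set.Icc (0 : ℝ) (2 ^ L) ∧ |x - (idx N x : ℝ) / 2 ^ N| < 1 / 2 ^ N := by
  have h1 : x ∈ cell N (idx N x) := mem_cell.mpr ⟨hx.1, rfl⟩
  have h2 : (0 : ℝ) < 2 ^ N := by positivity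
  have h3 : ((idx N x : ℝ) + 1) / 2 ^ N = (idx N x : ℝ) / 2 ^ N + 1 / 2 ^ N := by
    rw [add_div]
  have h4 := h1.1
  have h5 := h1.2
  rw [h3] at h5
  have h6 : (0 : ℝ) ≤ (idx N x : ℝ) / 2 ^ N := by positivity
  refine ⟨⟨h6, ?_⟩, ?_⟩
  · exact h4.trans hx.2.le
  · rw [abs_of_nonneg (by linarith)]
    linarith

/-- approximation by step functions with the same bound -/
lemma exists_step {B : ℝ} {L : ℕ} {F : ℝ × ℝ → ℝ} (hF : Adm B L F) {δ : ℝ} (hδ : 0 < δ) :
    ∃ N1, ∀ N, N1 ≤ N → ∃ G : ℕ → ℕ → ℝ, (∀ a b, |G a b| ≤ B) ∧ ∫ p, |F p - stepF N L G p| ≤ δ := by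
  have hB := hF.B_nonneg
  obtain ⟨g, _, hg1, gc, gi⟩ := hF.integrable.exists_hasCompactSupport_integral_sub_le
    (half_pos hδ)
  set g' : ℝ × ℝ → ℝ := fun p => max (-B) (min B (g p)) with hg'
  have gc' : Continuous g' := continuous_const.max (continuous_const.min gc)
  set K : Set (ℝ × ℝ) := Set.Icc (0 : ℝ) (2 ^ L) ×ˢ Set.Icc (0 : ℝ) (2 ^ L) with hK
  have hKc : IsCompact K := isCompact_Icc.prod isCompact_Icc
  have huc := hKc.uniformContinuousOn_of_continuous gc'.continuousOn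
  rw [Metric.uniformContinuousOn_iff] at huc
  have hA : (0 : ℝ) < 2 ^ L * 2 ^ L := by positivity
  set δ' := δ / 2 / (2 ^ L * 2 ^ L) with hδ'
  have hδ'0 : 0 < δ' := by positivity
  obtain ⟨η, hη, hη2⟩ := huc δ' hδ'0
  obtain ⟨n, hn⟩ := exists_pow_lt_of_lt_one hη (by norm_num : (1 / 2 : ℝ) < 1)
  refine ⟨n, fun N hnN => ?_⟩
  have hN1 : (1 : ℝ) / 2 ^ N < η := by
    have h1 : (1 / 2 : ℝ) ^ N ≤ (1 / 2) ^ n :=
      pow_le_pow_of_le_one (by norm_num) (by norm_num) hnN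
    rw [one_div_pow, one_div_pow] at h1
    rw [one_div_pow] at hn
    linarith
  refine ⟨fun a b => g' ((a : ℝ) / 2 ^ N, (b : ℝ) / 2 ^ N), fun a b => clamp_abs hB, ?_⟩
  set G : ℕ → ℕ → ℝ := fun a b => g' ((a : ℝ) / 2 ^ N, (b : ℝ) / 2 ^ N) with hG
  have hadm : Adm B L (stepF N L G) := adm_stepF hB fun a b => clamp_abs hB
  have hpt : ∀ p, |F p - stepF N L G p| ≤ ‖F p - g p‖ + δ' * (ci (Ib L) p.1 * ci (Ib L) p.2) := by
    intro p
    by_cases h : p.1 ∈ Ib L ∧ p.2 ∈ Ib L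
    · rw [stepF_of_mem h.1 h.2, ci_of_mem h.1, ci_of_mem h.2, mul_one, mul_one, Real.norm_eq_abs]
      obtain ⟨m1, d1⟩ := mesh_point (N := N) h.1
      obtain ⟨m2, d2⟩ := mesh_point (N := N) h.2
      have hp : p ∈ K := ⟨⟨h.1.1, h.1.2.le⟩, ⟨h.2.1, h.2.2.le⟩⟩
      have hq : ((idx N p.1 : ℝ) / 2 ^ N, (idx N p.2 : ℝ) / 2 ^ N) ∈ K := ⟨m1, m2⟩
      have hd : dist p ((idx N p.1 : ℝ) / 2 ^ N, (idx N p.2 : ℝ) / 2 ^ N) < η := by
        rw [Prod.dist_eq, max_lt_iff]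
        simp only [Real.dist_eq]
        exact ⟨d1.trans hN1, d2.trans hN1⟩
      have h3 := hη2 p hp _ hq hd
      rw [Real.dist_eq] at h3
      have h4 : |F p - g' p| ≤ |F p - g p| := clamp_contr (hF.bd p)
      have h5 := abs_sub_le (F p) (g' p) (G (idx N p.1) (idx N p.2))
      have h6 : |g' p - G (idx N p.1) (idx N p.2)| < δ' := h3
      linarith
    · rw [stepF_of_not_mem h]
      have h1 : F p = 0 := by
        by_contra hc
        exact h (hF.supp p hc)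
      rw [h1, sub_zero, abs_zero]
      have := mul_nonneg hδ'0.le (mul_nonneg (ci_nonneg (Ib L) p.1) (ci_nonneg (Ib L) p.2))
      have h2 := norm_nonneg (0 - g p)
      linarith
  have i1 : Integrable (fun p => ‖F p - g p‖) := (hF.integrable.sub gi).norm
  have i2 : Integrable (fun p : ℝ × ℝ => δ' * (ci (Ib L) p.1 * ci (Ib L) p.2)) :=
    (integrable_ci2 L).const_mul δ'
  have h7 : ∫ p : ℝ × ℝ, ci (Ib L) p.1 * ci (Ib L) p.2 = 2 ^ L * 2 ^ L := by
    have := integral_prod_mul (μ := volume) (ν := volume) (ci (Ib L)) (ci (Ib L))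
    rw [integral_ci_Ib] at this
    exact this
  calc ∫ p, |F p - stepF N L G p| ≤ ∫ p, (‖F p - g p‖ + δ' * (ci (Ib L) p.1 * ci (Ib L) p.2)) :=
        integral_mono (hF.integrable_sub hadm) (i1.add i2) hpt
    _ = (∫ p, ‖F p - g p‖) + δ' * (2 ^ L * 2 ^ L) := by
        rw [integral_add i1 i2, integral_const_mul, h7]
    _ ≤ δ := by
        have : δ' * (2 ^ L * 2 ^ L) = δ / 2 := by
          rw [hδ']
          field_simp
        rw [this]
        linarith

/-- the cubic integral -/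
noncomputable def cubI (F : ℝ × ℝ → ℝ) : ℝ := ∫ p, |F p| ^ 3

lemma cubI_nonneg (F : ℝ × ℝ → ℝ) : 0 ≤ cubI F :=
  integral_nonneg fun p => by positivity

lemma Adm.integrable_cube {B : ℝ} {L : ℕ} {F : ℝ × ℝ → ℝ} (h : Adm B L F) :
    Integrable (fun p => |F p| ^ 3) := by
  have hB := h.B_nonneg
  refine Integrable.mono' ((integrable_ci2 L).const_mul (B ^ 3))
    ((h.meas.abs.pow_const 3).aestronglyMeasurable) ?_
  refine Filter.Eventually.of_forall fun p => ?_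
  rw [Real.norm_eq_abs, abs_of_nonneg (by positivity)]
  by_cases c : F p = 0
  · rw [c, abs_zero]
    have := mul_nonneg (pow_nonneg hB 3) (mul_nonneg (ci_nonneg (Ib L) p.1) (ci_nonneg (Ib L) p.2))
    simpa using this
  · rw [ci_of_mem (h.supp p c).1, ci_of_mem (h.supp p c).2, mul_one, mul_one]
    exact pow_le_pow_left₀ (abs_nonneg _) (h.bd p) 3

lemma cube_diff {B a b : ℝ} (ha : |a| ≤ B) (hb : |b| ≤ B) :
    |b| ^ 3 ≤ |a| ^ 3 + 3 * B ^ 2 * |a - b| := by
  have h1 := abs_abs_sub_abs_le_abs_sub a b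
  have h2 : |b| - |a| ≤ |a - b| := by
    have := abs_sub_abs_le_abs_sub b a
    rwa [abs_sub_comm] at this
  set x := |a| with hx
  set y := |b| with hy
  have hx0 : 0 ≤ x := abs_nonneg _
  have hy0 : 0 ≤ y := abs_nonneg _
  have h3 : y ^ 3 - x ^ 3 = (y - x) * (y ^ 2 + y * x + x ^ 2) := by ring
  have h4 : y ^ 2 + y * x + x ^ 2 ≤ 3 * B ^ 2 := by nlinarith
  have h5 : 0 ≤ y ^ 2 + y * x + x ^ 2 := by positivity
  have h6 : 0 ≤ |a - b| := abs_nonneg _
  nlinarith [mul_le_mul_of_nonneg_right h2 h5, mul_le_mul_of_nonneg_left h4 h6]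

lemma cubI_le {B : ℝ} {L : ℕ} {F G : ℝ × ℝ → ℝ} (hF : Adm B L F) (hG : Adm B L G) :
    cubI G ≤ cubI F + 3 * B ^ 2 * ∫ p, |F p - G p| := by
  simp only [cubI]
  rw [← integral_const_mul, ← integral_add hF.integrable_cube ((hF.integrable_sub hG).const_mul _)]
  exact integral_mono hG.integrable_cube (hF.integrable_cube.add ((hF.integrable_sub hG).const_mul _))
    fun p => cube_diff (hF.bd p) (hG.bd p)

/-- the cubic integral of a step function -/
lemma cubI_stepF (N L : ℕ) (G : ℕ → ℕ → ℝ) :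
    cubI (stepF N L G) = (1 / 2 ^ N) ^ 2 * gridCub (N + L) G := by
  have hpt : ∀ p : ℝ × ℝ, |stepF N L G p| ^ 3 =
      ci (Ib L) p.1 * ci (Ib L) p.2 * (fun a b => |G a b| ^ 3) (idx N p.1) (idx N p.2) := by
    intro p
    by_cases h : p.1 ∈ Ib L ∧ p.2 ∈ Ib L
    · rw [stepF_of_mem h.1 h.2, ci_of_mem h.1, ci_of_mem h.2]
      ring
    · rw [stepF_of_not_mem h, abs_zero]
      by_cases h1 : p.1 ∈ Ib L
      · have h2 : p.2 ∉ Ib L := fun c => h ⟨h1, c⟩
        rw [ci_of_not_mem h2]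
        ring
      · rw [ci_of_not_mem h1]
        ring
  have h3 : cubI (stepF N L G) = ∫ p : ℝ × ℝ, ci (Ib L) p.1 * ci (Ib L) p.2 *
      (fun a b => |G a b| ^ 3) (idx N p.1) (idx N p.2) :=
    integral_congr_ae (Filter.Eventually.of_forall hpt)
  rw [h3]
  exact int2 N L (fun a b => |G a b| ^ 3)

end Vale.Agent.Lib.P075
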