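import Mathlib

/-!
Block calculus for hat-normalised matrices on `Bool × n`.
-/

open Matrix Finset BigOperators

namespace Vale.Agent.Lib.P075

variable {n : Type*} [Fintype n] [DecidableEq n]

/-- child block, hat-normalised: twice the `(i,j)` block -/
def blk (X : Matrix (Bool × n) (Bool × n) ℝ) (i j : Bool) : Matrix n n ℝ :=
  Matrix.of fun a b => 2 * X (i, a) (j, b)

/-- sign of a bit -/
def sg (b : Bool) : ℝ := if b then -1 else 1

@[simp] lemma sg_true : sg true = -1 := rfl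
@[simp] lemma sg_false : sg false = 1 := rfl

/-- the sign matrix of the top bit -/
def Jm : Matrix (Bool × n) (Bool × n) ℝ := Matrix.diagonal fun p => sg p.1

omit [DecidableEq n] in
/-- squared Hilbert-Schmidt norm -/
def hs (X : Matrix n n ℝ) : ℝ := ∑ a, ∑ b, X a b ^ 2

omit [Fintype n] [DecidableEq n] in
@[simp] lemma blk_apply (X : Matrix (Bool × n) (Bool × n) ℝ) (i j : Bool) (a b : n) :
    blk X i j a b = 2 * X (i, a) (j, b) := rfl

omit [DecidableEq n] in
lemma blk_mul (X Y : Matrix (Bool × n) (Bool × n) ℝ) (i l : Bool) :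
    blk (X * Y) i l =
      (1 / 2 : ℝ) • (blk X i false * blk Y false l + blk X i true * blk Y true l) := by
  ext a b
  simp only [blk_apply, Matrix.mul_apply, Fintype.sum_prod_type, Fintype.sum_bool,
    Matrix.smul_apply, Matrix.add_apply, smul_eq_mul, mul_add, Finset.mul_sum]
  rw [add_comm]
  congr 1 <;> (apply Finset.sum_congr rfl; intro c _; ring)

lemma blk_Jm_mul (X : Matrix (Bool × n) (Bool × n) ℝ) (i j : Bool) :
    blk (Jm * X) i j = sg i • blk X i j := by
  ext a b
  simp [blk_apply, Jm, Matrix.diagonal_mul]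
  ring

lemma blk_mul_Jm (X : Matrix (Bool × n) (Bool × n) ℝ) (i j : Bool) :
    blk (X * Jm) i j = sg j • blk X i j := by
  ext a b
  simp [blk_apply, Jm, Matrix.mul_diagonal]
  ring

lemma blk_mul_J_mul (X Y : Matrix (Bool × n) (Bool × n) ℝ) (i l : Bool) :
    blk (X * Jm * Y) i l =
      (1 / 2 : ℝ) • (blk X i false * blk Y false l - blk X i true * blk Y true l) := by
  rw [blk_mul, blk_mul_Jm, blk_mul_Jm]
  simp [sub_eq_add_neg]

omit [Fintype n] [DecidableEq n] in
lemma blk_transpose (X : Matrix (Bool × n) (Bool × n) ℝ) (i j : Bool) :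
    blk Xᵀ i j = (blk X j i)ᵀ := by
  ext a b
  simp [blk_apply, Matrix.transpose_apply]

omit [Fintype n] [DecidableEq n] in
lemma blk_add (X Y : Matrix (Bool × n) (Bool × n) ℝ) (i j : Bool) :
    blk (X + Y) i j = blk X i j + blk Y i j := by
  ext a b
  simp [blk_apply]
  ring

omit [Fintype n] [DecidableEq n] in
lemma blk_sub (X Y : Matrix (Bool × n) (Bool × n) ℝ) (i j : Bool) :
    blk (X - Y) i j = blk X i j - blk Y i j := by
  ext a b
  simp [blk_apply]
  ring

omit [DecidableEq n] in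
lemma trace_eq_blk (X : Matrix (Bool × n) (Bool × n) ℝ) :
    trace X = (1 / 2 : ℝ) * (trace (blk X false false) + trace (blk X true true)) := by
  simp only [Matrix.trace, Matrix.diag_apply, Fintype.sum_prod_type, Fintype.sum_bool, blk_apply,
    ← Finset.mul_sum]
  ring

omit [DecidableEq n] in
lemma hs_eq_blk (X : Matrix (Bool × n) (Bool × n) ℝ) :
    hs X = (1 / 4 : ℝ) * (hs (blk X false false) + hs (blk X false true)
      + hs (blk X true false) + hs (blk X true true)) := by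
  simp only [hs, Fintype.sum_prod_type, Fintype.sum_bool, blk_apply, mul_pow,
    ← Finset.mul_sum, Finset.sum_add_distrib]
  ring

omit [DecidableEq n] in
lemma hs_eq_trace (X : Matrix n n ℝ) : hs X = trace (Xᵀ * X) := by
  simp only [hs, Matrix.trace, Matrix.diag_apply, Matrix.mul_apply, Matrix.transpose_apply]
  rw [Finset.sum_comm]
  apply Finset.sum_congr rfl; intro a _
  apply Finset.sum_congr rfl; intro b _
  ring

omit [DecidableEq n] in
lemma hs_nonneg (X : Matrix n n ℝ) : 0 ≤ hs X :=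
  Finset.sum_nonneg fun _ _ => Finset.sum_nonneg fun _ _ => sq_nonneg _

omit [DecidableEq n] in
lemma hs_smul (c : ℝ) (X : Matrix n n ℝ) : hs (c • X) = c ^ 2 * hs X := by
  simp only [hs, Matrix.smul_apply, smul_eq_mul, mul_pow, ← Finset.mul_sum]

omit [DecidableEq n] in
lemma hs_neg (X : Matrix n n ℝ) : hs (-X) = hs X := by
  simp [hs]

omit [DecidableEq n] in
lemma hs_transpose (X : Matrix n n ℝ) : hs Xᵀ = hs X := by
  simp only [hs, Matrix.transpose_apply]
  exact Finset.sum_comm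

omit [DecidableEq n] in
/-- parallelogram identity -/
lemma hs_parallelogram (X Y : Matrix n n ℝ) :
    hs (X + Y) + hs (X - Y) = 2 * hs X + 2 * hs Y := by
  simp only [hs, Matrix.add_apply, Matrix.sub_apply, ← Finset.sum_add_distrib, Finset.mul_sum]
  apply Finset.sum_congr rfl; intro a _
  apply Finset.sum_congr rfl; intro b _
  ring

omit [DecidableEq n] in
lemma hs_add_le (X Y : Matrix n n ℝ) : hs (X + Y) ≤ 2 * hs X + 2 * hs Y := by
  have := hs_parallelogram X Y
  have h2 := hs_nonneg (X - Y)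
  linarith

omit [DecidableEq n] in
/-- the Hilbert-Schmidt pairing bound -/
lemma trace_mul_le (P Q : Matrix n n ℝ) : 2 * trace (P * Q) ≤ hs P + hs Q := by
  have h : ∀ a b, 2 * (P a b * Q b a) ≤ P a b ^ 2 + Q b a ^ 2 := by
    intro a b; nlinarith [sq_nonneg (P a b - Q b a)]
  have h1 : hs Q = ∑ a, ∑ b, Q b a ^ 2 := by
    simp only [hs]; exact Finset.sum_comm
  rw [h1]
  simp only [hs, Matrix.trace, Matrix.diag_apply, Matrix.mul_apply, Finset.mul_sum,
    ← Finset.sum_add_distrib]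
  exact Finset.sum_le_sum fun a _ => Finset.sum_le_sum fun b _ => h a b

omit [DecidableEq n] in
lemma abs_trace_mul_le (P Q : Matrix n n ℝ) : 2 * |trace (P * Q)| ≤ hs P + hs Q := by
  rcases abs_cases (trace (P * Q)) with ⟨h, _⟩ | ⟨h, _⟩
  · rw [h]; exact trace_mul_le P Q
  · rw [h]
    have := trace_mul_le (-P) Q
    rw [hs_neg, Matrix.neg_mul, Matrix.trace_neg] at this
    linarith

omit [DecidableEq n] in
lemma hs_mul_self_comm (X : Matrix n n ℝ) : hs (X * Xᵀ) = hs (Xᵀ * X) := by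
  rw [hs_eq_trace, hs_eq_trace]
  simp only [Matrix.transpose_mul, Matrix.transpose_transpose]
  rw [Matrix.mul_assoc, Matrix.trace_mul_comm, Matrix.mul_assoc]
  simp only [Matrix.mul_assoc]

omit [DecidableEq n] in
/-- `‖Xᵀ Y‖² ≤ ½(‖XᵀX‖² + ‖YᵀY‖²)` -/
lemma hs_tmul_le (X Y : Matrix n n ℝ) :
    2 * hs (Xᵀ * Y) ≤ hs (Xᵀ * X) + hs (Yᵀ * Y) := by
  have h : hs (Xᵀ * Y) = trace ((X * Xᵀ) * (Y * Yᵀ)) := by
    rw [hs_eq_trace]
    simp only [Matrix.transpose_mul, Matrix.transpose_transpose]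
    calc trace (Yᵀ * X * (Xᵀ * Y)) = trace (Yᵀ * (X * Xᵀ * Y)) := by
          simp only [Matrix.mul_assoc]
      _ = trace ((X * Xᵀ * Y) * Yᵀ) := Matrix.trace_mul_comm _ _
      _ = trace ((X * Xᵀ) * (Y * Yᵀ)) := by simp only [Matrix.mul_assoc]
  rw [h, ← hs_mul_self_comm X, ← hs_mul_self_comm Y]
  exact trace_mul_le _ _

omit [DecidableEq n] in
/-- `‖F H‖² = Tr(FᵀF · HHᵀ)` -/
lemma hs_mul_eq_trace (F H : Matrix n n ℝ) :
    hs (F * H) = trace ((Fᵀ * F) * (H * Hᵀ)) := by
  rw [hs_eq_trace]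
  simp only [Matrix.transpose_mul]
  calc trace (Hᵀ * Fᵀ * (F * H)) = trace (Hᵀ * (Fᵀ * F * H)) := by
        simp only [Matrix.mul_assoc]
    _ = trace ((Fᵀ * F * H) * Hᵀ) := Matrix.trace_mul_comm _ _
    _ = trace ((Fᵀ * F) * (H * Hᵀ)) := by simp only [Matrix.mul_assoc]

end Vale.Agent.Lib.P075
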