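import Mathlib

/-!
The dyadic triangular form on the integer grid: step functions constant on unit squares.
-/

open Finset BigOperators

namespace Vale.Agent.Lib.P075

/-- the Haar sign at scale `r`: value `1` on the left half and `-1` on the right half of the
dyadic interval of length `2 ^ r` containing the integer `x` -/
noncomputable def bitSign (r x : ℕ) : ℝ := if (x / 2 ^ (r - 1)) % 2 = 0 then 1 else -1

/-- the integral over a triple of dyadic intervals of length `2 ^ r` with indices `n0, n1, n2`,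
for functions constant on unit squares, normalised by `2 ^ (-r)` -/
noncomputable def blockForm (F0 F1 F2 : ℕ → ℕ → ℝ) (r n0 n1 n2 : ℕ) : ℝ :=
  (1 / 2 ^ r) * ∑ x0 ∈ Ico (2 ^ r * n0) (2 ^ r * (n0 + 1)), ∑ x1 ∈ Ico (2 ^ r * n1) (2 ^ r * (n1 + 1)),
    ∑ x2 ∈ Ico (2 ^ r * n2) (2 ^ r * (n2 + 1)),
      F0 x0 x1 * F1 x1 x2 * F2 x2 x0 * (bitSign r x0 * bitSign r x1 * bitSign r x2)

/-- the sum of `blockForm` over index triples below `N` with vanishing bitwise xor -/
noncomputable def scaleForm (F0 F1 F2 : ℕ → ℕ → ℝ) (r N : ℕ) : ℝ :=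
  ∑ n0 ∈ range N, ∑ n1 ∈ range N, ∑ n2 ∈ range N,
    if n0 ^^^ n1 ^^^ n2 = 0 then blockForm F0 F1 F2 r n0 n1 n2 else 0

end Vale.Agent.Lib.P075
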