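import Vale.Agent.Lib.P075.Root
import Vale.Agent.Lib.P075.Defs

/-!
The explicit dyadic sum and the recursion.
-/

open Matrix Finset BigOperators

set_option linter.unusedSectionVars false
set_option linter.unusedSimpArgs false

namespace Vale.Agent.Lib.P075

/-- the integer coordinate of an index -/
def valI : (k : ℕ) → Idx k → ℕ
  | 0, _ => 0
  | k + 1, p =>
    let q : Bool × Idx k := p
    (if q.1 then 2 ^ k else 0) + valI k q.2

lemma valI_succ (k : ℕ) (b : Bool) (a : Idx k) :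
    valI (k + 1) (b, a) = (if b then 2 ^ k else 0) + valI k a := rfl

lemma valI_lt (k : ℕ) (a : Idx k) : valI k a < 2 ^ k := by
  induction k with
  | zero => simp [valI]
  | succ k ih =>
    obtain ⟨b, a'⟩ : Bool × Idx k := a
    have h1 := ih a'
    rw [valI_succ, pow_succ]
    cases b <;> simp <;> omega

lemma sum_Idx_succ {k : ℕ} (g : Idx (k + 1) → ℝ) :
    ∑ a, g a = ∑ b : Bool, ∑ a : Idx k, g (b, a) :=
  Fintype.sum_prod_type (f := g)

lemma sum_valI (k : ℕ) (g : ℕ → ℝ) : ∑ a : Idx k, g (valI k a) = ∑ x ∈ range (2 ^ k), g x := by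
  induction k generalizing g with
  | zero =>
    show (∑ a : Unit, g (valI 0 a)) = _
    simp [valI]
  | succ k ih =>
    rw [sum_Idx_succ, pow_succ, mul_two, Finset.sum_range_add, Fintype.sum_bool]
    simp only [valI_succ, if_true, if_false, Bool.false_eq_true, zero_add]
    rw [ih, ih (fun y => g (2 ^ k + y))]
    ring

/-- the matrix of a grid function, hat normalised -/
noncomputable def matOf (k : ℕ) (F : ℕ → ℕ → ℝ) : Matrix (Idx k) (Idx k) ℝ :=
  Matrix.of fun a b => F (valI k a) (valI k b) / 2 ^ k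

/-- the shift of a grid function -/
def shiftF (k : ℕ) (i j : Bool) (F : ℕ → ℕ → ℝ) : ℕ → ℕ → ℝ :=
  fun x y => F ((if i then 2 ^ k else 0) + x) ((if j then 2 ^ k else 0) + y)

lemma blk_matOf (k : ℕ) (i j : Bool) (F : ℕ → ℕ → ℝ) :
    blk (n := Idx k) (matOf (k + 1) F) i j = matOf k (shiftF k i j F) := by
  ext a b
  show 2 * (F (valI (k + 1) (i, a)) (valI (k + 1) (j, b)) / 2 ^ (k + 1)) = _
  simp only [matOf, shiftF, Matrix.of_apply, valI_succ, pow_succ]
  field_simp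

lemma bitSign_top (k : ℕ) (b : Bool) (a : Idx k) : bitSign (k + 1) (valI (k + 1) (b, a)) = sg b := by
  have h1 := valI_lt k a
  simp only [bitSign, valI_succ, Nat.add_sub_cancel]
  cases b
  · simp [sg, Nat.div_eq_of_lt h1]
  · have h2 : (2 ^ k + valI k a) / 2 ^ k = 1 := by
      rw [Nat.add_div_left _ (by positivity), Nat.div_eq_of_lt h1]
    simp [sg, h2]

lemma bitSign_low {r k : ℕ} (hr : 1 ≤ r) (hrk : r ≤ k) (b : Bool) (y : ℕ) :
    bitSign r ((if b then 2 ^ k else 0) + y) = bitSign r y := by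
  cases b
  · simp
  · simp only [bitSign, if_true]
    obtain ⟨s, rfl⟩ : ∃ s, k = (r - 1) + (s + 1) := ⟨k - (r - 1) - 1, by omega⟩
    have h1 : 2 ^ ((r - 1) + (s + 1)) + y = 2 ^ (r - 1) * (2 * 2 ^ s) + y := by
      rw [pow_add, pow_succ]; ring
    have h2 : (2 ^ ((r - 1) + (s + 1)) + y) / 2 ^ (r - 1) = 2 * 2 ^ s + y / 2 ^ (r - 1) := by
      rw [h1, add_comm, Nat.add_mul_div_left _ _ (by positivity)]
      ring
    rw [h2]
    simp [Nat.add_mod, Nat.mul_mod_right]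

/-- the dyadic condition at scale `r` -/
def condR (r x0 x1 x2 : ℕ) : Prop := x0 / 2 ^ r ^^^ x1 / 2 ^ r ^^^ x2 / 2 ^ r = 0

instance (r x0 x1 x2 : ℕ) : Decidable (condR r x0 x1 x2) := Nat.decEq _ _

lemma condR_top {k x0 x1 x2 : ℕ} (h0 : x0 < 2 ^ k) (h1 : x1 < 2 ^ k) (h2 : x2 < 2 ^ k) :
    condR k x0 x1 x2 := by
  simp [condR, Nat.div_eq_of_lt h0, Nat.div_eq_of_lt h1, Nat.div_eq_of_lt h2]

lemma xor_bits (b0 b1 b2 : Bool) :
    ((if b0 = true then 1 else 0) ^^^ (if b1 = true then 1 else 0) ^^^ (if b2 = true then 1 else 0) : ℕ) = 0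
      ↔ xor (xor b0 b1) b2 = false := by
  cases b0 <;> cases b1 <;> cases b2 <;> decide

lemma condR_split {r k : ℕ} (hr : r ≤ k) (b0 b1 b2 : Bool) {y0 y1 y2 : ℕ}
    (h0 : y0 < 2 ^ k) (h1 : y1 < 2 ^ k) (h2 : y2 < 2 ^ k) :
    condR r ((if b0 then 2 ^ k else 0) + y0) ((if b1 then 2 ^ k else 0) + y1)
      ((if b2 then 2 ^ k else 0) + y2) ↔ (xor (xor b0 b1) b2 = false ∧ condR r y0 y1 y2) := by
  simp only [condR]
  rw [← Nat.xor_div_two_pow, ← Nat.xor_div_two_pow, ← Nat.xor_div_two_pow, ← Nat.xor_div_two_pow]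
  set A := ((if b0 then 2 ^ k else 0) + y0) ^^^ ((if b1 then 2 ^ k else 0) + y1)
    ^^^ ((if b2 then 2 ^ k else 0) + y2) with hA
  set W := y0 ^^^ y1 ^^^ y2 with hW
  have hmod : ∀ (b : Bool) (y : ℕ), y < 2 ^ k → ((if b then 2 ^ k else 0) + y) % 2 ^ k = y := by
    intro b y hy
    cases b
    · simp [Nat.mod_eq_of_lt hy]
    · simp [Nat.mod_eq_of_lt hy]
  have hdiv : ∀ (b : Bool) (y : ℕ), y < 2 ^ k →
      ((if b then 2 ^ k else 0) + y) / 2 ^ k = if b then 1 else 0 := by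
    intro b y hy
    cases b
    · simp [Nat.div_eq_of_lt hy]
    · simp [Nat.add_div_left _ (by positivity : 0 < 2 ^ k), Nat.div_eq_of_lt hy]
  have hAmod : A % 2 ^ k = W := by
    rw [hA, Nat.xor_mod_two_pow, Nat.xor_mod_two_pow, hmod _ _ h0, hmod _ _ h1, hmod _ _ h2]
  have hAdiv : A / 2 ^ k = (if b0 then 1 else 0) ^^^ (if b1 then 1 else 0) ^^^ (if b2 then 1 else 0) := by
    rw [hA, Nat.xor_div_two_pow, Nat.xor_div_two_pow, hdiv _ _ h0, hdiv _ _ h1, hdiv _ _ h2]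
  have hW2 : W < 2 ^ k := by
    rw [hW]
    exact Nat.xor_lt_two_pow (Nat.xor_lt_two_pow h0 h1) h2
  have hdecomp : A = 2 ^ k * (A / 2 ^ k) + W := by
    rw [← hAmod]
    exact (Nat.div_add_mod A (2 ^ k)).symm
  obtain ⟨s, rfl⟩ : ∃ s, k = r + s := ⟨k - r, by omega⟩
  have hAr : A / 2 ^ r = 2 ^ s * (A / 2 ^ (r + s)) + W / 2 ^ r := by
    conv_lhs => rw [hdecomp]
    rw [pow_add, mul_assoc, Nat.mul_add_div (by positivity)]
  rw [hAr]
  have hpos : 0 < 2 ^ s := by positivity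
  constructor
  · intro h
    obtain ⟨h3, h4⟩ := Nat.add_eq_zero_iff.mp h
    have h5 : A / 2 ^ (r + s) = 0 := by
      rcases Nat.mul_eq_zero.mp h3 with h6 | h6
      · exact absurd h6 hpos.ne'
      · exact h6
    rw [hAdiv] at h5
    exact ⟨(xor_bits b0 b1 b2).mp h5, h4⟩
  · rintro ⟨h3, h4⟩
    have h5 : A / 2 ^ (r + s) = 0 := by
      rw [hAdiv]
      exact (xor_bits b0 b1 b2).mpr h3
    rw [h5, h4]
    simp

/-- the product at a point -/
noncomputable def Gpt (r : ℕ) (F0 F1 F2 : ℕ → ℕ → ℝ) (x0 x1 x2 : ℕ) : ℝ :=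
  F0 x0 x1 * F1 x1 x2 * F2 x2 x0 * (bitSign r x0 * bitSign r x1 * bitSign r x2)

/-- a scale sum over the index set of level `k` -/
noncomputable def Sc (r k : ℕ) (F0 F1 F2 : ℕ → ℕ → ℝ) : ℝ :=
  (1 / 2 ^ r) * ∑ a0 : Idx k, ∑ a1 : Idx k, ∑ a2 : Idx k,
    if condR r (valI k a0) (valI k a1) (valI k a2) then
      Gpt r F0 F1 F2 (valI k a0) (valI k a1) (valI k a2) else 0

lemma tri_sum_split {n : Type*} [Fintype n] (H : Bool × n → Bool × n → Bool × n → ℝ) :
    ∑ p0, ∑ p1, ∑ p2, H p0 p1 p2 =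
      ∑ b0, ∑ b1, ∑ b2, ∑ a0, ∑ a1, ∑ a2, H (b0, a0) (b1, a1) (b2, a2) := by
  simp only [Fintype.sum_prod_type, Fintype.sum_bool, Finset.sum_add_distrib]

/-- recursion of a lower scale -/
lemma Sc_succ {r k : ℕ} (hr1 : 1 ≤ r) (hr : r ≤ k) (F0 F1 F2 : ℕ → ℕ → ℝ) :
    Sc r (k + 1) F0 F1 F2 = ∑ j, ∑ l, Sc r k (shiftF k (xor j l) j F0) (shiftF k j l F1)
      (shiftF k l (xor j l) F2) := by
  simp only [Sc]
  have e := tri_sum_split (n := Idx k) (fun a0 a1 a2 =>
    if condR r (valI (k + 1) a0) (valI (k + 1) a1) (valI (k + 1) a2) then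
      Gpt r F0 F1 F2 (valI (k + 1) a0) (valI (k + 1) a1) (valI (k + 1) a2) else 0)
  have e' : (∑ a0 : Idx (k + 1), ∑ a1 : Idx (k + 1), ∑ a2 : Idx (k + 1),
      if condR r (valI (k + 1) a0) (valI (k + 1) a1) (valI (k + 1) a2) then
      Gpt r F0 F1 F2 (valI (k + 1) a0) (valI (k + 1) a1) (valI (k + 1) a2) else 0) = _ := e
  rw [e']
  have key : ∀ (b0 b1 b2 : Bool) (a0 a1 a2 : Idx k),
      (if condR r (valI (k + 1) (b0, a0)) (valI (k + 1) (b1, a1)) (valI (k + 1) (b2, a2)) then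
        Gpt r F0 F1 F2 (valI (k + 1) (b0, a0)) (valI (k + 1) (b1, a1)) (valI (k + 1) (b2, a2)) else 0)
      = if xor (xor b0 b1) b2 = false then
        (if condR r (valI k a0) (valI k a1) (valI k a2) then
          Gpt r (shiftF k b0 b1 F0) (shiftF k b1 b2 F1) (shiftF k b2 b0 F2)
            (valI k a0) (valI k a1) (valI k a2) else 0) else 0 := by
    intro b0 b1 b2 a0 a1 a2
    have h := condR_split hr b0 b1 b2 (valI_lt k a0) (valI_lt k a1) (valI_lt k a2)
    simp only [valI_succ]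
    have e1 : Gpt r F0 F1 F2 ((if b0 then 2 ^ k else 0) + valI k a0) ((if b1 then 2 ^ k else 0) + valI k a1)
        ((if b2 then 2 ^ k else 0) + valI k a2) =
        Gpt r (shiftF k b0 b1 F0) (shiftF k b1 b2 F1) (shiftF k b2 b0 F2)
            (valI k a0) (valI k a1) (valI k a2) := by
      simp only [Gpt, shiftF, bitSign_low hr1 hr]
    rw [e1]
    simp only [h]
    by_cases h1 : xor (xor b0 b1) b2 = false
    · by_cases h2 : condR r (valI k a0) (valI k a1) (valI k a2)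
      · simp only [h1, h2, and_self, if_true]
      · simp only [h1, h2, and_false, if_false, if_true]
    · simp [h1]
  simp only [key]
  simp only [Fintype.sum_bool, Finset.sum_add_distrib, Bool.xor_true, Bool.xor_false,
    Bool.not_true, Bool.not_false, if_true, if_false, Bool.false_eq_true, reduceIte, Finset.sum_const_zero,
    add_zero, zero_add, Bool.true_eq_false]
  ring

/-- the swapped function -/
def swapF (F : ℕ → ℕ → ℝ) : ℕ → ℕ → ℝ := fun x y => F y x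

lemma blk_matOf_swap (k : ℕ) (i l : Bool) (F : ℕ → ℕ → ℝ) :
    blk (n := Idx k) (matOf (k + 1) (swapF F)) i l = matOf k (swapF (shiftF k l i F)) := by
  rw [blk_matOf]
  rfl

/-- the unpruned form -/
noncomputable def Lam (eps : ℕ → ℝ) : (k : ℕ) → (A B D : Matrix (Idx k) (Idx k) ℝ) → ℝ
  | 0, _, _, _ => 0
  | k + 1, A, B, D =>
    eps k * Tri (n := Idx k) A B D + (1 / 4 : ℝ) * ∑ j : Bool, ∑ l : Bool,
      Lam eps k (blk (n := Idx k) A (xor j l) j) (blk (n := Idx k) B j l)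
        (blk (n := Idx k) D (xor j l) l)

/-- explicit formula for the trilinear form -/
lemma Tri_eq_sum {n : Type*} [Fintype n] [DecidableEq n] (A x g : Matrix (Bool × n) (Bool × n) ℝ) :
    Tri A x g = ∑ p0, ∑ p1, ∑ p2, sg p0.1 * A p0 p1 * sg p1.1 * x p1 p2 * sg p2.1 * g p0 p2 := by
  have j1 : ∀ (X : Matrix (Bool × n) (Bool × n) ℝ) p q,
      (X * Jm : Matrix (Bool × n) (Bool × n) ℝ) p q = X p q * sg q.1 := by
    intro X p q
    simp [Jm, Matrix.mul_diagonal]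
  have j2 : ∀ (X : Matrix (Bool × n) (Bool × n) ℝ) p q,
      (Jm * X : Matrix (Bool × n) (Bool × n) ℝ) p q = sg p.1 * X p q := by
    intro X p q
    simp [Jm, Matrix.diagonal_mul]
  have e1 : ∀ p q, (Jm * A * Jm : Matrix (Bool × n) (Bool × n) ℝ) p q = sg p.1 * A p q * sg q.1 := by
    intro p q
    rw [j1, j2]
  have e2 : ∀ p q, (Jm * A * Jm * x * Jm : Matrix (Bool × n) (Bool × n) ℝ) p q
      = (∑ p1, (sg p.1 * A p p1 * sg p1.1) * x p1 q) * sg q.1 := by
    intro p q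
    rw [j1, Matrix.mul_apply]
    simp only [e1]
  simp only [Tri, Matrix.trace, Matrix.diag_apply]
  apply Finset.sum_congr rfl; intro p0 _
  rw [Matrix.mul_apply]
  simp only [e2, Matrix.transpose_apply, Finset.sum_mul]
  rw [Finset.sum_comm]

/-- the top scale -/
lemma Sc_top (k : ℕ) (F0 F1 F2 : ℕ → ℕ → ℝ) :
    Sc (k + 1) (k + 1) F0 F1 F2 = 4 ^ (k + 1) * Tri (n := Idx k) (matOf (k + 1) F0) (matOf (k + 1) F1)
      (matOf (k + 1) (swapF F2)) := by
  have e := Tri_eq_sum (n := Idx k) (matOf (k + 1) F0) (matOf (k + 1) F1) (matOf (k + 1) (swapF F2))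
  refine Eq.trans ?_ (congrArg (fun z => 4 ^ (k + 1) * z) e.symm)
  show (1 / 2 ^ (k + 1)) * ∑ a0 : Bool × Idx k, ∑ a1 : Bool × Idx k, ∑ a2 : Bool × Idx k,
    (if condR (k + 1) (valI (k + 1) a0) (valI (k + 1) a1) (valI (k + 1) a2) then
      Gpt (k + 1) F0 F1 F2 (valI (k + 1) a0) (valI (k + 1) a1) (valI (k + 1) a2) else 0) = _
  simp only [Finset.mul_sum]
  apply Finset.sum_congr rfl; intro p0 _
  apply Finset.sum_congr rfl; intro p1 _
  apply Finset.sum_congr rfl; intro p2 _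
  have hc : condR (k + 1) (valI (k + 1) p0) (valI (k + 1) p1) (valI (k + 1) p2) :=
    condR_top (valI_lt _ _) (valI_lt _ _) (valI_lt _ _)
  rw [if_pos hc]
  obtain ⟨b0, a0⟩ := p0
  obtain ⟨b1, a1⟩ := p1
  obtain ⟨b2, a2⟩ := p2
  simp only [Gpt, bitSign_top]
  show _ = 4 ^ (k + 1) * (sg b0 * (F0 (valI (k + 1) (b0, a0)) (valI (k + 1) (b1, a1)) / 2 ^ (k + 1)) * sg b1
    * (F1 (valI (k + 1) (b1, a1)) (valI (k + 1) (b2, a2)) / 2 ^ (k + 1)) * sg b2
    * (F2 (valI (k + 1) (b2, a2)) (valI (k + 1) (b0, a0)) / 2 ^ (k + 1)))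
  have h4 : (4 : ℝ) ^ (k + 1) = (2 ^ (k + 1)) * (2 ^ (k + 1)) := by
    rw [← mul_pow]; norm_num
  rw [h4]
  field_simp

/-- **The recursion formula.** -/
theorem sum_Sc_eq (eps : ℕ → ℝ) (k : ℕ) : ∀ F0 F1 F2 : ℕ → ℕ → ℝ,
    ∑ r ∈ range k, eps r * Sc (r + 1) k F0 F1 F2 =
      4 ^ k * Lam eps k (matOf k F0) (matOf k F1) (matOf k (swapF F2)) := by
  induction k with
  | zero =>
    intro F0 F1 F2
    simp [Lam]
  | succ k ih =>
    intro F0 F1 F2
    rw [Finset.sum_range_succ, Sc_top]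
    have h1 : ∀ r ∈ range k, eps r * Sc (r + 1) (k + 1) F0 F1 F2 =
        ∑ j, ∑ l, eps r * Sc (r + 1) k (shiftF k (xor j l) j F0) (shiftF k j l F1)
          (shiftF k l (xor j l) F2) := by
      intro r hr
      rw [Sc_succ (by omega) (by have := Finset.mem_range.mp hr; omega)]
      simp only [Fintype.sum_bool]
      ring
    rw [Finset.sum_congr rfl h1]
    have hsw : ∀ l i, shiftF k i l (swapF F2) = swapF (shiftF k l i F2) := fun _ _ => rfl
    simp only [Lam, blk_matOf, hsw]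
    have h2 : ∑ r ∈ range k, ∑ j, ∑ l, eps r * Sc (r + 1) k (shiftF k (xor j l) j F0) (shiftF k j l F1)
        (shiftF k l (xor j l) F2) = ∑ j, ∑ l, 4 ^ k * Lam eps k (matOf k (shiftF k (xor j l) j F0))
          (matOf k (shiftF k j l F1)) (matOf k (swapF (shiftF k l (xor j l) F2))) := by
      rw [Finset.sum_comm]
      apply Finset.sum_congr rfl; intro j _
      rw [Finset.sum_comm]
      apply Finset.sum_congr rfl; intro l _
      exact ih _ _ _
    rw [h2]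
    simp only [Fintype.sum_bool]
    ring

/-- the pruned form coincides with the unpruned one for small entries -/
lemma PLam_eq_Lam (eps : ℕ → ℝ) (k : ℕ) : ∀ A B D : Matrix (Idx k) (Idx k) ℝ,
    (∀ a b, |A a b| ≤ (1 / 2) / 2 ^ k) → (∀ a b, |B a b| ≤ (1 / 2) / 2 ^ k) →
    (∀ a b, |D a b| ≤ (1 / 2) / 2 ^ k) → PLam eps k A B D = Lam eps k A B D := by
  induction k with
  | zero =>
    intro A B D _ _ _
    simp [PLam, Lam]
  | succ k ih =>
    intro A B D hA hB hD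
    have hsb : ∀ X : Matrix (Idx (k + 1)) (Idx (k + 1)) ℝ, (∀ a b, |X a b| ≤ (1 / 2) / 2 ^ (k + 1)) →
        hs (n := Bool × Idx k) X ≤ 1 / 4 := by
      intro X hX
      have h1 : ∀ a b, X a b ^ 2 ≤ ((1 / 2) / 2 ^ (k + 1)) ^ 2 := fun a b => by
        rw [← sq_abs]
        exact pow_le_pow_left₀ (abs_nonneg _) (hX a b) 2
      have h2 : hs (n := Idx (k + 1)) X ≤ ∑ _a : Idx (k + 1), ∑ _b : Idx (k + 1), ((1 / 2) / 2 ^ (k + 1) : ℝ) ^ 2 :=
        Finset.sum_le_sum fun a _ => Finset.sum_le_sum fun b _ => h1 a b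
      have h3 : ∑ _a : Idx (k + 1), ∑ _b : Idx (k + 1), ((1 / 2) / 2 ^ (k + 1) : ℝ) ^ 2 = 1 / 4 := by
        simp only [Finset.sum_const, Finset.card_univ, card_Idx, nsmul_eq_mul]
        push_cast
        field_simp
        ring
      rw [h3] at h2
      exact h2
    have hg : goodNode (n := Bool × Idx k) A B D := ⟨hsb A hA, hsb B hB, hsb D hD⟩
    have e : PLam eps (k + 1) A B D = eps k * Tri (n := Idx k) A B D + (1 / 4 : ℝ) * ∑ j : Bool, ∑ l : Bool,
        PLam eps k (blk (n := Idx k) A (xor j l) j) (blk (n := Idx k) B j l)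
          (blk (n := Idx k) D (xor j l) l) := by
      simp only [PLam]
      exact if_pos hg
    rw [e]
    simp only [Lam]
    have hc : ∀ (X : Matrix (Idx (k + 1)) (Idx (k + 1)) ℝ), (∀ a b, |X a b| ≤ (1 / 2) / 2 ^ (k + 1)) →
        ∀ i j a b, |blk (n := Idx k) X i j a b| ≤ (1 / 2) / 2 ^ k := by
      intro X hX i j a b
      show |2 * X (i, a) (j, b)| ≤ _
      rw [abs_mul, abs_of_pos (by norm_num : (0 : ℝ) < 2)]
      have := hX (i, a) (j, b)
      have h2 : (1 / 2 : ℝ) / 2 ^ (k + 1) = ((1 / 2) / 2 ^ k) / 2 := by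
        rw [pow_succ]; field_simp
      rw [h2] at this
      linarith
    congr 2
    apply Finset.sum_congr rfl; intro j _
    apply Finset.sum_congr rfl; intro l _
    exact ih _ _ _ (hc A hA _ _) (hc B hB _ _) (hc D hD _ _)

end Vale.Agent.Lib.P075
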