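import Vale.Agent.Lib.P075.StepForm

/-!
Continuity of the form with respect to the integral norm on bounded functions.
-/

open MeasureTheory Finset BigOperators

set_option linter.unusedSectionVars false
set_option linter.unusedSimpArgs false

namespace Vale.Agent.Lib.P075

/-- bounded measurable function supported in the square of side `2 ^ L` -/
structure Adm (B : ℝ) (L : ℕ) (F : ℝ × ℝ → ℝ) : Prop where
  meas : Measurable F
  bd : ∀ p, |F p| ≤ B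
  supp : ∀ p, F p ≠ 0 → p.1 ∈ Ib L ∧ p.2 ∈ Ib L

lemma Adm.B_nonneg {B : ℝ} {L : ℕ} {F : ℝ × ℝ → ℝ} (h : Adm B L F) : 0 ≤ B :=
  (abs_nonneg _).trans (h.bd (0, 0))

lemma Adm.le1 {B : ℝ} {L : ℕ} {F : ℝ × ℝ → ℝ} (h : Adm B L F) (p : ℝ × ℝ) :
    |F p| ≤ B * ci (Ib L) p.1 := by
  by_cases c : F p = 0
  · rw [c, abs_zero]
    exact mul_nonneg h.B_nonneg (ci_nonneg _ _)
  · rw [ci_of_mem (h.supp p c).1, mul_one]
    exact h.bd p

lemma Adm.le2 {B : ℝ} {L : ℕ} {F : ℝ × ℝ → ℝ} (h : Adm B L F) (p : ℝ × ℝ) :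
    |F p| ≤ B * ci (Ib L) p.2 := by
  by_cases c : F p = 0
  · rw [c, abs_zero]
    exact mul_nonneg h.B_nonneg (ci_nonneg _ _)
  · rw [ci_of_mem (h.supp p c).2, mul_one]
    exact h.bd p

lemma Adm.le12 {B : ℝ} {L : ℕ} {F : ℝ × ℝ → ℝ} (h : Adm B L F) (p : ℝ × ℝ) :
    |F p| ≤ B * (ci (Ib L) p.1 * ci (Ib L) p.2) := by
  by_cases c : F p = 0
  · rw [c, abs_zero]
    exact mul_nonneg h.B_nonneg (mul_nonneg (ci_nonneg _ _) (ci_nonneg _ _))
  · rw [ci_of_mem (h.supp p c).1, ci_of_mem (h.supp p c).2, mul_one, mul_one]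
    exact h.bd p

lemma integrable_ci2 (L : ℕ) : Integrable (fun p : ℝ × ℝ => ci (Ib L) p.1 * ci (Ib L) p.2) :=
  (integrable_ci_Ib L).mul_prod (integrable_ci_Ib L)

lemma Adm.integrable {B : ℝ} {L : ℕ} {F : ℝ × ℝ → ℝ} (h : Adm B L F) : Integrable F := by
  refine Integrable.mono' ((integrable_ci2 L).const_mul B) h.meas.aestronglyMeasurable ?_
  exact Filter.Eventually.of_forall fun p => by
    rw [Real.norm_eq_abs]
    exact h.le12 p

lemma Adm.integrable_sub {B B' : ℝ} {L L' : ℕ} {F G : ℝ × ℝ → ℝ} (h : Adm B L F) (h' : Adm B' L' G) :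
    Integrable (fun p => |F p - G p|) :=
  (h.integrable.sub h'.integrable).abs

/-- the Haar function is bounded by one -/
lemma abs_haarI_le (k : ℤ) (n : ℕ) (x : ℝ) : |haarI k n x| ≤ 1 := by
  rw [haarI]
  by_cases h1 : x ∈ Set.Ico ((2 : ℝ) ^ k * n) ((2 : ℝ) ^ k * (n + 1 / 2))
  · have h2 : x ∉ Set.Ico ((2 : ℝ) ^ k * (n + 1 / 2)) ((2 : ℝ) ^ k * (n + 1)) := by
      intro hc
      exact absurd hc.1 (not_le.mpr h1.2)
    rw [Set.indicator_of_mem h1, Set.indicator_of_notMem h2]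
    norm_num
  · rw [Set.indicator_of_notMem h1]
    by_cases h2 : x ∈ Set.Ico ((2 : ℝ) ^ k * (n + 1 / 2)) ((2 : ℝ) ^ k * (n + 1))
    · rw [Set.indicator_of_mem h2]
      norm_num
    · rw [Set.indicator_of_notMem h2]
      norm_num

lemma measurable_haarI (k : ℤ) (n : ℕ) : Measurable (haarI k n) := by
  have h1 : Measurable (ci (Set.Ico ((2 : ℝ) ^ k * n) ((2 : ℝ) ^ k * (n + 1 / 2)))) :=
    measurable_ci measurableSet_Ico
  have h2 : Measurable (ci (Set.Ico ((2 : ℝ) ^ k * (n + 1 / 2)) ((2 : ℝ) ^ k * (n + 1)))) :=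
    measurable_ci measurableSet_Ico
  exact h1.sub h2

/-- the product of the three Haar functions -/
noncomputable def HH (k : ℤ) (n0 n1 n2 : ℕ) (x : ℝ × ℝ × ℝ) : ℝ :=
  haarI k n0 x.1 * haarI k n1 x.2.1 * haarI k n2 x.2.2

lemma abs_HH_le (k : ℤ) (n0 n1 n2 : ℕ) (x : ℝ × ℝ × ℝ) : |HH k n0 n1 n2 x| ≤ 1 := by
  rw [HH, abs_mul, abs_mul]
  have h1 := abs_haarI_le k n0 x.1
  have h2 := abs_haarI_le k n1 x.2.1
  have h3 := abs_haarI_le k n2 x.2.2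
  calc _ ≤ (1 : ℝ) * 1 * 1 := by gcongr
    _ = 1 := by norm_num

lemma measurable_HH (k : ℤ) (n0 n1 n2 : ℕ) : Measurable (HH k n0 n1 n2) :=
  (((measurable_haarI k n0).comp measurable_fst).mul
    ((measurable_haarI k n1).comp (measurable_fst.comp measurable_snd))).mul
    ((measurable_haarI k n2).comp (measurable_snd.comp measurable_snd))

/-- the integrand -/
noncomputable def PhiF (F0 F1 F2 : ℝ × ℝ → ℝ) (k : ℤ) (n0 n1 n2 : ℕ) (x : ℝ × ℝ × ℝ) : ℝ :=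
  F0 (x.1, x.2.1) * F1 (x.2.1, x.2.2) * F2 (x.2.2, x.1) * HH k n0 n1 n2 x

lemma formI_eq (F0 F1 F2 : ℝ × ℝ → ℝ) (k : ℤ) (n0 n1 n2 : ℕ) :
    formI F0 F1 F2 k n0 n1 n2 = (2 : ℝ) ^ (-k) * ∫ x, PhiF F0 F1 F2 k n0 n1 n2 x := rfl

lemma measurable_PhiF {F0 F1 F2 : ℝ × ℝ → ℝ} (h0 : Measurable F0) (h1 : Measurable F1) (h2 : Measurable F2)
    (k : ℤ) (n0 n1 n2 : ℕ) : Measurable (PhiF F0 F1 F2 k n0 n1 n2) := by
  have m0 : Measurable fun x : ℝ × ℝ × ℝ => F0 (x.1, x.2.1) :=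
    h0.comp (measurable_fst.prodMk (measurable_fst.comp measurable_snd))
  have m1 : Measurable fun x : ℝ × ℝ × ℝ => F1 (x.2.1, x.2.2) :=
    h1.comp ((measurable_fst.comp measurable_snd).prodMk (measurable_snd.comp measurable_snd))
  have m2 : Measurable fun x : ℝ × ℝ × ℝ => F2 (x.2.2, x.1) :=
    h2.comp ((measurable_snd.comp measurable_snd).prodMk measurable_fst)
  exact ((m0.mul m1).mul m2).mul (measurable_HH k n0 n1 n2)

/-- indicator of the cube -/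
lemma integrable_ci3 (L : ℕ) :
    Integrable (fun x : ℝ × ℝ × ℝ => ci (Ib L) x.1 * (ci (Ib L) x.2.1 * ci (Ib L) x.2.2)) :=
  (integrable_ci_Ib L).mul_prod (integrable_ci2 L)

lemma integrable_PhiF {B : ℝ} {L : ℕ} {F0 F1 F2 : ℝ × ℝ → ℝ} (h0 : Adm B L F0) (h1 : Adm B L F1)
    (h2 : Adm B L F2) (k : ℤ) (n0 n1 n2 : ℕ) : Integrable (PhiF F0 F1 F2 k n0 n1 n2) := by
  have hB := h0.B_nonneg
  refine Integrable.mono' ((integrable_ci3 L).const_mul (B * B * B))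
    (measurable_PhiF h0.meas h1.meas h2.meas k n0 n1 n2).aestronglyMeasurable ?_
  refine Filter.Eventually.of_forall fun x => ?_
  rw [Real.norm_eq_abs, PhiF, abs_mul, abs_mul, abs_mul]
  have a0 := h0.le1 (x.1, x.2.1)
  have a1 := h1.le1 (x.2.1, x.2.2)
  have a2 := h2.le1 (x.2.2, x.1)
  simp only at a0 a1 a2
  have a3 := abs_HH_le k n0 n1 n2 x
  have c0 := ci_nonneg (Ib L) x.1
  have c1 := ci_nonneg (Ib L) x.2.1
  have c2 := ci_nonneg (Ib L) x.2.2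
  calc _ ≤ (B * ci (Ib L) x.1) * (B * ci (Ib L) x.2.1) * (B * ci (Ib L) x.2.2) * 1 := by gcongr
    _ = _ := by ring

/-- the cyclic shift -/
def tauE : (ℝ × ℝ × ℝ) ≃ᵐ (ℝ × ℝ × ℝ) := MeasurableEquiv.prodComm.trans MeasurableEquiv.prodAssoc

lemma tauE_apply (x : ℝ × ℝ × ℝ) : tauE x = (x.2.1, x.2.2, x.1) := rfl

lemma tauE_mp : MeasurePreserving tauE (volume : Measure (ℝ × ℝ × ℝ)) volume := by
  have h1 : MeasurePreserving (MeasurableEquiv.prodComm : (ℝ × ℝ × ℝ) ≃ᵐ ((ℝ × ℝ) × ℝ)) volume volume :=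
    Measure.measurePreserving_swap
  have h2 : MeasurePreserving (MeasurableEquiv.prodAssoc : ((ℝ × ℝ) × ℝ) ≃ᵐ (ℝ × ℝ × ℝ)) volume volume :=
    volume_preserving_prodAssoc
  exact h2.comp h1

section bounds

variable {L : ℕ} {H : ℝ × ℝ → ℝ}

lemma int_b (hH : Integrable H) : Integrable (fun x : ℝ × ℝ × ℝ => ci (Ib L) x.1 * H x.2) :=
  (integrable_ci_Ib L).mul_prod hH

lemma int_c (hH : Integrable H) : Integrable (fun x : ℝ × ℝ × ℝ => H (x.2.2, x.1) * ci (Ib L) x.2.1) := by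
  have := tauE_mp.integrable_comp_of_integrable (int_b (L := L) hH)
  refine this.congr (Filter.Eventually.of_forall fun x => ?_)
  simp only [Function.comp, tauE_apply]
  ring

lemma int_a (hH : Integrable H) : Integrable (fun x : ℝ × ℝ × ℝ => H (x.1, x.2.1) * ci (Ib L) x.2.2) := by
  have := tauE_mp.integrable_comp_of_integrable (int_c (L := L) hH)
  refine this.congr (Filter.Eventually.of_forall fun x => ?_)
  simp only [Function.comp, tauE_apply]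

lemma val_b (H : ℝ × ℝ → ℝ) : ∫ x : ℝ × ℝ × ℝ, ci (Ib L) x.1 * H x.2 = 2 ^ L * ∫ p, H p := by
  have := integral_prod_mul (μ := volume) (ν := (volume : Measure (ℝ × ℝ))) (ci (Ib L)) H
  rw [integral_ci_Ib] at this
  exact this

lemma val_c (H : ℝ × ℝ → ℝ) : ∫ x : ℝ × ℝ × ℝ, H (x.2.2, x.1) * ci (Ib L) x.2.1 = 2 ^ L * ∫ p, H p := by
  rw [← val_b H, ← tauE_mp.integral_comp' (fun x : ℝ × ℝ × ℝ => ci (Ib L) x.1 * H x.2)]
  apply integral_congr_ae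
  refine Filter.Eventually.of_forall fun x => ?_
  simp only [tauE_apply]
  ring

lemma val_a (H : ℝ × ℝ → ℝ) : ∫ x : ℝ × ℝ × ℝ, H (x.1, x.2.1) * ci (Ib L) x.2.2 = 2 ^ L * ∫ p, H p := by
  rw [← val_c H, ← tauE_mp.integral_comp' (fun x : ℝ × ℝ × ℝ => H (x.2.2, x.1) * ci (Ib L) x.2.1)]
  apply integral_congr_ae
  refine Filter.Eventually.of_forall fun x => ?_
  simp only [tauE_apply]

end bounds

lemma integral_add3 {X : Type*} [MeasureSpace X] {f g h : X → ℝ} (hf : Integrable f) (hg : Integrable g)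
    (hh : Integrable h) : ∫ x, f x + g x + h x = (∫ x, f x) + (∫ x, g x) + ∫ x, h x := by
  have := integral_add (hf.add hg) hh
  simp only [Pi.add_apply] at this
  rw [this, integral_add hf hg]

/-- the difference of the forms in terms of the integral distances -/
lemma formI_sub_le {B : ℝ} {L : ℕ} {F0 F1 F2 G0 G1 G2 : ℝ × ℝ → ℝ}
    (hF0 : Adm B L F0) (hF1 : Adm B L F1) (hF2 : Adm B L F2)
    (hG0 : Adm B L G0) (hG1 : Adm B L G1) (hG2 : Adm B L G2) (k : ℤ) (n0 n1 n2 : ℕ) :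
    |formI F0 F1 F2 k n0 n1 n2 - formI G0 G1 G2 k n0 n1 n2| ≤
      (2 : ℝ) ^ (-k) * (B ^ 2 * (2 ^ L * ((∫ p, |F0 p - G0 p|) + (∫ p, |F1 p - G1 p|) + ∫ p, |F2 p - G2 p|))) := by
  have hB := hF0.B_nonneg
  have i0 := hF0.integrable_sub hG0
  have i1 := hF1.integrable_sub hG1
  have i2 := hF2.integrable_sub hG2
  rw [formI_eq, formI_eq, ← mul_sub, abs_mul, abs_of_pos (by positivity : (0 : ℝ) < 2 ^ (-k)),
    ← integral_sub (integrable_PhiF hF0 hF1 hF2 k n0 n1 n2) (integrable_PhiF hG0 hG1 hG2 k n0 n1 n2)]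
  apply mul_le_mul_of_nonneg_left _ (by positivity)
  set bd : ℝ × ℝ × ℝ → ℝ := fun x => B ^ 2 * (|F0 (x.1, x.2.1) - G0 (x.1, x.2.1)| * ci (Ib L) x.2.2
    + ci (Ib L) x.1 * |F1 x.2 - G1 x.2| + |F2 (x.2.2, x.1) - G2 (x.2.2, x.1)| * ci (Ib L) x.2.1) with hbd
  have ibd : Integrable bd := by
    apply Integrable.const_mul
    exact ((int_a i0).add (int_b i1)).add (int_c i2)
  have vbd : ∫ x, bd x = B ^ 2 * (2 ^ L * ((∫ p, |F0 p - G0 p|) + (∫ p, |F1 p - G1 p|) + ∫ p, |F2 p - G2 p|)) := by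
    simp only [hbd]
    rw [integral_const_mul, integral_add3 (int_a i0) (int_b i1) (int_c i2)]
    have e0 := val_a (L := L) (fun p => |F0 p - G0 p|)
    have e1 := val_b (L := L) (fun p => |F1 p - G1 p|)
    have e2 := val_c (L := L) (fun p => |F2 p - G2 p|)
    rw [e0, e1, e2]
    ring
  rw [← vbd]
  refine (abs_integral_le_integral_abs).trans ?_
  apply integral_mono_of_nonneg (Filter.Eventually.of_forall fun x => abs_nonneg _) ibd
  refine Filter.Eventually.of_forall fun x => ?_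
  show |PhiF F0 F1 F2 k n0 n1 n2 x - PhiF G0 G1 G2 k n0 n1 n2 x| ≤ bd x
  have a3 := abs_HH_le k n0 n1 n2 x
  have e : PhiF F0 F1 F2 k n0 n1 n2 x - PhiF G0 G1 G2 k n0 n1 n2 x =
      ((F0 (x.1, x.2.1) - G0 (x.1, x.2.1)) * F1 x.2 * F2 (x.2.2, x.1)
        + G0 (x.1, x.2.1) * (F1 x.2 - G1 x.2) * F2 (x.2.2, x.1)
        + G0 (x.1, x.2.1) * G1 x.2 * (F2 (x.2.2, x.1) - G2 (x.2.2, x.1))) * HH k n0 n1 n2 x := by
    simp only [PhiF]
    ring
  rw [e, abs_mul]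
  have b1 : |F1 x.2| ≤ B * ci (Ib L) x.2.2 := hF1.le2 x.2
  have b2 : |F2 (x.2.2, x.1)| ≤ B := hF2.bd _
  have b3 : |G0 (x.1, x.2.1)| ≤ B * ci (Ib L) x.1 := hG0.le1 _
  have b4 : |G0 (x.1, x.2.1)| ≤ B * ci (Ib L) x.2.1 := hG0.le2 _
  have b5 : |G1 x.2| ≤ B := hG1.bd _
  have c0 := ci_nonneg (Ib L) x.1
  have c1 := ci_nonneg (Ib L) x.2.1
  have c2 := ci_nonneg (Ib L) x.2.2
  have t1 : |(F0 (x.1, x.2.1) - G0 (x.1, x.2.1)) * F1 x.2 * F2 (x.2.2, x.1)| ≤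
      B ^ 2 * (|F0 (x.1, x.2.1) - G0 (x.1, x.2.1)| * ci (Ib L) x.2.2) := by
    rw [abs_mul, abs_mul]
    calc _ ≤ |F0 (x.1, x.2.1) - G0 (x.1, x.2.1)| * (B * ci (Ib L) x.2.2) * B := by gcongr
      _ = _ := by ring
  have t2 : |G0 (x.1, x.2.1) * (F1 x.2 - G1 x.2) * F2 (x.2.2, x.1)| ≤
      B ^ 2 * (ci (Ib L) x.1 * |F1 x.2 - G1 x.2|) := by
    rw [abs_mul, abs_mul]
    calc _ ≤ (B * ci (Ib L) x.1) * |F1 x.2 - G1 x.2| * B := by gcongr
      _ = _ := by ring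
  have t3 : |G0 (x.1, x.2.1) * G1 x.2 * (F2 (x.2.2, x.1) - G2 (x.2.2, x.1))| ≤
      B ^ 2 * (|F2 (x.2.2, x.1) - G2 (x.2.2, x.1)| * ci (Ib L) x.2.1) := by
    rw [abs_mul, abs_mul]
    calc _ ≤ (B * ci (Ib L) x.2.1) * B * |F2 (x.2.2, x.1) - G2 (x.2.2, x.1)| := by gcongr
      _ = _ := by ring
  have t4 := abs_add_le (((F0 (x.1, x.2.1) - G0 (x.1, x.2.1)) * F1 x.2 * F2 (x.2.2, x.1)
        + G0 (x.1, x.2.1) * (F1 x.2 - G1 x.2) * F2 (x.2.2, x.1)))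
        (G0 (x.1, x.2.1) * G1 x.2 * (F2 (x.2.2, x.1) - G2 (x.2.2, x.1)))
  have t5 := abs_add_le ((F0 (x.1, x.2.1) - G0 (x.1, x.2.1)) * F1 x.2 * F2 (x.2.2, x.1))
        (G0 (x.1, x.2.1) * (F1 x.2 - G1 x.2) * F2 (x.2.2, x.1))
  have t6 : |((F0 (x.1, x.2.1) - G0 (x.1, x.2.1)) * F1 x.2 * F2 (x.2.2, x.1)
        + G0 (x.1, x.2.1) * (F1 x.2 - G1 x.2) * F2 (x.2.2, x.1)
        + G0 (x.1, x.2.1) * G1 x.2 * (F2 (x.2.2, x.1) - G2 (x.2.2, x.1)))| ≤ bd x := by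
    simp only [hbd]
    rw [mul_add, mul_add]
    linarith
  calc _ ≤ bd x * 1 := by
        apply mul_le_mul t6 a3 (abs_nonneg _) ((abs_nonneg _).trans t6)
    _ = bd x := mul_one _

/-- vanishing of the form for indices beyond the square -/
lemma formI_zero_of_ge {B : ℝ} {L : ℕ} {F0 F1 F2 : ℝ × ℝ → ℝ} (hF0 : Adm B L F0)
    {k : ℤ} {j : ℕ} (hj : k + j = L) {n0 n1 n2 : ℕ} (hn : 2 ^ j ≤ n0 ∨ 2 ^ j ≤ n1) :
    formI F0 F1 F2 k n0 n1 n2 = 0 := by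
  have hkey : ∀ n : ℕ, 2 ^ j ≤ n → ∀ y : ℝ, haarI k n y ≠ 0 → y ∉ Ib L := by
    intro n hn y hy hc
    have e1 : (2 : ℝ) ^ k * 2 ^ j = 2 ^ L := by
      have : (2 : ℝ) ^ j = 2 ^ (j : ℤ) := (zpow_natCast _ _).symm
      rw [this, ← zpow_add₀ (by norm_num), hj, zpow_natCast]
    have hk : (0 : ℝ) < 2 ^ k := by positivity
    have hn' : (2 : ℝ) ^ j ≤ n := by exact_mod_cast hn
    have h5 : (2 : ℝ) ^ L ≤ 2 ^ k * n := by
      rw [← e1]
      exact mul_le_mul_of_nonneg_left hn' hk.le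
    have h6 : y < 2 ^ k * n := lt_of_lt_of_le hc.2 h5
    apply hy
    rw [haarI, Set.indicator_of_notMem, Set.indicator_of_notMem, sub_zero]
    · intro h7
      have h8 := h7.1
      have h9 : (2 : ℝ) ^ k * n ≤ 2 ^ k * (n + 1 / 2) :=
        mul_le_mul_of_nonneg_left (by linarith) hk.le
      linarith
    · intro h7
      have h8 := h7.1
      linarith
  rw [formI_eq]
  have : ∀ x, PhiF F0 F1 F2 k n0 n1 n2 x = 0 := by
    intro x
    simp only [PhiF, HH]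
    rcases hn with hn | hn
    · by_cases c : haarI k n0 x.1 = 0
      · rw [c]; ring
      · have h1 := hkey n0 hn x.1 c
        have h2 : F0 (x.1, x.2.1) = 0 := by
          by_contra hc
          exact h1 (hF0.supp _ hc).1
        rw [h2]; ring
    · by_cases c : haarI k n1 x.2.1 = 0
      · rw [c]; ring
      · have h1 := hkey n1 hn x.2.1 c
        have h2 : F0 (x.1, x.2.1) = 0 := by
          by_contra hc
          exact h1 (hF0.supp _ hc).2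
        rw [h2]; ring
  simp [this]

/-- the sum over index pairs is a finite sum -/
lemma tsum_formI {B : ℝ} {L : ℕ} {F0 F1 F2 : ℝ × ℝ → ℝ} (hF0 : Adm B L F0)
    {k : ℤ} {j : ℕ} (hj : k + j = L) :
    ∑' n : ℕ × ℕ, formI F0 F1 F2 k n.1 n.2 (n.1 ^^^ n.2) =
      ∑ n0 ∈ range (2 ^ j), ∑ n1 ∈ range (2 ^ j), formI F0 F1 F2 k n0 n1 (n0 ^^^ n1) := by
  rw [tsum_eq_sum (s := range (2 ^ j) ×ˢ range (2 ^ j)), Finset.sum_product]
  intro n hn
  apply formI_zero_of_ge hF0 hj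
  rw [Finset.mem_product, Finset.mem_range, Finset.mem_range] at hn
  by_contra hc
  push Not at hc
  exact hn hc

end Vale.Agent.Lib.P075
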