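import Vale.Agent.Lib.P075.Svd

/-!
Lower bound for the three halves power of a sum in the singular coordinates, through an explicit
test matrix solving a Lyapunov equation.
-/

open Matrix Finset BigOperators

set_option linter.unusedSectionVars false
set_option linter.unusedSimpArgs false

namespace Vale.Agent.Lib.P075

variable {ι : Type*} [Fintype ι] [DecidableEq ι] {n : Type*} [Fintype n] [DecidableEq n]

/-- positivity from a Lyapunov equation -/
lemma lyapunov_psd {D S G : Matrix ι ι ℝ} (hD : Psd D) (hS : Sᵀ = S) (hG : ∀ x, 0 ≤ qf G x)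
    (h : D * S + S * D = G) (hker : ∀ v, D *ᵥ v = 0 → S *ᵥ v = 0) : Psd S := by
  obtain ⟨U, d, hU1, hU2, hSU⟩ := sym_eig hS
  have hd : ∀ i, 0 ≤ d i := by
    intro i
    set v := colm U i with hv
    have hv1 : nsq v = 1 := by
      rw [hv, colm_eq_mulVec, nsq_mulVec_eq_qf, hU1, qf_one, nsq_eq_sum]
      rw [Finset.sum_eq_single i]
      · simp
      · intro b _ hb
        simp [Pi.single_apply, hb]
      · simp
    have hSv : S *ᵥ v = d i • v := by
      have e : S * U = U * diagonal d := by
        rw [hSU]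
        calc U * diagonal d * Uᵀ * U = U * diagonal d * (Uᵀ * U) := by simp only [Matrix.mul_assoc]
          _ = U * diagonal d := by rw [hU1, Matrix.mul_one]
      have e2 : colm (S * U) i = S *ᵥ v := mul_colm _ _ _
      rw [← e2, e]
      funext a
      simp [colm, Matrix.mul_diagonal, hv, mul_comm]
    have hGv : qf G v = 2 * d i * qf D v := by
      rw [← h, qf_add]
      have e1 : qf (D * S) v = d i * qf D v := by
        simp only [qf]
        rw [← Matrix.mulVec_mulVec, hSv, Matrix.mulVec_smul, dotProduct_smul, smul_eq_mul]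
      have e2 : qf (S * D) v = d i * qf D v := by
        simp only [qf]
        rw [← Matrix.mulVec_mulVec, dot_mulVec_symm hS, dotProduct_comm, hSv, dotProduct_comm,
          ]
        simp only [dotProduct_smul, smul_eq_mul, smul_dotProduct]
        rw [dotProduct_comm]
      rw [e1, e2]
      ring
    have h0 := hG v
    rw [hGv] at h0
    have hDv := hD.nonneg v
    by_contra hneg
    rw [not_le] at hneg
    have hw : qf D v = 0 := by
      by_contra hne
      have hpos : 0 < qf D v := lt_of_le_of_ne hDv (Ne.symm hne)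
      have := mul_neg_of_neg_of_pos hneg hpos
      linarith
    have hD0 : D *ᵥ v = 0 := qf_zero_mulVec hD hw
    have h5 : d i • v = 0 := by
      rw [← hSv]; exact hker v hD0
    have h6 : nsq (d i • v) = d i ^ 2 * nsq v := nsq_smul _ _
    rw [h5, hv1] at h6
    have h7 : nsq (0 : ι → ℝ) = 0 := by simp [nsq]
    rw [h7] at h6
    have : d i ^ 2 = 0 := by linarith
    have : d i = 0 := by simpa using this
    linarith
  refine ⟨hS, fun x => ?_⟩
  rw [hSU, qf_conj_diag]
  exact Finset.sum_nonneg fun i _ => mul_nonneg (hd i) (sq_nonneg _)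

lemma trace_blocks {l m : Type*} [Fintype l] [Fintype m] (A : Matrix l l ℝ) (B : Matrix l m ℝ)
    (C : Matrix m l ℝ) (D : Matrix m m ℝ) : trace (fromBlocks A B C D) = trace A + trace D := by
  simp [Matrix.trace, Fintype.sum_sum_type]

/-- the off diagonal block of the test matrix -/
noncomputable def ytest (σ τ : n → ℝ) (ρ : Matrix n n ℝ) : Matrix n n ℝ :=
  Matrix.of fun i j => σ i * τ j * ρ i j / (σ i + τ j)

/-- the pair kernel -/
noncomputable def Kh (s t r : ℝ) : ℝ := (s * t * r) ^ 2 / (s + t)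

/-- the defect lower bound -/
noncomputable def EE (σ τ : n → ℝ) (ρ : Matrix n n ℝ) : ℝ := ∑ i, ∑ j, Kh (σ i) (τ j) (ρ i j)

lemma Kh_nonneg {s t : ℝ} (hs : 0 ≤ s) (ht : 0 ≤ t) (r : ℝ) : 0 ≤ Kh s t r :=
  div_nonneg (sq_nonneg _) (add_nonneg hs ht)

lemma ytest_eq {s t : ℝ} (hs : 0 ≤ s) (ht : 0 ≤ t) (r : ℝ) :
    (s + t) * (s * t * r / (s + t)) = s * t * r := by
  by_cases h : s + t = 0
  · have h1 : s = 0 := by linarith
    simp [h1]
  · field_simp

lemma trace_mul_tr (X Y : Matrix n n ℝ) : trace (X * Yᵀ) = ∑ i, ∑ j, X i j * Y i j := by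
  simp [Matrix.trace, Matrix.mul_apply]

lemma trace_tr_mul (X Y : Matrix n n ℝ) : trace (Xᵀ * Y) = ∑ i, ∑ j, X i j * Y i j := by
  rw [Matrix.trace_mul_comm, trace_mul_tr]
  simp only [mul_comm]

/-- the pointwise algebra of the test matrix -/
lemma test_algebra (s t r : ℝ) :
    3 * (s * r * t * (s * t * r / (s + t))) - (3 / 2 : ℝ) * ((s + t) * (s * t * r / (s + t)) ^ 2)
      = (3 / 2 : ℝ) * Kh s t r := by
  simp only [Kh]
  by_cases h : s + t = 0
  · simp [h]
  · field_simp
    ring

section test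

variable {σ τ : n → ℝ} {ρ : Matrix n n ℝ}

/-- the test matrix is positive -/
lemma test_psd (hσ : ∀ i, 0 ≤ σ i) (hτ : ∀ i, 0 ≤ τ i)
    (hρ : diagonal τ * (ρᵀ * ρ) * diagonal τ = diagonal (fun j => τ j * τ j)) :
    Psd (fromBlocks (diagonal σ) (ytest σ τ ρ) (ytest σ τ ρ)ᵀ (diagonal τ)) := by
  set y := ytest σ τ ρ with hy
  set a : Matrix (n ⊕ n) n ℝ := fromRows (diagonal σ) (diagonal τ * ρᵀ) with ha
  set D : Matrix (n ⊕ n) (n ⊕ n) ℝ := fromBlocks (diagonal σ) 0 0 (diagonal τ) with hD
  have hDp : Psd D := by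
    have : D = diagonal (Sum.elim σ τ) := by
      rw [hD, Matrix.fromBlocks_diagonal]
    rw [this]
    apply psd_diag
    rintro (i | i)
    · exact hσ i
    · exact hτ i
  have hsyl : diagonal σ * y + y * diagonal τ = diagonal σ * ρ * diagonal τ := by
    ext i j
    simp only [Matrix.add_apply, Matrix.diagonal_mul, Matrix.mul_diagonal, hy, ytest, Matrix.of_apply]
    have := ytest_eq (hσ i) (hτ j) (ρ i j)
    linarith
  have hG : a * aᵀ = fromBlocks (diagonal fun i => σ i * σ i) (diagonal σ * ρ * diagonal τ)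
      (diagonal τ * ρᵀ * diagonal σ) (diagonal fun j => τ j * τ j) := by
    rw [ha, transpose_fromRows, fromRows_mul_fromCols]
    congr 1
    · simp [Matrix.diagonal_mul_diagonal]
    · simp [Matrix.transpose_mul, Matrix.mul_assoc]
    · simp [Matrix.mul_assoc]
    · rw [← hρ]
      simp [Matrix.transpose_mul, Matrix.mul_assoc]
  apply lyapunov_psd (G := a * aᵀ + D * D) hDp
  · rw [Matrix.fromBlocks_transpose]
    simp
  · intro x
    rw [qf_add]
    exact add_nonneg ((psd_mult_rect a).nonneg x) ((psd_sq_of_symm hDp.symm).nonneg x)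
  · rw [hG, hD]
    simp only [Matrix.fromBlocks_multiply, Matrix.fromBlocks_add, Matrix.mul_zero, Matrix.zero_mul,
      add_zero, zero_add, Matrix.diagonal_mul_diagonal]
    have hsyl2 : diagonal τ * yᵀ + yᵀ * diagonal σ = diagonal τ * ρᵀ * diagonal σ := by
      have := congrArg Matrix.transpose hsyl
      simpa [Matrix.transpose_mul, Matrix.mul_assoc, add_comm] using this
    congr 1
  · intro v hv
    have h1 : ∀ i, σ i * v (Sum.inl i) = 0 := by
      intro i
      have := congrFun hv (Sum.inl i)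
      simpa [hD, Matrix.fromBlocks_mulVec, Matrix.mulVec_diagonal] using this
    have h2 : ∀ j, τ j * v (Sum.inr j) = 0 := by
      intro j
      have := congrFun hv (Sum.inr j)
      simpa [hD, Matrix.fromBlocks_mulVec, Matrix.mulVec_diagonal] using this
    funext p
    rcases p with i | j
    · have e : ∀ j, y i j * v (Sum.inr j) = 0 := by
        intro j
        simp only [hy, ytest, Matrix.of_apply]
        have := h2 j
        calc σ i * τ j * ρ i j / (σ i + τ j) * v (Sum.inr j)
            = σ i * ρ i j / (σ i + τ j) * (τ j * v (Sum.inr j)) := by ring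
          _ = 0 := by rw [this, mul_zero]
      simp only [Matrix.fromBlocks_mulVec, Sum.elim_inl, Pi.add_apply, Matrix.mulVec_diagonal,
        Function.comp_apply, h1, zero_add, Pi.zero_apply]
      show ∑ j, y i j * v (Sum.inr j) = 0
      simp [e]
    · have e : ∀ i, y i j * v (Sum.inl i) = 0 := by
        intro i
        simp only [hy, ytest, Matrix.of_apply]
        have := h1 i
        calc σ i * τ j * ρ i j / (σ i + τ j) * v (Sum.inl i)
            = τ j * ρ i j / (σ i + τ j) * (σ i * v (Sum.inl i)) := by ring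
          _ = 0 := by rw [this, mul_zero]
      simp only [Matrix.fromBlocks_mulVec, Sum.elim_inr, Pi.add_apply, Matrix.mulVec_diagonal,
        Function.comp_apply, h2, add_zero, Pi.zero_apply]
      show ∑ i, y i j * v (Sum.inl i) = 0
      simp [e]

/-- **The coordinate lower bound.** -/
theorem coord_lower (hσ : ∀ i, 0 ≤ σ i) (hτ : ∀ i, 0 ≤ τ i)
    (hρ : diagonal τ * (ρᵀ * ρ) * diagonal τ = diagonal (fun j => τ j * τ j)) :
    ∑ i, σ i ^ 3 + ∑ j, τ j ^ 3 + (3 / 2 : ℝ) * EE σ τ ρ ≤
      f32 (diagonal (fun i => σ i * σ i) + ρ * diagonal (fun j => τ j * τ j) * ρᵀ) := by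
  set y := ytest σ τ ρ with hy
  set a : Matrix (n ⊕ n) n ℝ := fromRows (diagonal σ) (diagonal τ * ρᵀ) with ha
  have hG : a * aᵀ = fromBlocks (diagonal fun i => σ i * σ i) (diagonal σ * ρ * diagonal τ)
      (diagonal τ * ρᵀ * diagonal σ) (diagonal fun j => τ j * τ j) := by
    rw [ha, transpose_fromRows, fromRows_mul_fromCols]
    congr 1
    · simp [Matrix.diagonal_mul_diagonal]
    · simp [Matrix.transpose_mul, Matrix.mul_assoc]
    · simp [Matrix.mul_assoc]
    · rw [← hρ]
      simp [Matrix.transpose_mul, Matrix.mul_assoc]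
  have hP : aᵀ * a = diagonal (fun i => σ i * σ i) + ρ * diagonal (fun j => τ j * τ j) * ρᵀ := by
    rw [ha, transpose_fromRows, fromCols_mul_fromRows]
    congr 1
    · simp [Matrix.diagonal_mul_diagonal]
    · simp only [Matrix.transpose_mul, Matrix.transpose_transpose, Matrix.diagonal_transpose]
      calc ρ * diagonal τ * (diagonal τ * ρᵀ) = ρ * (diagonal τ * diagonal τ) * ρᵀ := by
            simp only [Matrix.mul_assoc]
        _ = _ := by rw [Matrix.diagonal_mul_diagonal]
  have hS := test_psd (ρ := ρ) hσ hτ hρ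
  rw [← hy] at hS
  have hvar := f32_var (psd_mult_rect a) hS
  rw [f32_tmul_eq, hP] at hvar
  refine le_trans (le_of_eq ?_) hvar
  rw [hG]
  -- the trace of the product with the test matrix
  have t1 : trace (fromBlocks (diagonal fun i => σ i * σ i) (diagonal σ * ρ * diagonal τ)
      (diagonal τ * ρᵀ * diagonal σ) (diagonal fun j => τ j * τ j) *
        fromBlocks (diagonal σ) y yᵀ (diagonal τ)) =
      ∑ i, σ i ^ 3 + ∑ j, τ j ^ 3 + 2 * ∑ i, ∑ j, σ i * ρ i j * τ j * y i j := by
    rw [Matrix.fromBlocks_multiply, trace_blocks, trace_add, trace_add, Matrix.diagonal_mul_diagonal,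
      Matrix.diagonal_mul_diagonal, Matrix.trace_diagonal, Matrix.trace_diagonal, trace_mul_tr]
    have e : diagonal τ * ρᵀ * diagonal σ = (diagonal σ * ρ * diagonal τ)ᵀ := by
      simp [Matrix.transpose_mul, Matrix.mul_assoc]
    rw [e, trace_tr_mul]
    have e2 : ∀ i j, (diagonal σ * ρ * diagonal τ) i j = σ i * ρ i j * τ j := by
      intro i j
      simp [Matrix.diagonal_mul, Matrix.mul_diagonal]
    simp only [e2]
    have e3 : ∀ i, σ i * σ i * σ i = σ i ^ 3 := fun i => by ring
    have e4 : ∀ i, τ i * τ i * τ i = τ i ^ 3 := fun i => by ring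
    simp only [e3, e4]
    ring
  -- the trace of the cube of the test matrix
  have t2 : trace (fromBlocks (diagonal σ) y yᵀ (diagonal τ) * fromBlocks (diagonal σ) y yᵀ (diagonal τ)
      * fromBlocks (diagonal σ) y yᵀ (diagonal τ)) =
      ∑ i, σ i ^ 3 + ∑ j, τ j ^ 3 + 3 * ∑ i, ∑ j, (σ i + τ j) * y i j ^ 2 := by
    simp only [Matrix.fromBlocks_multiply]
    rw [trace_blocks]
    simp only [Matrix.add_mul, trace_add, Matrix.diagonal_mul_diagonal, Matrix.trace_diagonal, Matrix.mul_assoc]
    have c1 : ∀ X Y : Matrix n n ℝ, trace (X * (Y * diagonal σ)) = trace (diagonal σ * (X * Y)) := by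
      intro X Y; rw [← Matrix.mul_assoc, Matrix.trace_mul_comm]
    have c2 : ∀ X Y : Matrix n n ℝ, trace (X * (diagonal τ * Y)) = trace (diagonal τ * (Y * X)) := by
      intro X Y; rw [Matrix.trace_mul_comm]; simp only [Matrix.mul_assoc]
    have c3 : ∀ X Y : Matrix n n ℝ, trace (X * (Y * diagonal τ)) = trace (diagonal τ * (X * Y)) := by
      intro X Y; rw [← Matrix.mul_assoc, Matrix.trace_mul_comm]
    have c4 : ∀ X Y : Matrix n n ℝ, trace (X * (diagonal σ * Y)) = trace (diagonal σ * (Y * X)) := by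
      intro X Y; rw [Matrix.trace_mul_comm]; simp only [Matrix.mul_assoc]
    rw [c1 y yᵀ, c2 y yᵀ, c4 yᵀ y, c3 yᵀ y]
    have a1 : trace (diagonal σ * (y * yᵀ)) = ∑ i, ∑ j, σ i * y i j ^ 2 := by
      simp only [Matrix.trace, Matrix.diag_apply, Matrix.diagonal_mul]
      simp only [Matrix.mul_apply, Matrix.transpose_apply, Finset.mul_sum]
      exact Finset.sum_congr rfl fun i _ => Finset.sum_congr rfl fun j _ => by ring
    have a2 : trace (diagonal τ * (yᵀ * y)) = ∑ i, ∑ j, τ j * y i j ^ 2 := by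
      simp only [Matrix.trace, Matrix.diag_apply, Matrix.diagonal_mul]
      simp only [Matrix.mul_apply, Matrix.transpose_apply, Finset.mul_sum]
      rw [Finset.sum_comm]
      exact Finset.sum_congr rfl fun i _ => Finset.sum_congr rfl fun j _ => by ring
    rw [a1, a2]
    have e3 : ∀ i, σ i * σ i * σ i = σ i ^ 3 := fun i => by ring
    have e4 : ∀ i, τ i * τ i * τ i = τ i ^ 3 := fun i => by ring
    have e5 : ∑ i, ∑ j, (σ i + τ j) * y i j ^ 2 = ∑ i, ∑ j, σ i * y i j ^ 2 + ∑ i, ∑ j, τ j * y i j ^ 2 := by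
      rw [← Finset.sum_add_distrib]
      exact Finset.sum_congr rfl fun i _ => by
        rw [← Finset.sum_add_distrib]
        exact Finset.sum_congr rfl fun j _ => by ring
    rw [e5]
    simp only [e3, e4]
    ring
  rw [t1, t2]
  have t3 : (3 / 2 : ℝ) * EE σ τ ρ = ∑ i, ∑ j, (3 * (σ i * ρ i j * τ j * y i j) - (3 / 2 : ℝ) * ((σ i + τ j) * y i j ^ 2)) := by
    simp only [EE, Finset.mul_sum]
    apply Finset.sum_congr rfl; intro i _
    apply Finset.sum_congr rfl; intro j _
    simp only [hy, ytest, Matrix.of_apply]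
    rw [test_algebra]
  rw [t3]
  simp only [Finset.sum_sub_distrib, ← Finset.mul_sum]
  ring

end test

end Vale.Agent.Lib.P075
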