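import Vale.Agent.Lib.P075.Final1

/-!
From the bound for pruned forms to the strong bound with cubic norms: a Bellman function argument
for the stopping tree.
-/

open Matrix Finset BigOperators

set_option linter.unusedSectionVars false
set_option linter.unusedSimpArgs false

namespace Vale.Agent.Lib.P075

/-- normalised cubic mass of a matrix at level `k` -/
noncomputable def cub (k : ℕ) (X : Matrix (Idx k) (Idx k) ℝ) : ℝ := 2 ^ k * ∑ a, ∑ b, |X a b| ^ 3

lemma cub_nonneg (k : ℕ) (X : Matrix (Idx k) (Idx k) ℝ) : 0 ≤ cub k X :=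
  mul_nonneg (by positivity) (Finset.sum_nonneg fun a _ => Finset.sum_nonneg fun b _ => by positivity)

lemma cub_child (k : ℕ) (X : Matrix (Idx (k + 1)) (Idx (k + 1)) ℝ) :
    cub (k + 1) X = (1 / 4 : ℝ) * ∑ i : Bool, ∑ j : Bool, cub k (blk (n := Idx k) X i j) := by
  simp only [cub]
  have e : ∀ i j : Bool, ∑ a : Idx k, ∑ b : Idx k, |blk (n := Idx k) X i j a b| ^ 3
      = 8 * ∑ a : Idx k, ∑ b : Idx k, |X (i, a) (j, b)| ^ 3 := by
    intro i j
    rw [Finset.mul_sum]
    apply Finset.sum_congr rfl; intro a _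
    rw [Finset.mul_sum]
    apply Finset.sum_congr rfl; intro b _
    show |2 * X (i, a) (j, b)| ^ 3 = _
    rw [abs_mul, abs_of_pos (by norm_num : (0 : ℝ) < 2)]
    ring
  simp only [e]
  have e2 : ∑ a : Idx (k + 1), ∑ b : Idx (k + 1), |X a b| ^ 3 =
      ∑ i : Bool, ∑ j : Bool, ∑ a : Idx k, ∑ b : Idx k, |X (i, a) (j, b)| ^ 3 := by
    show ∑ a : Bool × Idx k, ∑ b : Bool × Idx k, |X a b| ^ 3 = _
    simp only [Fintype.sum_prod_type, Fintype.sum_bool, Finset.sum_add_distrib]
  rw [e2]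
  simp only [Fintype.sum_bool, pow_succ]
  ring

/-- the pruned form with threshold `lam` -/
noncomputable def PT (eps : ℕ → ℝ) (lam : ℝ) : (k : ℕ) → (A B D : Matrix (Idx k) (Idx k) ℝ) → ℝ
  | 0, _, _, _ => 0
  | k + 1, A, B, D =>
    open Classical in
    if hs (n := Bool × Idx k) A ≤ lam ∧ hs (n := Bool × Idx k) B ≤ lam ∧ hs (n := Bool × Idx k) D ≤ lam then
      eps k * Tri (n := Idx k) A B D + (1 / 4 : ℝ) * ∑ j : Bool, ∑ l : Bool,
        PT eps lam k (blk (n := Idx k) A (xor j l) j) (blk (n := Idx k) B j l)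
          (blk (n := Idx k) D (xor j l) l)
    else 0

lemma blk_smul {n : Type*} (c : ℝ) (X : Matrix (Bool × n) (Bool × n) ℝ) (i j : Bool) :
    blk (c • X) i j = c • blk X i j := by
  ext a b
  simp only [blk_apply, Matrix.smul_apply, smul_eq_mul]
  ring

lemma Tri_smul {n : Type*} [Fintype n] [DecidableEq n] (a b d : ℝ)
    (A B D : Matrix (Bool × n) (Bool × n) ℝ) :
    Tri (a • A) (b • B) (d • D) = a * b * d * Tri A B D := by
  simp only [Tri, Matrix.transpose_smul, Matrix.mul_smul, Matrix.smul_mul, Matrix.trace_smul,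
    smul_eq_mul]
  ring

/-- scaling reduces the thresholded form to the pruned form -/
lemma PT_scale (eps : ℕ → ℝ) {c : ℝ} (hc : 0 < c) (k : ℕ) : ∀ A B D : Matrix (Idx k) (Idx k) ℝ,
    PLam eps k (c • A) (c • B) (c • D) = c ^ 3 * PT eps (1 / (4 * c ^ 2)) k A B D := by
  induction k with
  | zero =>
    intro A B D
    simp [PLam, PT]
  | succ k ih =>
    intro A B D
    have hthr : ∀ X : Matrix (Bool × Idx k) (Bool × Idx k) ℝ,
        hs (c • X) ≤ 1 / 4 ↔ hs X ≤ 1 / (4 * c ^ 2) := by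
      intro X
      rw [hs_smul, le_div_iff₀ (by positivity : (0 : ℝ) < 4 * c ^ 2)]
      constructor <;> intro h <;> nlinarith
    have hg : goodNode (n := Bool × Idx k) (c • A) (c • B) (c • D) ↔
        (hs (n := Bool × Idx k) A ≤ 1 / (4 * c ^ 2) ∧ hs (n := Bool × Idx k) B ≤ 1 / (4 * c ^ 2)
          ∧ hs (n := Bool × Idx k) D ≤ 1 / (4 * c ^ 2)) :=
      and_congr (hthr A) (and_congr (hthr B) (hthr D))
    simp only [PLam, PT]
    by_cases h : (hs (n := Bool × Idx k) A ≤ 1 / (4 * c ^ 2) ∧ hs (n := Bool × Idx k) B ≤ 1 / (4 * c ^ 2)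
          ∧ hs (n := Bool × Idx k) D ≤ 1 / (4 * c ^ 2))
    · rw [if_pos h, if_pos (hg.mpr h)]
      have e1 : Tri (n := Idx k) (c • A) (c • B) (c • D) = c * c * c * Tri (n := Idx k) A B D :=
        Tri_smul c c c A B D
      have e2 : ∀ j l, PLam eps k (blk (n := Idx k) (c • A) (xor j l) j) (blk (n := Idx k) (c • B) j l)
          (blk (n := Idx k) (c • D) (xor j l) l) = c ^ 3 * PT eps (1 / (4 * c ^ 2)) k
            (blk (n := Idx k) A (xor j l) j) (blk (n := Idx k) B j l) (blk (n := Idx k) D (xor j l) l) := by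
        intro j l
        have h1 : blk (n := Idx k) (c • A) (xor j l) j = c • blk (n := Idx k) A (xor j l) j :=
          blk_smul (n := Idx k) c A _ _
        have h2 : blk (n := Idx k) (c • B) j l = c • blk (n := Idx k) B j l :=
          blk_smul (n := Idx k) c B _ _
        have h3 : blk (n := Idx k) (c • D) (xor j l) l = c • blk (n := Idx k) D (xor j l) l :=
          blk_smul (n := Idx k) c D _ _
        rw [h1, h2, h3, ih]
      simp only [e1, e2, Fintype.sum_bool]
      ring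
    · rw [if_neg h, if_neg (fun h2 => h (hg.mp h2))]
      ring

/-- the constant of the form in the pruned estimate -/
structure PrunedK (eps : ℕ → ℝ) (K : ℝ) : Prop where
  nonneg : 0 ≤ K
  bound : ∀ (k : ℕ) (A B D : Matrix (Idx k) (Idx k) ℝ), hs A ≤ 1 → hs B ≤ 1 → hs D ≤ 1 →
    |PLam eps k A B D| ≤ K

lemma PT_bound {eps : ℕ → ℝ} {K : ℝ} (hK : PrunedK eps K) {lam : ℝ} (hlam : 0 < lam) (k : ℕ)
    (A B D : Matrix (Idx k) (Idx k) ℝ) (hA : hs A ≤ lam) (hB : hs B ≤ lam) (hD : hs D ≤ lam) :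
    |PT eps lam k A B D| ≤ 8 * K * (lam * Real.sqrt lam) := by
  set r := Real.sqrt lam with hr
  have hr0 : 0 < r := Real.sqrt_pos.mpr hlam
  have hr2 : r ^ 2 = lam := Real.sq_sqrt hlam.le
  set c := 1 / (2 * r) with hc
  have hc0 : 0 < c := by positivity
  have hthr : 1 / (4 * c ^ 2) = lam := by
    rw [hc, ← hr2]
    field_simp
    norm_num
  have hs1 : ∀ X : Matrix (Idx k) (Idx k) ℝ, hs X ≤ lam → hs (c • X) ≤ 1 := by
    intro X hX
    rw [hs_smul]
    have h1 : c ^ 2 * lam = 1 / 4 := by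
      rw [← hthr]
      field_simp
    have h2 := mul_le_mul_of_nonneg_left hX (sq_nonneg c)
    linarith
  have h1 := PT_scale eps hc0 k A B D
  rw [hthr] at h1
  have h2 := hK.bound k _ _ _ (hs1 A hA) (hs1 B hB) (hs1 D hD)
  rw [h1, abs_mul, abs_of_pos (by positivity : 0 < c ^ 3)] at h2
  have e : 1 / c ^ 3 = 8 * (lam * r) := by
    rw [hc, ← hr2]
    field_simp
    ring
  have h3 : |PT eps lam k A B D| ≤ K * (1 / c ^ 3) := by
    rw [mul_one_div, le_div_iff₀ (by positivity)]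
    linarith
  rw [e] at h3
  calc _ ≤ _ := h3
    _ = _ := by ring

/-- the Bellman function -/
noncomputable def Gb (k : ℕ) (lam : ℝ) (A B D : Matrix (Idx k) (Idx k) ℝ) : ℝ :=
  lam * Real.sqrt lam - 16 * Real.sqrt lam * (hs A + hs B + hs D) + 43 * (cub k A + cub k B + cub k D)

lemma hs_B_children {n : Type*} [Fintype n] [DecidableEq n] (B : Matrix (Bool × n) (Bool × n) ℝ) :
    (1 / 4 : ℝ) * ∑ j, ∑ l, hs (blk B j l) = hs B := by
  rw [hs_eq_blk B]
  simp only [Fintype.sum_bool]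
  ring

lemma hs_D_children {n : Type*} [Fintype n] [DecidableEq n] (D : Matrix (Bool × n) (Bool × n) ℝ) :
    (1 / 4 : ℝ) * ∑ j, ∑ l, hs (blk D (xor j l) l) = hs D := by
  rw [hs_eq_blk D]
  simp only [Fintype.sum_bool, Bool.xor_true, Bool.xor_false, Bool.not_true, Bool.not_false]
  ring

lemma Gb_children (k : ℕ) (lam : ℝ) (A B D : Matrix (Idx (k + 1)) (Idx (k + 1)) ℝ) :
    (1 / 4 : ℝ) * ∑ j : Bool, ∑ l : Bool, Gb k lam (blk (n := Idx k) A (xor j l) j)
      (blk (n := Idx k) B j l) (blk (n := Idx k) D (xor j l) l) = Gb (k + 1) lam A B D := by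
  have h1 := hs_even_children (n := Idx k) A
  have h2 := hs_B_children (n := Idx k) B
  have h3 := hs_D_children (n := Idx k) D
  have h4 := cub_child k A
  have h5 := cub_child k B
  have h6 := cub_child k D
  have hh1 : hs (n := Idx (k + 1)) A = hs (n := Bool × Idx k) A := rfl
  have hh2 : hs (n := Idx (k + 1)) B = hs (n := Bool × Idx k) B := rfl
  have hh3 : hs (n := Idx (k + 1)) D = hs (n := Bool × Idx k) D := rfl
  simp only [Gb]
  rw [hh1, hh2, hh3, ← h1, ← h2, ← h3, h4, h5, h6]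
  simp only [Fintype.sum_bool, Bool.xor_true, Bool.xor_false, Bool.not_true, Bool.not_false]
  ring

/-- the unpruned recursion -/
lemma Lam_succ (eps : ℕ → ℝ) (k : ℕ) (A B D : Matrix (Idx (k + 1)) (Idx (k + 1)) ℝ) :
    Lam eps (k + 1) A B D = eps k * Tri (n := Idx k) A B D + (1 / 4 : ℝ) * ∑ j : Bool, ∑ l : Bool,
      Lam eps k (blk (n := Idx k) A (xor j l) j) (blk (n := Idx k) B j l)
        (blk (n := Idx k) D (xor j l) l) := by
  simp only [Lam]

lemma PT_succ_pos (eps : ℕ → ℝ) (lam : ℝ) (k : ℕ) (A B D : Matrix (Idx (k + 1)) (Idx (k + 1)) ℝ)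
    (h : hs (n := Bool × Idx k) A ≤ lam ∧ hs (n := Bool × Idx k) B ≤ lam ∧ hs (n := Bool × Idx k) D ≤ lam) :
    PT eps lam (k + 1) A B D = eps k * Tri (n := Idx k) A B D + (1 / 4 : ℝ) * ∑ j : Bool, ∑ l : Bool,
      PT eps lam k (blk (n := Idx k) A (xor j l) j) (blk (n := Idx k) B j l)
        (blk (n := Idx k) D (xor j l) l) := by
  simp only [PT]
  exact if_pos h

lemma PT_succ_neg (eps : ℕ → ℝ) (lam : ℝ) (k : ℕ) (A B D : Matrix (Idx (k + 1)) (Idx (k + 1)) ℝ)
    (h : ¬ (hs (n := Bool × Idx k) A ≤ lam ∧ hs (n := Bool × Idx k) B ≤ lam ∧ hs (n := Bool × Idx k) D ≤ lam)) :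
    PT eps lam (k + 1) A B D = 0 := by
  simp only [PT]
  exact if_neg h

/-- difference recursion at an unstopped node -/
lemma diff_succ (eps : ℕ → ℝ) (lam : ℝ) (k : ℕ) (A B D : Matrix (Idx (k + 1)) (Idx (k + 1)) ℝ)
    (h : hs (n := Bool × Idx k) A ≤ lam ∧ hs (n := Bool × Idx k) B ≤ lam ∧ hs (n := Bool × Idx k) D ≤ lam) :
    Lam eps (k + 1) A B D - PT eps lam (k + 1) A B D = (1 / 4 : ℝ) * ∑ j : Bool, ∑ l : Bool,
      (Lam eps k (blk (n := Idx k) A (xor j l) j) (blk (n := Idx k) B j l) (blk (n := Idx k) D (xor j l) l)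
       - PT eps lam k (blk (n := Idx k) A (xor j l) j) (blk (n := Idx k) B j l) (blk (n := Idx k) D (xor j l) l)) := by
  rw [Lam_succ, PT_succ_pos eps lam k A B D h]
  simp only [Fintype.sum_bool]
  ring

lemma abs_quarter_sum_le (u v : Bool → Bool → ℝ) (h : ∀ j l, |u j l| ≤ v j l) :
    |(1 / 4 : ℝ) * ∑ j, ∑ l, u j l| ≤ (1 / 4 : ℝ) * ∑ j, ∑ l, v j l := by
  rw [abs_mul, abs_of_pos (by norm_num : (0 : ℝ) < 1 / 4)]
  apply mul_le_mul_of_nonneg_left _ (by norm_num)
  refine (Finset.abs_sum_le_sum_abs _ _).trans (Finset.sum_le_sum fun j _ => ?_)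
  refine (Finset.abs_sum_le_sum_abs _ _).trans (Finset.sum_le_sum fun l _ => h j l)

/-- the leaf inequality for the Bellman function -/
lemma leaf_ineq {a y : ℝ} (ha : 0 ≤ a) (hy : 0 ≤ y) :
    0 ≤ a ^ 3 / 3 - 16 * a * y ^ 2 + 43 * y ^ 3 := by
  have h1 : 0 ≤ (a - 4 * y) ^ 2 * (a + 8 * y) := mul_nonneg (sq_nonneg _) (by linarith)
  have h2 : 0 ≤ y ^ 3 := by positivity
  nlinarith

lemma Gb_leaf (lam : ℝ) (hlam : 0 ≤ lam) (A B D : Matrix (Idx 0) (Idx 0) ℝ) : 0 ≤ Gb 0 lam A B D := by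
  have hsum : ∀ g : Idx 0 → ℝ, ∑ a, g a = g () := fun g => by
    exact Finset.sum_singleton _ _
  have key : ∀ X : Matrix (Idx 0) (Idx 0) ℝ, hs X = |X () ()| ^ 2 ∧ cub 0 X = |X () ()| ^ 3 := by
    intro X
    constructor
    · simp only [hs, hsum, sq_abs]
    · simp only [cub, hsum]
      simp
  set a := Real.sqrt lam with ha
  have ha0 : 0 ≤ a := Real.sqrt_nonneg _
  have ha2 : lam = a ^ 2 := (Real.sq_sqrt hlam).symm
  simp only [Gb]
  rw [(key A).1, (key B).1, (key D).1, (key A).2, (key B).2, (key D).2, ha2]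
  have e := Real.sqrt_sq ha0
  have h1 := leaf_ineq ha0 (abs_nonneg (A () ()))
  have h2 := leaf_ineq ha0 (abs_nonneg (B () ()))
  have h3 := leaf_ineq ha0 (abs_nonneg (D () ()))
  have e1 : a ^ 2 * a = a ^ 3 := by ring
  rw [e, e1]
  linarith

lemma sqrt_gap {lam mx s : ℝ} (h0 : 0 ≤ lam) (hl : lam < mx) (hs1 : mx ≤ s) :
    4 * mx * Real.sqrt (4 * mx) ≤
      lam * Real.sqrt lam - 16 * Real.sqrt lam * s - (4 * mx * Real.sqrt (4 * mx) - 16 * Real.sqrt (4 * mx) * s) := by
  have hmx : 0 < mx := lt_of_le_of_lt h0 hl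
  set r := Real.sqrt mx with hr
  have hr0 : 0 < r := Real.sqrt_pos.mpr hmx
  have hr2 : r ^ 2 = mx := Real.sq_sqrt hmx.le
  have e : Real.sqrt (4 * mx) = 2 * r := by
    rw [Real.sqrt_mul (by norm_num : (0 : ℝ) ≤ 4)]
    have : Real.sqrt 4 = 2 := by
      rw [show (4 : ℝ) = 2 ^ 2 by norm_num]
      exact Real.sqrt_sq (by norm_num)
    rw [this]
  rw [e]
  set a := Real.sqrt lam with ha
  have ha0 : 0 ≤ a := Real.sqrt_nonneg _
  have ha2 : a ^ 2 = lam := Real.sq_sqrt h0
  have har : a ≤ r := Real.sqrt_le_sqrt hl.le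
  have hs2 : r ^ 2 ≤ s := by rw [hr2]; exact hs1
  have h1 : 0 ≤ (s - r ^ 2) * (2 * r - a) := mul_nonneg (by linarith) (by linarith)
  have h2 : 0 ≤ r ^ 2 * (r - a) := mul_nonneg (sq_nonneg r) (by linarith)
  have h3 : 0 ≤ lam * a := mul_nonneg h0 ha0
  rw [← hr2]
  nlinarith

/-- the main estimate of the Bellman argument -/
theorem bellman_main {eps : ℕ → ℝ} {K : ℝ} (hK : PrunedK eps K) (k : ℕ) :
    ∀ (A B D : Matrix (Idx k) (Idx k) ℝ) (lam : ℝ), 0 ≤ lam →
      |Lam eps k A B D - PT eps lam k A B D| ≤ 8 * K * Gb k lam A B D := by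
  have hK0 := hK.nonneg
  induction k with
  | zero =>
    intro A B D lam hlam
    have h := Gb_leaf lam hlam A B D
    simp only [Lam, PT, sub_zero, abs_zero]
    positivity
  | succ k ih =>
    have unst : ∀ (A B D : Matrix (Idx (k + 1)) (Idx (k + 1)) ℝ) (lam : ℝ), 0 ≤ lam →
        (hs (n := Bool × Idx k) A ≤ lam ∧ hs (n := Bool × Idx k) B ≤ lam ∧ hs (n := Bool × Idx k) D ≤ lam) →
        |Lam eps (k + 1) A B D - PT eps lam (k + 1) A B D| ≤ 8 * K * Gb (k + 1) lam A B D := by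
      intro A B D lam hlam h
      rw [diff_succ eps lam k A B D h, ← Gb_children]
      have := abs_quarter_sum_le (fun j l =>
          Lam eps k (blk (n := Idx k) A (xor j l) j) (blk (n := Idx k) B j l) (blk (n := Idx k) D (xor j l) l)
           - PT eps lam k (blk (n := Idx k) A (xor j l) j) (blk (n := Idx k) B j l) (blk (n := Idx k) D (xor j l) l))
          (fun j l => 8 * K * Gb k lam (blk (n := Idx k) A (xor j l) j) (blk (n := Idx k) B j l)
            (blk (n := Idx k) D (xor j l) l))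
          (fun j l => ih _ _ _ lam hlam)
      refine this.trans (le_of_eq ?_)
      simp only [Fintype.sum_bool]
      ring
    intro A B D lam hlam
    by_cases h : hs (n := Bool × Idx k) A ≤ lam ∧ hs (n := Bool × Idx k) B ≤ lam ∧ hs (n := Bool × Idx k) D ≤ lam
    · exact unst A B D lam hlam h
    · rw [PT_succ_neg eps lam k A B D h, sub_zero]
      set sA := hs (n := Bool × Idx k) A with hsA
      set sB := hs (n := Bool × Idx k) B with hsB
      set sD := hs (n := Bool × Idx k) D with hsD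
      have hA0 : 0 ≤ sA := hs_nonneg _
      have hB0 : 0 ≤ sB := hs_nonneg _
      have hD0 : 0 ≤ sD := hs_nonneg _
      set mx := max sA (max sB sD) with hmx
      have hA1 : sA ≤ mx := le_max_left _ _
      have hB1 : sB ≤ mx := (le_max_left _ _).trans (le_max_right _ _)
      have hD1 : sD ≤ mx := (le_max_right _ _).trans (le_max_right _ _)
      have hlt : lam < mx := by
        by_contra hc
        push Not at hc
        exact h ⟨hA1.trans hc, hB1.trans hc, hD1.trans hc⟩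
      have hmx0 : 0 < mx := lt_of_le_of_lt hlam hlt
      have hsum : mx ≤ sA + sB + sD := by
        rw [hmx]
        apply max_le
        · linarith
        · apply max_le <;> linarith
      have hlam' : 0 < 4 * mx := by linarith
      have h1 := unst A B D (4 * mx) hlam'.le ⟨by linarith, by linarith, by linarith⟩
      have h2 := PT_bound hK hlam' (k + 1) A B D (by show sA ≤ _; linarith) (by show sB ≤ _; linarith)
        (by show sD ≤ _; linarith)
      have h3 := sqrt_gap hlam hlt hsum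
      have h4 : Gb (k + 1) lam A B D - Gb (k + 1) (4 * mx) A B D =
          lam * Real.sqrt lam - 16 * Real.sqrt lam * (sA + sB + sD)
            - (4 * mx * Real.sqrt (4 * mx) - 16 * Real.sqrt (4 * mx) * (sA + sB + sD)) := by
        simp only [Gb]
        show _ - 16 * Real.sqrt lam * (sA + sB + sD) + _ - (_ - 16 * Real.sqrt (4 * mx) * (sA + sB + sD) + _) = _
        ring
      have h5 : 8 * K * (4 * mx * Real.sqrt (4 * mx)) + 8 * K * Gb (k + 1) (4 * mx) A B D
          ≤ 8 * K * Gb (k + 1) lam A B D := by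
        rw [← mul_add]
        apply mul_le_mul_of_nonneg_left _ (by positivity)
        linarith
      calc |Lam eps (k + 1) A B D| = |(Lam eps (k + 1) A B D - PT eps (4 * mx) (k + 1) A B D)
            + PT eps (4 * mx) (k + 1) A B D| := by rw [sub_add_cancel]
        _ ≤ _ := abs_add_le _ _
        _ ≤ 8 * K * Gb (k + 1) (4 * mx) A B D + 8 * K * (4 * mx * Real.sqrt (4 * mx)) := add_le_add h1 h2
        _ ≤ _ := by linarith

/-- homogeneity of the form -/
lemma Lam_smul (eps : ℕ → ℝ) (a b d : ℝ) (k : ℕ) : ∀ A B D : Matrix (Idx k) (Idx k) ℝ,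
    Lam eps k (a • A) (b • B) (d • D) = a * b * d * Lam eps k A B D := by
  induction k with
  | zero =>
    intro A B D
    simp [Lam]
  | succ k ih =>
    intro A B D
    rw [Lam_succ, Lam_succ]
    have e1 : Tri (n := Idx k) (a • A) (b • B) (d • D) = a * b * d * Tri (n := Idx k) A B D :=
      Tri_smul a b d A B D
    have e2 : ∀ j l, Lam eps k (blk (n := Idx k) (a • A) (xor j l) j) (blk (n := Idx k) (b • B) j l)
        (blk (n := Idx k) (d • D) (xor j l) l) = a * b * d * Lam eps k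
          (blk (n := Idx k) A (xor j l) j) (blk (n := Idx k) B j l) (blk (n := Idx k) D (xor j l) l) := by
      intro j l
      have h1 : blk (n := Idx k) (a • A) (xor j l) j = a • blk (n := Idx k) A (xor j l) j :=
        blk_smul (n := Idx k) a A _ _
      have h2 : blk (n := Idx k) (b • B) j l = b • blk (n := Idx k) B j l :=
        blk_smul (n := Idx k) b B _ _
      have h3 : blk (n := Idx k) (d • D) (xor j l) l = d • blk (n := Idx k) D (xor j l) l :=
        blk_smul (n := Idx k) d D _ _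
      rw [h1, h2, h3, ih]
    simp only [e1, e2, Fintype.sum_bool]
    ring

lemma Lam_zero_left (eps : ℕ → ℝ) (k : ℕ) (B D : Matrix (Idx k) (Idx k) ℝ) :
    Lam eps k 0 B D = 0 := by
  have := Lam_smul eps 0 1 1 k 0 B D
  simpa using this

lemma Lam_zero_mid (eps : ℕ → ℝ) (k : ℕ) (A D : Matrix (Idx k) (Idx k) ℝ) :
    Lam eps k A 0 D = 0 := by
  have := Lam_smul eps 1 0 1 k A 0 D
  simpa using this

lemma Lam_zero_right (eps : ℕ → ℝ) (k : ℕ) (A B : Matrix (Idx k) (Idx k) ℝ) :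
    Lam eps k A B 0 = 0 := by
  have := Lam_smul eps 1 1 0 k A B 0
  simpa using this

lemma hs_eq_zero_iff {n : Type*} [Fintype n] {X : Matrix n n ℝ} (h : hs X = 0) : X = 0 := by
  ext a b
  have h1 := (Finset.sum_eq_zero_iff_of_nonneg
    (fun a _ => Finset.sum_nonneg fun b _ => sq_nonneg (X a b))).mp h a (Finset.mem_univ a)
  have h2 := (Finset.sum_eq_zero_iff_of_nonneg (fun b _ => sq_nonneg (X a b))).mp h1 b (Finset.mem_univ b)
  simpa using h2

lemma cub_eq_zero {k : ℕ} {X : Matrix (Idx k) (Idx k) ℝ} (h : cub k X = 0) : X = 0 := by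
  have h0 : ∑ a, ∑ b, |X a b| ^ 3 = 0 := by
    rcases mul_eq_zero.mp h with h | h
    · exact absurd h (by positivity)
    · exact h
  ext a b
  have h1 := (Finset.sum_eq_zero_iff_of_nonneg
    (fun a _ => Finset.sum_nonneg fun b _ => by positivity)).mp h0 a (Finset.mem_univ a)
  have h2 := (Finset.sum_eq_zero_iff_of_nonneg (fun b _ => by positivity)).mp h1 b (Finset.mem_univ b)
  simpa using h2

/-- the sum bound -/
theorem Lam_cub_sum {eps : ℕ → ℝ} {K : ℝ} (hK : PrunedK eps K) (k : ℕ) (A B D : Matrix (Idx k) (Idx k) ℝ) :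
    |Lam eps k A B D| ≤ 344 * K * (cub k A + cub k B + cub k D) := by
  have hK0 := hK.nonneg
  have hcub : 0 ≤ cub k A + cub k B + cub k D :=
    add_nonneg (add_nonneg (cub_nonneg _ _) (cub_nonneg _ _)) (cub_nonneg _ _)
  by_cases hA : hs A = 0
  · rw [hs_eq_zero_iff hA, Lam_zero_left, abs_zero]
    rw [hs_eq_zero_iff hA] at hcub
    exact mul_nonneg (by positivity) hcub
  · have h1 := bellman_main hK k A B D 0 le_rfl
    have h2 : PT eps 0 k A B D = 0 := by
      cases k with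
      | zero => simp [PT]
      | succ k =>
        apply PT_succ_neg
        intro hc
        apply hA
        exact le_antisymm hc.1 (hs_nonneg _)
    rw [h2, sub_zero] at h1
    refine h1.trans (le_of_eq ?_)
    simp only [Gb, Real.sqrt_zero]
    ring

lemma cub_smul {k : ℕ} (c : ℝ) (hc : 0 ≤ c) (X : Matrix (Idx k) (Idx k) ℝ) :
    cub k (c • X) = c ^ 3 * cub k X := by
  simp only [cub, Matrix.smul_apply, smul_eq_mul, abs_mul, abs_of_nonneg hc, mul_pow]
  simp only [← Finset.mul_sum]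
  ring

lemma rpow_third_cube {x : ℝ} (hx : 0 ≤ x) : (x ^ (1 / 3 : ℝ)) ^ 3 = x := by
  rw [← Real.rpow_natCast, ← Real.rpow_mul hx]
  norm_num

/-- the product bound -/
theorem Lam_cub_prod {eps : ℕ → ℝ} {K : ℝ} (hK : PrunedK eps K) (k : ℕ) (A B D : Matrix (Idx k) (Idx k) ℝ) :
    |Lam eps k A B D| ≤ 1032 * K * (cub k A ^ (1 / 3 : ℝ) * cub k B ^ (1 / 3 : ℝ) * cub k D ^ (1 / 3 : ℝ)) := by
  have hK0 := hK.nonneg
  have hpos : 0 ≤ 1032 * K * (cub k A ^ (1 / 3 : ℝ) * cub k B ^ (1 / 3 : ℝ) * cub k D ^ (1 / 3 : ℝ)) := by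
    have h1 := cub_nonneg k A
    have h2 := cub_nonneg k B
    have h3 := cub_nonneg k D
    positivity
  by_cases hA : cub k A = 0
  · rw [cub_eq_zero hA, Lam_zero_left, abs_zero]
    rw [cub_eq_zero hA] at hpos
    exact hpos
  by_cases hB : cub k B = 0
  · rw [cub_eq_zero hB, Lam_zero_mid, abs_zero]
    rw [cub_eq_zero hB] at hpos
    exact hpos
  by_cases hD : cub k D = 0
  · rw [cub_eq_zero hD, Lam_zero_right, abs_zero]
    rw [cub_eq_zero hD] at hpos
    exact hpos
  have hA0 : 0 < cub k A := lt_of_le_of_ne (cub_nonneg _ _) (Ne.symm hA)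
  have hB0 : 0 < cub k B := lt_of_le_of_ne (cub_nonneg _ _) (Ne.symm hB)
  have hD0 : 0 < cub k D := lt_of_le_of_ne (cub_nonneg _ _) (Ne.symm hD)
  set p := cub k A ^ (1 / 3 : ℝ) with hp
  set q := cub k B ^ (1 / 3 : ℝ) with hq
  set r := cub k D ^ (1 / 3 : ℝ) with hr
  have hp0 : 0 < p := Real.rpow_pos_of_pos hA0 _
  have hq0 : 0 < q := Real.rpow_pos_of_pos hB0 _
  have hr0 : 0 < r := Real.rpow_pos_of_pos hD0 _
  have hp3 : p ^ 3 = cub k A := rpow_third_cube hA0.le
  have hq3 : q ^ 3 = cub k B := rpow_third_cube hB0.le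
  have hr3 : r ^ 3 = cub k D := rpow_third_cube hD0.le
  have e1 : cub k ((1 / p) • A) = 1 := by
    rw [cub_smul _ (by positivity), ← hp3]
    field_simp
  have e2 : cub k ((1 / q) • B) = 1 := by
    rw [cub_smul _ (by positivity), ← hq3]
    field_simp
  have e3 : cub k ((1 / r) • D) = 1 := by
    rw [cub_smul _ (by positivity), ← hr3]
    field_simp
  have h1 := Lam_cub_sum hK k ((1 / p) • A) ((1 / q) • B) ((1 / r) • D)
  rw [Lam_smul, e1, e2, e3, abs_mul, abs_of_pos (by positivity : 0 < 1 / p * (1 / q) * (1 / r))] at h1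
  have h2 : 0 < p * q * r := by positivity
  have h3 : |Lam eps k A B D| = (p * q * r) * (1 / p * (1 / q) * (1 / r) * |Lam eps k A B D|) := by
    field_simp
  rw [h3]
  calc _ ≤ (p * q * r) * (344 * K * (1 + 1 + 1)) := mul_le_mul_of_nonneg_left h1 h2.le
    _ = _ := by ring

/-- the strong bound with a given total variation of the coefficients -/
theorem Lam_cubic_bound {J : ℕ} {eps : ℕ → ℝ} (heps : ∀ k, |eps k| ≤ 1) {m : ℝ}
    (hm : ∀ k, ∑ i ∈ range k, |eps i| ≤ m) (hmJ : m * th4 J ≤ 1) (k : ℕ) (A B D : Matrix (Idx k) (Idx k) ℝ) :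
    |Lam eps k A B D| ≤ 1032 * (8 + 448 * (J : ℝ) * (J + 1)) *
      (cub k A ^ (1 / 3 : ℝ) * cub k B ^ (1 / 3 : ℝ) * cub k D ^ (1 / 3 : ℝ)) := by
  have hK : PrunedK eps (8 + 448 * (J : ℝ) * (J + 1)) :=
    ⟨by positivity, fun k A B D hA hB hD => plam_bound heps (hm k) hmJ A B D hA hB hD⟩
  exact Lam_cub_prod hK k A B D

end Vale.Agent.Lib.P075
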