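import Vale.Agent.Lib.P075.Quad

/-!
Spectral extraction and the tail potential.
-/

open Matrix Finset BigOperators

set_option linter.unusedSectionVars false
set_option linter.unusedSimpArgs false

namespace Vale.Agent.Lib.P075

variable {n : Type*} [Fintype n] [DecidableEq n]

lemma nsq_mulVec_eq_qf (X : Matrix n n ℝ) (y : n → ℝ) : nsq (X *ᵥ y) = qf (Xᵀ * X) y := by
  simp only [nsq, qf]
  rw [← Matrix.mulVec_mulVec, dot_mulVec_transpose, dotProduct_comm]

/-- orthogonal change of coordinates preserves length -/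
lemma nsq_orth {U : Matrix n n ℝ} (hU : Uᵀ * U = 1) (c : n → ℝ) : nsq (U *ᵥ c) = nsq c := by
  rw [nsq_mulVec_eq_qf, hU, qf_one]

/-- quadratic form of a conjugated diagonal -/
lemma qf_conj_diag (U : Matrix n n ℝ) (d : n → ℝ) (y : n → ℝ) :
    qf (U * diagonal d * Uᵀ) y = ∑ i, d i * (Uᵀ *ᵥ y) i ^ 2 := by
  simp only [qf]
  rw [← Matrix.mulVec_mulVec, ← Matrix.mulVec_mulVec, dot_mulVec_transpose]
  simp only [dotProduct, Matrix.mulVec_diagonal]
  apply Finset.sum_congr rfl
  intro i _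
  ring

lemma mul_conj_diag {U : Matrix n n ℝ} (hU : Uᵀ * U = 1) (a b : n → ℝ) :
    (U * diagonal a * Uᵀ) * (U * diagonal b * Uᵀ) = U * diagonal (fun i => a i * b i) * Uᵀ := by
  calc (U * diagonal a * Uᵀ) * (U * diagonal b * Uᵀ)
      = U * diagonal a * (Uᵀ * U) * diagonal b * Uᵀ := by simp only [Matrix.mul_assoc]
    _ = U * (diagonal a * diagonal b) * Uᵀ := by rw [hU]; simp only [Matrix.mul_one, Matrix.mul_assoc]
    _ = U * diagonal (fun i => a i * b i) * Uᵀ := by rw [Matrix.diagonal_mul_diagonal]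

lemma transpose_conj_diag (U : Matrix n n ℝ) (a : n → ℝ) :
    (U * diagonal a * Uᵀ)ᵀ = U * diagonal a * Uᵀ := by
  simp only [Matrix.transpose_mul, Matrix.transpose_transpose, Matrix.diagonal_transpose,
    Matrix.mul_assoc]

lemma trace_conj_diag {U : Matrix n n ℝ} (hU : Uᵀ * U = 1) (a : n → ℝ) :
    trace (U * diagonal a * Uᵀ) = ∑ i, a i := by
  rw [Matrix.trace_mul_comm, ← Matrix.mul_assoc, hU, Matrix.one_mul, Matrix.trace_diagonal]

/-- **Spectral extraction.** -/
theorem extraction (F : Matrix n n ℝ) {θ : ℝ} (hθ : 0 < θ) :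
    ∃ (P m f : Matrix n n ℝ), F = f + m ∧ Pᵀ = P ∧ P * P = P ∧ m * P = m ∧
      fᵀ * m = 0 ∧ f * mᵀ = 0 ∧ OpB f θ ∧ θ * trace P ≤ hs m ∧ (OpB F θ → m = 0) := by
  have hX : (Fᵀ * F)ᵀ = Fᵀ * F := by
    simp [Matrix.transpose_mul]
  obtain ⟨U, lam, hU1, hU2, hXU⟩ := sym_eig hX
  set χ : n → ℝ := fun i => if θ < lam i then 1 else 0 with hχ
  have hχ2 : ∀ i, χ i * χ i = χ i := by
    intro i; simp only [hχ]; split_ifs <;> norm_num
  set P : Matrix n n ℝ := U * diagonal χ * Uᵀ with hP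
  have hPT : Pᵀ = P := transpose_conj_diag U χ
  have hPP : P * P = P := by
    rw [hP, mul_conj_diag hU1]
    congr 3
    funext i
    exact hχ2 i
  have hXP : (Fᵀ * F) * P = U * diagonal (fun i => lam i * χ i) * Uᵀ := by
    rw [hXU, hP, mul_conj_diag hU1]
  have hPX : P * (Fᵀ * F) = U * diagonal (fun i => lam i * χ i) * Uᵀ := by
    rw [hXU, hP, mul_conj_diag hU1]
    congr 3
    funext i
    ring
  have hPXP : P * (Fᵀ * F) * P = U * diagonal (fun i => lam i * χ i) * Uᵀ := by
    rw [hPX, hP, mul_conj_diag hU1]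
    congr 3
    funext i
    rw [mul_assoc, hχ2]
  refine ⟨P, F * P, F - F * P, by simp, hPT, hPP, ?_, ?_, ?_, ?_, ?_, ?_⟩
  · rw [Matrix.mul_assoc, hPP]
  · -- fᵀ m = 0
    have e : (F - F * P)ᵀ * (F * P) = (Fᵀ * F) * P - P * (Fᵀ * F) * P := by
      rw [Matrix.transpose_sub, Matrix.transpose_mul, hPT, Matrix.sub_mul]
      simp only [Matrix.mul_assoc]
    rw [e, hXP, hPXP, sub_self]
  · -- f mᵀ = 0
    have e : (F - F * P) * (F * P)ᵀ = F * (P - P * P) * Fᵀ := by
      rw [Matrix.transpose_mul, hPT, Matrix.sub_mul, Matrix.mul_sub, Matrix.sub_mul]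
      simp only [Matrix.mul_assoc]
    rw [e, hPP, sub_self, Matrix.mul_zero, Matrix.zero_mul]
  · -- operator bound
    intro y
    rw [nsq_mulVec_eq_qf]
    have e : (F - F * P)ᵀ * (F - F * P) =
        U * diagonal (fun i => lam i * (1 - χ i)) * Uᵀ := by
      have e1 : (F - F * P)ᵀ * (F - F * P) =
          Fᵀ * F - P * (Fᵀ * F) - (Fᵀ * F) * P + P * (Fᵀ * F) * P := by
        rw [Matrix.transpose_sub, Matrix.transpose_mul, hPT, Matrix.sub_mul, Matrix.mul_sub,
          Matrix.mul_sub]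
        simp only [Matrix.mul_assoc]
        abel
      rw [e1, hPXP, hPX, hXP]
      simp only [sub_add_cancel]
      nth_rw 1 [hXU]
      rw [← Matrix.sub_mul, ← Matrix.mul_sub, Matrix.diagonal_sub]
      congr 3
      funext i
      ring
    rw [e, qf_conj_diag]
    have h1 : ∀ i, lam i * (1 - χ i) ≤ θ := by
      intro i
      simp only [hχ]
      split_ifs with h
      · simp [hθ.le]
      · simpa using not_lt.mp h
    have h2 : nsq y = ∑ i, (Uᵀ *ᵥ y) i ^ 2 := by
      rw [← nsq_eq_sum, nsq_mulVec_eq_qf, Matrix.transpose_transpose, hU2, qf_one]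
    rw [h2, Finset.mul_sum]
    exact Finset.sum_le_sum fun i _ => mul_le_mul_of_nonneg_right (h1 i) (sq_nonneg _)
  · -- trace bound
    have e : hs (F * P) = ∑ i, lam i * χ i := by
      rw [hs_eq_trace, Matrix.transpose_mul, hPT]
      have e1 : P * Fᵀ * (F * P) = P * (Fᵀ * F) * P := by simp only [Matrix.mul_assoc]
      rw [e1, hPXP, trace_conj_diag hU1]
    rw [e, hP, trace_conj_diag hU1, Finset.mul_sum]
    apply Finset.sum_le_sum
    intro i _
    simp only [hχ]
    split_ifs with h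
    · simpa using h.le
    · simp
  · -- trivial case
    intro hF
    have hlam : ∀ i, lam i ≤ θ := by
      intro i
      have h1 := hF (colm U i)
      rw [nsq_mulVec_eq_qf, ← conj_diag] at h1
      have e : Uᵀ * (Fᵀ * F) * U = diagonal lam := by
        rw [hXU]
        calc Uᵀ * (U * diagonal lam * Uᵀ) * U = (Uᵀ * U) * diagonal lam * (Uᵀ * U) := by
              simp only [Matrix.mul_assoc]
          _ = diagonal lam := by rw [hU1]; simp
      rw [e] at h1
      have h2 : nsq (colm U i) = 1 := by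
        rw [colm_eq_mulVec, nsq_orth hU1]
        simp [nsq_eq_sum, Pi.single_apply]
      rw [h2] at h1
      simpa using h1
    have hχ0 : χ = 0 := by
      funext i
      simp only [hχ, Pi.zero_apply]
      rw [if_neg (not_lt.mpr (hlam i))]
    rw [hP, hχ0]
    simp

/-- orthogonal sum of squares -/
lemma hs_add_of_orth {f m : Matrix n n ℝ} (h : fᵀ * m = 0) : hs (f + m) = hs f + hs m := by
  rw [hs_eq_trace, hs_eq_trace, hs_eq_trace]
  have h2 : mᵀ * f = 0 := by
    have := congrArg Matrix.transpose h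
    simpa [Matrix.transpose_mul] using this
  rw [Matrix.transpose_add, Matrix.add_mul, Matrix.mul_add, Matrix.mul_add, h, h2]
  simp [Matrix.trace_add]

/-- the quartic potential splits -/
lemma Q_add_of_orth {f m : Matrix n n ℝ} (h1 : fᵀ * m = 0) (h2 : f * mᵀ = 0) :
    hs ((f + m)ᵀ * (f + m)) = hs (fᵀ * f) + hs (mᵀ * m) := by
  have h3 : mᵀ * f = 0 := by
    have := congrArg Matrix.transpose h1
    simpa [Matrix.transpose_mul] using this
  have e : (f + m)ᵀ * (f + m) = fᵀ * f + mᵀ * m := by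
    rw [Matrix.transpose_add, Matrix.add_mul, Matrix.mul_add, Matrix.mul_add, h1, h3]
    simp
  rw [e]
  apply hs_add_of_orth
  rw [Matrix.transpose_mul, Matrix.transpose_transpose]
  calc fᵀ * f * (mᵀ * m) = fᵀ * (f * mᵀ) * m := by simp only [Matrix.mul_assoc]
    _ = 0 := by rw [h2]; simp

/-- `hs` of a product splits if the left factors are orthogonal -/
lemma hs_add_mul_of_orth {f m : Matrix n n ℝ} (h1 : fᵀ * m = 0) (H : Matrix n n ℝ) :
    hs ((f + m) * H) = hs (f * H) + hs (m * H) := by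
  rw [Matrix.add_mul]
  apply hs_add_of_orth
  rw [Matrix.transpose_mul]
  calc Hᵀ * fᵀ * (m * H) = Hᵀ * (fᵀ * m) * H := by simp only [Matrix.mul_assoc]
    _ = 0 := by rw [h1]; simp

/-- `hs` of a product splits if the right factors are orthogonal -/
lemma hs_mul_add_of_orth {h d : Matrix n n ℝ} (h1 : d * hᵀ = 0) (F : Matrix n n ℝ) :
    hs (F * (h + d)) = hs (F * h) + hs (F * d) := by
  rw [← hs_transpose, Matrix.transpose_mul, Matrix.transpose_add, ← hs_transpose (F * h),
    ← hs_transpose (F * d), Matrix.transpose_mul, Matrix.transpose_mul]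
  have h2 : (hᵀ)ᵀ * dᵀ = 0 := by
    have := congrArg Matrix.transpose h1
    simpa [Matrix.transpose_mul] using this
  exact hs_add_mul_of_orth h2 _

/-- the tail potential -/
def Psi (θ : ℝ) (f h : Matrix n n ℝ) : ℝ :=
  9 * θ * hs f + 5 * θ * hs h - hs (f * h) - hs (fᵀ * f) - hs (h * hᵀ)

lemma Psi_le (θ : ℝ) (f h : Matrix n n ℝ) : Psi θ f h ≤ 9 * θ * hs f + 5 * θ * hs h := by
  have h1 := hs_nonneg (f * h)
  have h2 := hs_nonneg (fᵀ * f)
  have h3 := hs_nonneg (h * hᵀ)
  simp only [Psi]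
  linarith

/-- the tail potential is nonnegative under the operator bounds with room -/
lemma Psi_nonneg {θ : ℝ} (hθ : 0 ≤ θ) {f h : Matrix n n ℝ}
    (hf : OpB f (4 * θ)) (hh : OpB hᵀ (4 * θ)) : 0 ≤ Psi θ f h := by
  have h1 : hs (f * h) ≤ 4 * θ * hs f := hs_mul_le_of_opb' hh
  have h2 : hs (fᵀ * f) ≤ 4 * θ * hs f := by
    have := hs_mul_le_of_opb (X := f) (Y := fᵀ) (c := 4 * θ) hf
    rwa [hs_mul_self_comm, hs_transpose] at this
  have h3 : hs (h * hᵀ) ≤ 4 * θ * hs h := by
    have := hs_mul_le_of_opb (X := hᵀ) (Y := h) (c := 4 * θ) hh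
    rwa [← hs_mul_self_comm] at this
  have h4 := mul_nonneg hθ (hs_nonneg f)
  have h5 := mul_nonneg hθ (hs_nonneg h)
  simp only [Psi]
  nlinarith

/-- monotonicity under extraction -/
lemma Psi_mono {θ : ℝ} (hθ : 0 ≤ θ) {f m h d : Matrix n n ℝ}
    (h1 : fᵀ * m = 0) (h2 : f * mᵀ = 0) (h3 : d * hᵀ = 0) (h4 : hᵀ * d = 0)
    (hf : OpB f θ) (hFT : OpB (f + m)ᵀ (4 * θ)) (hH : OpB (h + d) (4 * θ)) (hHT : OpB (h + d)ᵀ (4 * θ)) :
    Psi θ f h ≤ Psi θ (f + m) (h + d) := by
  have e1 : hs (f + m) = hs f + hs m := hs_add_of_orth h1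
  have e2 : hs (h + d) = hs h + hs d := by
    have h5 : (hᵀ)ᵀ * dᵀ = 0 := by
      have := congrArg Matrix.transpose h3
      simpa [Matrix.transpose_mul] using this
    have := hs_add_of_orth h5
    rw [← Matrix.transpose_add, hs_transpose, hs_transpose, hs_transpose] at this
    exact this
  have e3 : hs ((f + m)ᵀ * (f + m)) = hs (fᵀ * f) + hs (mᵀ * m) := Q_add_of_orth h1 h2
  have e4 : hs ((h + d) * (h + d)ᵀ) = hs (h * hᵀ) + hs (d * dᵀ) := by
    have h5 : (hᵀ)ᵀ * dᵀ = 0 := by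
      have := congrArg Matrix.transpose h3
      simpa [Matrix.transpose_mul] using this
    have h6 := Q_add_of_orth (f := hᵀ) (m := dᵀ) h5 (by
      simpa using h4)
    simp only [Matrix.transpose_transpose, ← Matrix.transpose_add] at h6
    exact h6
  have e5 : hs ((f + m) * (h + d)) = hs (f * h) + hs (f * d) + hs (m * (h + d)) := by
    rw [hs_add_mul_of_orth h1, hs_mul_add_of_orth h3]
  have b1 : hs (m * (h + d)) ≤ 4 * θ * hs m := hs_mul_le_of_opb' hHT
  have b2 : hs (f * d) ≤ θ * hs d := hs_mul_le_of_opb hf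
  have b3 : hs (mᵀ * m) ≤ 4 * θ * hs m := by
    have h7 : mᵀ * m = mᵀ * (f + m) := by
      have h8 : mᵀ * f = 0 := by
        have := congrArg Matrix.transpose h1
        simpa [Matrix.transpose_mul] using this
      rw [Matrix.mul_add, h8, zero_add]
    rw [h7]
    have := hs_mul_le_of_opb' (X := mᵀ) (Y := f + m) hFT
    rwa [hs_transpose] at this
  have b4 : hs (d * dᵀ) ≤ 4 * θ * hs d := by
    have h7 : d * dᵀ = d * (h + d)ᵀ := by
      rw [Matrix.transpose_add, Matrix.mul_add, h3, zero_add]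
    rw [h7]
    have := hs_mul_le_of_opb' (X := d) (Y := (h + d)ᵀ) (c := 4 * θ) (by
      rw [Matrix.transpose_transpose]; exact hH)
    exact this
  have p1 := mul_nonneg hθ (hs_nonneg m)
  have p2 := mul_nonneg hθ (hs_nonneg d)
  simp only [Psi]
  rw [e1, e2, e3, e4, e5]
  nlinarith

/-- the tail step: direct consequence of the quartic inequality -/
theorem Psi_step (θ : ℝ) (f h : Matrix (Bool × n) (Bool × n) ℝ) :
    hs (f * Jm * h) + (1 / 4 : ℝ) * ∑ j, ∑ l, Psi θ (blk f j l) (blk h l (xor j l)) ≤ Psi θ f h := by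
  have hstar := star_ineq f h
  have hf : θ * hs f = θ * _ := congrArg (fun x => θ * x) (hs_eq_blk f)
  have hh : θ * hs h = θ * _ := congrArg (fun x => θ * x) (hs_eq_blk h)
  simp only [Psi]
  simp only [Fintype.sum_bool, Bool.xor_true, Bool.xor_false, Bool.not_true, Bool.not_false] at hstar ⊢
  have h0 := hs_nonneg (f * h)
  nlinarith

end Vale.Agent.Lib.P075
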