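import Vale.Agent.Lib.P075.Bridge

/-!
The explicit bound for bounded functions on the grid.
-/

open Matrix Finset BigOperators

set_option linter.unusedSectionVars false
set_option linter.unusedSimpArgs false

namespace Vale.Agent.Lib.P075

lemma sum_blocks (d N : ℕ) (g : ℕ → ℝ) :
    ∑ n ∈ range N, ∑ x ∈ Ico (d * n) (d * (n + 1)), g x = ∑ x ∈ range (d * N), g x := by
  induction N with
  | zero => simp
  | succ N ih =>
    rw [Finset.sum_range_succ, ih, Finset.range_eq_Ico, Finset.range_eq_Ico]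
    rw [Finset.sum_Ico_consecutive _ (Nat.zero_le _) (Nat.mul_le_mul_left _ (Nat.le_succ _))]

lemma div_of_mem_block {r n x : ℕ} (hx : x ∈ Ico (2 ^ r * n) (2 ^ r * (n + 1))) : x / 2 ^ r = n := by
  have h := Finset.mem_Ico.mp hx
  apply Nat.div_eq_of_lt_le
  · rw [mul_comm]; exact h.1
  · rw [mul_comm]; exact h.2

lemma triple_blocks (d N : ℕ) (T : ℕ → ℕ → ℕ → ℝ) :
    ∑ x0 ∈ range (d * N), ∑ x1 ∈ range (d * N), ∑ x2 ∈ range (d * N), T x0 x1 x2 =
      ∑ n0 ∈ range N, ∑ n1 ∈ range N, ∑ n2 ∈ range N,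
        ∑ x0 ∈ Ico (d * n0) (d * (n0 + 1)), ∑ x1 ∈ Ico (d * n1) (d * (n1 + 1)),
          ∑ x2 ∈ Ico (d * n2) (d * (n2 + 1)), T x0 x1 x2 := by
  have h2 : ∀ x0 x1, ∑ x2 ∈ range (d * N), T x0 x1 x2 =
      ∑ n2 ∈ range N, ∑ x2 ∈ Ico (d * n2) (d * (n2 + 1)), T x0 x1 x2 :=
    fun x0 x1 => (sum_blocks d N _).symm
  have h1 : ∀ x0, ∑ x1 ∈ range (d * N), ∑ n2 ∈ range N, ∑ x2 ∈ Ico (d * n2) (d * (n2 + 1)), T x0 x1 x2 =
      ∑ n1 ∈ range N, ∑ x1 ∈ Ico (d * n1) (d * (n1 + 1)), ∑ n2 ∈ range N,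
        ∑ x2 ∈ Ico (d * n2) (d * (n2 + 1)), T x0 x1 x2 :=
    fun x0 => (sum_blocks d N _).symm
  simp only [h2, h1]
  rw [← sum_blocks d N]
  apply Finset.sum_congr rfl; intro n0 _
  rw [Finset.sum_comm]
  apply Finset.sum_congr rfl; intro n1 _
  have h3 : ∀ x0, ∑ x1 ∈ Ico (d * n1) (d * (n1 + 1)), ∑ n2 ∈ range N,
      ∑ x2 ∈ Ico (d * n2) (d * (n2 + 1)), T x0 x1 x2 =
      ∑ n2 ∈ range N, ∑ x1 ∈ Ico (d * n1) (d * (n1 + 1)),
      ∑ x2 ∈ Ico (d * n2) (d * (n2 + 1)), T x0 x1 x2 := fun x0 => Finset.sum_comm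
  simp only [h3]
  rw [Finset.sum_comm]

/-- the grid form in terms of a triple sum over points -/
lemma scaleForm_eq (F0 F1 F2 : ℕ → ℕ → ℝ) (r N : ℕ) :
    scaleForm F0 F1 F2 r N = (1 / 2 ^ r) * ∑ x0 ∈ range (2 ^ r * N), ∑ x1 ∈ range (2 ^ r * N),
      ∑ x2 ∈ range (2 ^ r * N), if condR r x0 x1 x2 then Gpt r F0 F1 F2 x0 x1 x2 else 0 := by
  rw [triple_blocks]
  simp only [scaleForm, Finset.mul_sum]
  apply Finset.sum_congr rfl; intro n0 _
  apply Finset.sum_congr rfl; intro n1 _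
  apply Finset.sum_congr rfl; intro n2 _
  by_cases hc : n0 ^^^ n1 ^^^ n2 = 0
  · rw [if_pos hc, blockForm]
    simp only [Finset.mul_sum]
    apply Finset.sum_congr rfl; intro x0 h0
    apply Finset.sum_congr rfl; intro x1 h1
    apply Finset.sum_congr rfl; intro x2 h2
    have : condR r x0 x1 x2 := by
      simp only [condR]
      rw [div_of_mem_block h0, div_of_mem_block h1, div_of_mem_block h2]
      exact hc
    rw [if_pos this, Gpt]
  · rw [if_neg hc]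
    symm
    apply Finset.sum_eq_zero; intro x0 h0
    apply Finset.sum_eq_zero; intro x1 h1
    apply Finset.sum_eq_zero; intro x2 h2
    have : ¬ condR r x0 x1 x2 := by
      simp only [condR]
      rw [div_of_mem_block h0, div_of_mem_block h1, div_of_mem_block h2]
      exact hc
    rw [if_neg this, mul_zero]

lemma scaleForm_eq_Sc (F0 F1 F2 : ℕ → ℕ → ℝ) {r M : ℕ} (hr : r ≤ M) :
    scaleForm F0 F1 F2 r (2 ^ (M - r)) = Sc r M F0 F1 F2 := by
  rw [scaleForm_eq, ← pow_add, Nat.add_sub_cancel' hr, Sc]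
  congr 1
  rw [← sum_valI M (fun x0 => ∑ x1 ∈ range (2 ^ M), ∑ x2 ∈ range (2 ^ M), if condR r x0 x1 x2 then Gpt r F0 F1 F2 x0 x1 x2 else 0)]
  apply Finset.sum_congr rfl; intro a0 _
  rw [← sum_valI M (fun x1 => ∑ x2 ∈ range (2 ^ M), if condR r (valI M a0) x1 x2 then Gpt r F0 F1 F2 (valI M a0) x1 x2 else 0)]
  apply Finset.sum_congr rfl; intro a1 _
  rw [← sum_valI M (fun x2 => if condR r (valI M a0) (valI M a1) x2 then Gpt r F0 F1 F2 (valI M a0) (valI M a1) x2 else 0)]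

/-- numerical estimate of the final bound -/
lemma clog_bound (m : ℕ) :
    8 + 448 * ((Nat.clog 4 m : ℕ) : ℝ) * (((Nat.clog 4 m : ℕ) : ℝ) + 1) ≤ 904 * (1 + Real.log m) ^ 2 := by
  set J := Nat.clog 4 m with hJ
  have hlog0 : 0 ≤ Real.log m := Real.log_natCast_nonneg m
  have hJle : (J : ℝ) ≤ 1 + Real.log m := by
    by_cases hm : 1 < m
    · have h1 : 4 ^ (J.pred) < m := Nat.pow_pred_clog_lt_self (by norm_num) hm
      have h2 : ((4 : ℝ)) ^ (J.pred) < m := by exact_mod_cast h1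
      have h3 : (J.pred : ℝ) * Real.log 4 < Real.log m := by
        have := Real.log_lt_log (by positivity) h2
        rwa [Real.log_pow] at this
      have h4 : (1 : ℝ) ≤ Real.log 4 := by
        have h5 : Real.log 4 = 2 * Real.log 2 := by
          rw [show (4 : ℝ) = 2 ^ 2 by norm_num, Real.log_pow]
          norm_num
        have := Real.log_two_gt_d9
        rw [h5]
        linarith
      have h5 : (J : ℝ) ≤ J.pred + 1 := by
        have : J ≤ J.pred + 1 := by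
          rw [Nat.pred_eq_sub_one]; omega
        exact_mod_cast this
      have h6 : (0 : ℝ) ≤ J.pred := Nat.cast_nonneg _
      nlinarith
    · have : J = 0 := by
        rw [hJ]
        exact Nat.clog_of_right_le_one (by omega) _
      rw [this]
      simp
      linarith
  have hJ0 : (0 : ℝ) ≤ J := Nat.cast_nonneg _
  nlinarith

lemma hs_matOf_le {k : ℕ} {F : ℕ → ℕ → ℝ} {c : ℝ}
    (hF : ∀ x y, x < 2 ^ k → y < 2 ^ k → |F x y| ≤ c) : hs (matOf k F) ≤ c ^ 2 := by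
  have h1 : ∀ a b : Idx k, (matOf k F a b) ^ 2 ≤ (c / 2 ^ k) ^ 2 := by
    intro a b
    rw [← sq_abs]
    apply pow_le_pow_left₀ (abs_nonneg _)
    simp only [matOf, Matrix.of_apply, abs_div, abs_pow, Nat.abs_ofNat]
    exact div_le_div_of_nonneg_right (hF _ _ (valI_lt _ _) (valI_lt _ _)) (by positivity)
  have h2 : hs (matOf k F) ≤ ∑ _a : Idx k, ∑ _b : Idx k, (c / 2 ^ k) ^ 2 :=
    Finset.sum_le_sum fun a _ => Finset.sum_le_sum fun b _ => h1 a b
  refine h2.trans (le_of_eq ?_)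
  simp only [Finset.sum_const, Finset.card_univ, card_Idx, nsmul_eq_mul]
  push_cast
  field_simp

lemma Sc_half (r k : ℕ) (F0 F1 F2 : ℕ → ℕ → ℝ) :
    Sc r k F0 F1 F2 = 8 * Sc r k (fun x y => F0 x y / 2) (fun x y => F1 x y / 2) (fun x y => F2 x y / 2) := by
  simp only [Sc, Finset.mul_sum]
  apply Finset.sum_congr rfl; intro a0 _
  apply Finset.sum_congr rfl; intro a1 _
  apply Finset.sum_congr rfl; intro a2 _
  split_ifs
  · simp only [Gpt]; ring
  · simp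

lemma sum_range_shift {M : ℕ} {S : Finset ℕ} (hS : ∀ r ∈ S, 1 ≤ r ∧ r ≤ M) (g : ℕ → ℝ) :
    ∑ k ∈ range M, (if k + 1 ∈ S then g (k + 1) else 0) = ∑ r ∈ S, g r := by
  classical
  rw [← Finset.sum_filter]
  refine Finset.sum_nbij' (fun k => k + 1) (fun r => r - 1) ?_ ?_ ?_ ?_ ?_
  · intro k hk
    exact (Finset.mem_filter.mp hk).2
  · intro r hr
    have := hS r hr
    rw [Finset.mem_filter, Finset.mem_range]
    have e : r - 1 + 1 = r := by omega
    rw [e]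
    exact ⟨by omega, hr⟩
  · intro k _
    simp
  · intro r hr
    have := hS r hr
    show r - 1 + 1 = r
    omega
  · intro k _
    rfl

/-- **The bound on the grid.** -/
theorem grid_bound (M : ℕ) (S : Finset ℕ) (hS : ∀ r ∈ S, 1 ≤ r ∧ r ≤ M) (ε : ℕ → ℝ) (hε : ∀ r, |ε r| ≤ 1)
    (F0 F1 F2 : ℕ → ℕ → ℝ)
    (h0 : ∀ x y, x < 2 ^ M → y < 2 ^ M → |F0 x y| ≤ 1)
    (h1 : ∀ x y, x < 2 ^ M → y < 2 ^ M → |F1 x y| ≤ 1)
    (h2 : ∀ x y, x < 2 ^ M → y < 2 ^ M → |F2 x y| ≤ 1) :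
    |∑ r ∈ S, ε r * scaleForm F0 F1 F2 r (2 ^ (M - r))| ≤ 8000 * (1 + Real.log S.card) ^ 2 * 4 ^ M := by
  classical
  set eps : ℕ → ℝ := fun k => if k + 1 ∈ S then ε (k + 1) else 0 with heps
  have heps1 : ∀ k, |eps k| ≤ 1 := by
    intro k
    simp only [heps]
    split_ifs
    · exact hε _
    · simp
  -- the sum in terms of the scale sums
  have hsum : ∑ r ∈ S, ε r * scaleForm F0 F1 F2 r (2 ^ (M - r)) = ∑ k ∈ range M, eps k * Sc (k + 1) M F0 F1 F2 := by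
    have e1 : ∑ r ∈ S, ε r * scaleForm F0 F1 F2 r (2 ^ (M - r)) = ∑ r ∈ S, ε r * Sc r M F0 F1 F2 :=
      Finset.sum_congr rfl fun r hr => by rw [scaleForm_eq_Sc _ _ _ (hS r hr).2]
    rw [e1, ← sum_range_shift hS]
    apply Finset.sum_congr rfl
    intro k _
    simp only [heps]
    split_ifs <;> simp
  have hm : ∑ i ∈ range M, |eps i| ≤ (S.card : ℝ) := by
    have e1 : ∀ i ∈ range M, |eps i| ≤ if i + 1 ∈ S then (1 : ℝ) else 0 := by
      intro i _
      simp only [heps]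
      split_ifs
      · exact hε _
      · simp
    refine (Finset.sum_le_sum e1).trans (le_of_eq ?_)
    rw [sum_range_shift hS (fun _ => (1 : ℝ))]
    simp
  set G0 : ℕ → ℕ → ℝ := fun x y => F0 x y / 2 with hG0
  set G1 : ℕ → ℕ → ℝ := fun x y => F1 x y / 2 with hG1
  set G2 : ℕ → ℕ → ℝ := fun x y => F2 x y / 2 with hG2
  have hhalf : ∀ (F : ℕ → ℕ → ℝ), (∀ x y, x < 2 ^ M → y < 2 ^ M → |F x y| ≤ 1) →
      ∀ x y, x < 2 ^ M → y < 2 ^ M → |F x y / 2| ≤ 1 / 2 := by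
    intro F hF x y hx hy
    rw [abs_div, abs_of_pos (by norm_num : (0 : ℝ) < 2)]
    have := hF x y hx hy
    linarith
  have hsum2 : ∑ k ∈ range M, eps k * Sc (k + 1) M F0 F1 F2 = 8 * (4 ^ M * Lam eps M (matOf M G0) (matOf M G1) (matOf M (swapF G2))) := by
    rw [← sum_Sc_eq, Finset.mul_sum]
    apply Finset.sum_congr rfl
    intro k _
    rw [Sc_half]
    ring
  have hent : ∀ F : ℕ → ℕ → ℝ, (∀ x y, x < 2 ^ M → y < 2 ^ M → |F x y| ≤ 1 / 2) →
      ∀ a b, |matOf M F a b| ≤ (1 / 2) / 2 ^ M := by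
    intro F hF a b
    simp only [matOf, Matrix.of_apply, abs_div, abs_pow, Nat.abs_ofNat]
    exact div_le_div_of_nonneg_right (hF _ _ (valI_lt _ _) (valI_lt _ _)) (by positivity)
  have hG2' : ∀ x y, x < 2 ^ M → y < 2 ^ M → |swapF G2 x y| ≤ 1 / 2 :=
    fun x y hx hy => hhalf F2 h2 y x hy hx
  rw [← PLam_eq_Lam eps M _ _ _ (hent G0 (hhalf F0 h0)) (hent G1 (hhalf F1 h1)) (hent _ hG2')] at hsum2
  have hbound := plam_bound (J := Nat.clog 4 S.card) (m := (S.card : ℝ)) heps1 hm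
    (by
      simp only [th4]
      have h3 : (S.card : ℝ) ≤ 4 ^ Nat.clog 4 S.card := by
        exact_mod_cast Nat.le_pow_clog (by norm_num) _
      rw [one_div, inv_pow]
      rw [← div_eq_mul_inv, div_le_one (by positivity)]
      exact h3)
    (matOf M G0) (matOf M G1) (matOf M (swapF G2))
    ((hs_matOf_le (hhalf F0 h0)).trans (by norm_num))
    ((hs_matOf_le (hhalf F1 h1)).trans (by norm_num))
    ((hs_matOf_le hG2').trans (by norm_num))
  have hnum := clog_bound S.card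
  rw [hsum, hsum2, abs_mul, abs_mul, abs_of_pos (by norm_num : (0 : ℝ) < 8),
    abs_of_pos (by positivity : (0 : ℝ) < 4 ^ M)]
  have h4 : (0 : ℝ) < 4 ^ M := by positivity
  have h5 : (0 : ℝ) ≤ (1 + Real.log S.card) ^ 2 := sq_nonneg _
  have h6 : |PLam eps M (matOf M G0) (matOf M G1) (matOf M (swapF G2))| ≤ 904 * (1 + Real.log S.card) ^ 2 :=
    hbound.trans hnum
  calc 8 * (4 ^ M * |PLam eps M (matOf M G0) (matOf M G1) (matOf M (swapF G2))|)
      ≤ 8 * (4 ^ M * (904 * (1 + Real.log S.card) ^ 2)) := by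
        apply mul_le_mul_of_nonneg_left _ (by norm_num)
        exact mul_le_mul_of_nonneg_left h6 h4.le
    _ ≤ 8000 * (1 + Real.log S.card) ^ 2 * 4 ^ M := by
        nlinarith [mul_nonneg h4.le h5]

end Vale.Agent.Lib.P075
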