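import Vale.Agent.Lib.P075.Cubic

/-!
The strong estimate on the integer grid.
-/

open Matrix Finset BigOperators

set_option linter.unusedSectionVars false
set_option linter.unusedSimpArgs false

namespace Vale.Agent.Lib.P075

/-- the discrete cubic mass of a grid function on a square -/
noncomputable def gridCub (M : ℕ) (F : ℕ → ℕ → ℝ) : ℝ :=
  ∑ x ∈ range (2 ^ M), ∑ y ∈ range (2 ^ M), |F x y| ^ 3

lemma gridCub_nonneg (M : ℕ) (F : ℕ → ℕ → ℝ) : 0 ≤ gridCub M F :=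
  Finset.sum_nonneg fun _ _ => Finset.sum_nonneg fun _ _ => by positivity

lemma gridCub_swap (M : ℕ) (F : ℕ → ℕ → ℝ) : gridCub M (swapF F) = gridCub M F := by
  simp only [gridCub, swapF]
  exact Finset.sum_comm

lemma sum2_valI (k : ℕ) (g : ℕ → ℕ → ℝ) :
    ∑ a : Idx k, ∑ b : Idx k, g (valI k a) (valI k b) = ∑ x ∈ range (2 ^ k), ∑ y ∈ range (2 ^ k), g x y := by
  rw [← sum_valI k (fun x => ∑ y ∈ range (2 ^ k), g x y)]
  apply Finset.sum_congr rfl; intro a _
  exact sum_valI k (fun y => g (valI k a) y)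

lemma cub_matOf (M : ℕ) (F : ℕ → ℕ → ℝ) : cub M (matOf M F) = gridCub M F / 4 ^ M := by
  have h : ∀ a b : Idx M, |matOf M F a b| ^ 3 = |F (valI M a) (valI M b)| ^ 3 / ((2 : ℝ) ^ M) ^ 3 := by
    intro a b
    simp only [matOf, Matrix.of_apply, abs_div, abs_pow, Nat.abs_ofNat, div_pow]
  simp only [cub, h]
  rw [sum2_valI M (fun x y => |F x y| ^ 3 / ((2 : ℝ) ^ M) ^ 3)]
  simp only [gridCub, Finset.sum_div]
  rw [Finset.mul_sum]
  apply Finset.sum_congr rfl; intro x _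
  rw [Finset.mul_sum]
  apply Finset.sum_congr rfl; intro y _
  have e : (4 : ℝ) ^ M = (2 ^ M) ^ 2 := by
    rw [← pow_mul, mul_comm, pow_mul]
    norm_num
  rw [e]
  have : (2 : ℝ) ^ M ≠ 0 := by positivity
  field_simp

lemma rpow_div_four {x : ℝ} (hx : 0 ≤ x) (M : ℕ) :
    (x / 4 ^ M) ^ (1 / 3 : ℝ) = x ^ (1 / 3 : ℝ) / ((4 : ℝ) ^ M) ^ (1 / 3 : ℝ) :=
  Real.div_rpow hx (by positivity) _

/-- **The strong bound on the grid.** -/
theorem grid_cubic (M : ℕ) (S : Finset ℕ) (hS : ∀ r ∈ S, 1 ≤ r ∧ r ≤ M) (ε : ℕ → ℝ) (hε : ∀ r, |ε r| ≤ 1)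
    (F0 F1 F2 : ℕ → ℕ → ℝ) :
    |∑ r ∈ S, ε r * scaleForm F0 F1 F2 r (2 ^ (M - r))| ≤ 1000000 * (1 + Real.log S.card) ^ 2 *
      (gridCub M F0 ^ (1 / 3 : ℝ) * gridCub M F1 ^ (1 / 3 : ℝ) * gridCub M F2 ^ (1 / 3 : ℝ)) := by
  classical
  set eps : ℕ → ℝ := fun k => if k + 1 ∈ S then ε (k + 1) else 0 with heps
  have heps1 : ∀ k, |eps k| ≤ 1 := by
    intro k
    simp only [heps]
    split_ifs
    · exact hε _
    · simp
  -- the sum in terms of the scale sums
  have hsum : ∑ r ∈ S, ε r * scaleForm F0 F1 F2 r (2 ^ (M - r)) = ∑ k ∈ range M, eps k * Sc (k + 1) M F0 F1 F2 := by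
    have e1 : ∑ r ∈ S, ε r * scaleForm F0 F1 F2 r (2 ^ (M - r)) = ∑ r ∈ S, ε r * Sc r M F0 F1 F2 :=
      Finset.sum_congr rfl fun r hr => by rw [scaleForm_eq_Sc _ _ _ (hS r hr).2]
    rw [e1, ← sum_range_shift hS]
    apply Finset.sum_congr rfl
    intro k _
    simp only [heps]
    split_ifs <;> simp
  have hm : ∀ k, ∑ i ∈ range k, |eps i| ≤ (S.card : ℝ) := by
    intro k
    have e1 : ∀ i ∈ range k, |eps i| ≤ if i + 1 ∈ S then (1 : ℝ) else 0 := by
      intro i _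
      simp only [heps]
      split_ifs
      · exact hε _
      · simp
    refine (Finset.sum_le_sum e1).trans ?_
    rw [← Finset.sum_filter, Finset.sum_const, nsmul_eq_mul, mul_one]
    have : ((range k).filter fun i => i + 1 ∈ S).card ≤ S.card := by
      apply Finset.card_le_card_of_injOn (fun i => i + 1)
      · intro i hi
        exact (Finset.mem_filter.mp hi).2
      · intro a _ b _ h
        simpa using h
    exact_mod_cast this
  have hbound := Lam_cubic_bound (J := Nat.clog 4 S.card) (m := (S.card : ℝ)) heps1 hm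
    (by
      simp only [th4]
      have h3 : (S.card : ℝ) ≤ 4 ^ Nat.clog 4 S.card := by
        exact_mod_cast Nat.le_pow_clog (by norm_num) _
      rw [one_div, inv_pow]
      rw [← div_eq_mul_inv, div_le_one (by positivity)]
      exact h3)
    M (matOf M F0) (matOf M F1) (matOf M (swapF F2))
  have hnum := clog_bound S.card
  rw [cub_matOf, cub_matOf, cub_matOf, gridCub_swap, rpow_div_four (gridCub_nonneg _ _),
    rpow_div_four (gridCub_nonneg _ _), rpow_div_four (gridCub_nonneg _ _)] at hbound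
  set p := gridCub M F0 ^ (1 / 3 : ℝ) with hp
  set q := gridCub M F1 ^ (1 / 3 : ℝ) with hq
  set r := gridCub M F2 ^ (1 / 3 : ℝ) with hr
  have hp0 : 0 ≤ p := Real.rpow_nonneg (gridCub_nonneg _ _) _
  have hq0 : 0 ≤ q := Real.rpow_nonneg (gridCub_nonneg _ _) _
  have hr0 : 0 ≤ r := Real.rpow_nonneg (gridCub_nonneg _ _) _
  set t := ((4 : ℝ) ^ M) ^ (1 / 3 : ℝ) with ht
  have ht0 : 0 < t := Real.rpow_pos_of_pos (by positivity) _
  have ht3 : t ^ 3 = 4 ^ M := rpow_third_cube (by positivity)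
  rw [hsum, sum_Sc_eq, abs_mul, abs_of_pos (by positivity : (0 : ℝ) < 4 ^ M)]
  have h5 : (0 : ℝ) ≤ p * q * r := by positivity
  have h6 : (0 : ℝ) ≤ (1 + Real.log S.card) ^ 2 := sq_nonneg _
  calc 4 ^ M * |Lam eps M (matOf M F0) (matOf M F1) (matOf M (swapF F2))|
      ≤ 4 ^ M * (1032 * (8 + 448 * ((Nat.clog 4 S.card : ℕ) : ℝ) * (((Nat.clog 4 S.card : ℕ) : ℝ) + 1)) *
          (p / t * (q / t) * (r / t))) := mul_le_mul_of_nonneg_left hbound (by positivity)
    _ = 1032 * (8 + 448 * ((Nat.clog 4 S.card : ℕ) : ℝ) * (((Nat.clog 4 S.card : ℕ) : ℝ) + 1)) * (p * q * r) := by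
        rw [← ht3]
        field_simp
    _ ≤ 1032 * (904 * (1 + Real.log S.card) ^ 2) * (p * q * r) := by
        apply mul_le_mul_of_nonneg_right _ h5
        apply mul_le_mul_of_nonneg_left hnum (by norm_num)
    _ ≤ 1000000 * (1 + Real.log S.card) ^ 2 * (p * q * r) := by
        apply mul_le_mul_of_nonneg_right _ h5
        nlinarith

end Vale.Agent.Lib.P075
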