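import Vale.Agent.Lib.P075.Approx

/-!
The estimate for bounded measurable functions.
-/

open MeasureTheory Finset BigOperators

set_option linter.unusedSectionVars false
set_option linter.unusedSimpArgs false

namespace Vale.Agent.Lib.P075

/-- the estimate on the grid with a growth function -/
def GridGrowth (Φ : ℕ → ℝ) : Prop :=
  ∀ (M : ℕ) (S : Finset ℕ), (∀ r ∈ S, 1 ≤ r ∧ r ≤ M) → ∀ ε : ℕ → ℝ, (∀ r, |ε r| ≤ 1) →
    ∀ F0 F1 F2 : ℕ → ℕ → ℝ, |∑ r ∈ S, ε r * scaleForm F0 F1 F2 r (2 ^ (M - r))| ≤ Φ S.card *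
      (gridCub M F0 ^ (1 / 3 : ℝ) * gridCub M F1 ^ (1 / 3 : ℝ) * gridCub M F2 ^ (1 / 3 : ℝ))

/-- the form of step functions -/
lemma formD_step {Φ : ℕ → ℝ} (hΦ : GridGrowth Φ) {S : Finset ℤ} {ε : ℤ → ℝ} (hε : ∀ k, |ε k| ≤ 1)
    {N L : ℕ} (hN : ∀ k ∈ S, 1 ≤ k + N) (hL : ∀ k ∈ S, k ≤ L) {B : ℝ} (hB : 0 ≤ B)
    {G0 G1 G2 : ℕ → ℕ → ℝ} (h0 : ∀ a b, |G0 a b| ≤ B) (h1 : ∀ a b, |G1 a b| ≤ B) (h2 : ∀ a b, |G2 a b| ≤ B) :
    |formD S ε (stepF N L G0) (stepF N L G1) (stepF N L G2)| ≤ Φ S.card *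
      (cubI (stepF N L G0) ^ (1 / 3 : ℝ) * cubI (stepF N L G1) ^ (1 / 3 : ℝ) * cubI (stepF N L G2) ^ (1 / 3 : ℝ)) := by
  classical
  set r : ℤ → ℕ := fun k => (k + N).toNat with hr
  set j : ℤ → ℕ := fun k => ((L : ℤ) - k).toNat with hj
  have hrk : ∀ k ∈ S, k + N = r k := fun k hk => by
    have := hN k hk
    simp only [hr]
    omega
  have hjk : ∀ k ∈ S, k + j k = L := fun k hk => by
    have := hL k hk
    simp only [hj]
    omega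
  have hinj : Set.InjOn r S := by
    intro a ha b hb hab
    have h3 := hrk a ha
    have h4 := hrk b hb
    have h5 : (r a : ℤ) = r b := by rw [hab]
    omega
  have hform : ∀ k ∈ S, ∑' n : ℕ × ℕ, formI (stepF N L G0) (stepF N L G1) (stepF N L G2) k n.1 n.2 (n.1 ^^^ n.2) =
      (1 / 2 ^ N) ^ 2 * scaleForm G0 G1 G2 (r k) (2 ^ (j k)) := by
    intro k hk
    rw [tsum_formI (adm_stepF hB h0) (hjk k hk), scaleForm_eq_pairs, Finset.mul_sum]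
    apply Finset.sum_congr rfl; intro n0 hn0
    rw [Finset.mul_sum]
    apply Finset.sum_congr rfl; intro n1 hn1
    have hr1 : 1 ≤ r k := by
      have := hN k hk
      have := hrk k hk
      omega
    have hM : r k + j k = N + L := by
      have := hrk k hk
      have := hjk k hk
      omega
    rw [Finset.mem_range] at hn0 hn1
    exact formI_step hr1 (hrk k hk) hM G0 G1 G2 hn0 hn1 (Nat.xor_lt_two_pow hn0 hn1)
  set S' := S.image r with hS'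
  set ε' : ℕ → ℝ := fun a => ε ((a : ℤ) - N) with hε'
  have hcard : S'.card = S.card := Finset.card_image_of_injOn hinj
  have hS'b : ∀ a ∈ S', 1 ≤ a ∧ a ≤ N + L := by
    intro a ha
    obtain ⟨k, hk, rfl⟩ := Finset.mem_image.mp ha
    have e1 := hN k hk
    have e2 := hrk k hk
    have e3 := hjk k hk
    omega
  have hgrid := hΦ (N + L) S' hS'b ε' (fun a => hε _) G0 G1 G2
  rw [hcard] at hgrid
  have hsum : formD S ε (stepF N L G0) (stepF N L G1) (stepF N L G2) =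
      (1 / 2 ^ N) ^ 2 * ∑ a ∈ S', ε' a * scaleForm G0 G1 G2 a (2 ^ (N + L - a)) := by
    rw [formD, hS', Finset.sum_image hinj, Finset.mul_sum]
    apply Finset.sum_congr rfl; intro k hk
    rw [hform k hk]
    have e1 : ε' (r k) = ε k := by
      simp only [hε']
      have e2 := hrk k hk
      congr 1
      omega
    have e3 : N + L - r k = j k := by
      have e4 := hrk k hk
      have e5 := hjk k hk
      omega
    rw [e1, e3]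
    ring
  rw [hsum, abs_mul, abs_of_nonneg (by positivity : (0 : ℝ) ≤ (1 / 2 ^ N) ^ 2), cubI_stepF, cubI_stepF, cubI_stepF]
  set w : ℝ := (1 / 2 ^ N) ^ 2 with hw
  have hw0 : 0 < w := by positivity
  rw [Real.mul_rpow hw0.le (gridCub_nonneg _ _), Real.mul_rpow hw0.le (gridCub_nonneg _ _),
    Real.mul_rpow hw0.le (gridCub_nonneg _ _)]
  set t := w ^ (1 / 3 : ℝ) with ht
  have ht3 : t ^ 3 = w := rpow_third_cube hw0.le
  have e : Φ S.card * (t * gridCub (N + L) G0 ^ (1 / 3 : ℝ) * (t * gridCub (N + L) G1 ^ (1 / 3 : ℝ)) *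
      (t * gridCub (N + L) G2 ^ (1 / 3 : ℝ))) = w * (Φ S.card * (gridCub (N + L) G0 ^ (1 / 3 : ℝ) *
        gridCub (N + L) G1 ^ (1 / 3 : ℝ) * gridCub (N + L) G2 ^ (1 / 3 : ℝ))) := by
    rw [← ht3]
    ring
  rw [e]
  exact mul_le_mul_of_nonneg_left hgrid hw0.le

/-- the difference of the dyadic forms -/
lemma formD_sub_le {S : Finset ℤ} {ε : ℤ → ℝ} (hε : ∀ k, |ε k| ≤ 1) {B : ℝ} {L : ℕ} (hL : ∀ k ∈ S, k ≤ L)
    {F0 F1 F2 G0 G1 G2 : ℝ × ℝ → ℝ}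
    (hF0 : Adm B L F0) (hF1 : Adm B L F1) (hF2 : Adm B L F2)
    (hG0 : Adm B L G0) (hG1 : Adm B L G1) (hG2 : Adm B L G2) {δ : ℝ}
    (d0 : ∫ p, |F0 p - G0 p| ≤ δ) (d1 : ∫ p, |F1 p - G1 p| ≤ δ) (d2 : ∫ p, |F2 p - G2 p| ≤ δ) :
    |formD S ε F0 F1 F2 - formD S ε G0 G1 G2| ≤
      (∑ k ∈ S, ((2 : ℝ) ^ ((L : ℤ) - k).toNat * 2 ^ ((L : ℤ) - k).toNat) * ((2 : ℝ) ^ (-k) * (B ^ 2 * (2 ^ L * 3)))) * δ := by
  have hB := hF0.B_nonneg
  rw [formD, formD, ← Finset.sum_sub_distrib, Finset.sum_mul]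
  refine (Finset.abs_sum_le_sum_abs _ _).trans (Finset.sum_le_sum fun k hk => ?_)
  set j := ((L : ℤ) - k).toNat with hj
  have hjk : k + j = L := by
    have := hL k hk
    omega
  rw [← mul_sub, abs_mul, tsum_formI hF0 hjk, tsum_formI hG0 hjk, ← Finset.sum_sub_distrib]
  have hone : ∀ n0 n1 n2 : ℕ, |formI F0 F1 F2 k n0 n1 n2 - formI G0 G1 G2 k n0 n1 n2| ≤
      (2 : ℝ) ^ (-k) * (B ^ 2 * (2 ^ L * 3)) * δ := by
    intro n0 n1 n2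
    refine (formI_sub_le hF0 hF1 hF2 hG0 hG1 hG2 k n0 n1 n2).trans ?_
    have h3 : (∫ p, |F0 p - G0 p|) + (∫ p, |F1 p - G1 p|) + (∫ p, |F2 p - G2 p|) ≤ 3 * δ := by linarith
    calc _ ≤ (2 : ℝ) ^ (-k) * (B ^ 2 * (2 ^ L * (3 * δ))) := by gcongr
      _ = _ := by ring
  have h4 : |∑ n0 ∈ range (2 ^ j), (∑ n1 ∈ range (2 ^ j), formI F0 F1 F2 k n0 n1 (n0 ^^^ n1) -
      ∑ n1 ∈ range (2 ^ j), formI G0 G1 G2 k n0 n1 (n0 ^^^ n1))| ≤
      (2 : ℝ) ^ j * ((2 : ℝ) ^ j * ((2 : ℝ) ^ (-k) * (B ^ 2 * (2 ^ L * 3)) * δ)) := by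
    refine (Finset.abs_sum_le_sum_abs _ _).trans ?_
    have h5 : ∀ n0 ∈ range (2 ^ j), |∑ n1 ∈ range (2 ^ j), formI F0 F1 F2 k n0 n1 (n0 ^^^ n1) -
        ∑ n1 ∈ range (2 ^ j), formI G0 G1 G2 k n0 n1 (n0 ^^^ n1)| ≤
        (2 : ℝ) ^ j * ((2 : ℝ) ^ (-k) * (B ^ 2 * (2 ^ L * 3)) * δ) := by
      intro n0 _
      rw [← Finset.sum_sub_distrib]
      refine (Finset.abs_sum_le_sum_abs _ _).trans ?_
      refine (Finset.sum_le_sum fun n1 _ => hone n0 n1 (n0 ^^^ n1)).trans (le_of_eq ?_)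
      simp
    refine (Finset.sum_le_sum h5).trans (le_of_eq ?_)
    simp
  have h6 : 0 ≤ (2 : ℝ) ^ j * ((2 : ℝ) ^ j * ((2 : ℝ) ^ (-k) * (B ^ 2 * (2 ^ L * 3)) * δ)) :=
    (abs_nonneg _).trans h4
  calc |ε k| * _ ≤ 1 * ((2 : ℝ) ^ j * ((2 : ℝ) ^ j * ((2 : ℝ) ^ (-k) * (B ^ 2 * (2 ^ L * 3)) * δ))) :=
        mul_le_mul (hε k) h4 (abs_nonneg _) zero_le_one
    _ = _ := by ring

/-- **The estimate for admissible functions.** -/
theorem formD_adm {Φ : ℕ → ℝ} (hΦ : GridGrowth Φ) {S : Finset ℤ} (hΦ0 : 0 ≤ Φ S.card) {ε : ℤ → ℝ}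
    (hε : ∀ k, |ε k| ≤ 1)
    {B : ℝ} {L : ℕ} (hL : ∀ k ∈ S, k ≤ L) {F0 F1 F2 : ℝ × ℝ → ℝ}
    (hF0 : Adm B L F0) (hF1 : Adm B L F1) (hF2 : Adm B L F2) :
    |formD S ε F0 F1 F2| ≤ Φ S.card * (cubI F0 ^ (1 / 3 : ℝ) * cubI F1 ^ (1 / 3 : ℝ) * cubI F2 ^ (1 / 3 : ℝ)) := by
  have hB := hF0.B_nonneg
  set C0 : ℝ := ∑ k ∈ S, ((2 : ℝ) ^ ((L : ℤ) - k).toNat * 2 ^ ((L : ℤ) - k).toNat) * ((2 : ℝ) ^ (-k) * (B ^ 2 * (2 ^ L * 3))) with hC0
  obtain ⟨N00, hN00⟩ := Finset.exists_le (S.image fun k => 1 - k)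
  have hN0 : ∀ k ∈ S, 1 ≤ k + (N00.toNat : ℤ) := by
    intro k hk
    have := hN00 (1 - k) (Finset.mem_image_of_mem _ hk)
    omega
  set cub3 : ℝ → ℝ := fun δ => (cubI F0 + 3 * B ^ 2 * δ) ^ (1 / 3 : ℝ) * (cubI F1 + 3 * B ^ 2 * δ) ^ (1 / 3 : ℝ) *
      (cubI F2 + 3 * B ^ 2 * δ) ^ (1 / 3 : ℝ) with hcub3
  have key : ∀ δ : ℝ, 0 < δ → |formD S ε F0 F1 F2| ≤ Φ S.card * cub3 δ + C0 * δ := by
    intro δ hδ
    obtain ⟨N1, h1⟩ := exists_step hF0 hδ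
    obtain ⟨N2, h2⟩ := exists_step hF1 hδ
    obtain ⟨N3, h3⟩ := exists_step hF2 hδ
    set N := max N00.toNat (max N1 (max N2 N3)) with hN
    have l0 : N00.toNat ≤ N := le_max_left _ _
    have l1 : N1 ≤ N := (le_max_left _ _).trans (le_max_right _ _)
    have l2 : N2 ≤ N := ((le_max_left _ _).trans (le_max_right _ _)).trans (le_max_right _ _)
    have l3 : N3 ≤ N := ((le_max_right _ _).trans (le_max_right _ _)).trans (le_max_right _ _)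
    obtain ⟨G0, b0, d0⟩ := h1 N l1
    obtain ⟨G1, b1, d1⟩ := h2 N l2
    obtain ⟨G2, b2, d2⟩ := h3 N l3
    have hN' : ∀ k ∈ S, 1 ≤ k + (N : ℤ) := by
      intro k hk
      have := hN0 k hk
      have : (N00.toNat : ℤ) ≤ N := by exact_mod_cast l0
      omega
    have a0 : Adm B L (stepF N L G0) := adm_stepF hB b0
    have a1 : Adm B L (stepF N L G1) := adm_stepF hB b1
    have a2 : Adm B L (stepF N L G2) := adm_stepF hB b2
    have e1 := formD_step hΦ hε hN' hL hB b0 b1 b2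
    have e2 := formD_sub_le hε hL hF0 hF1 hF2 a0 a1 a2 d0 d1 d2
    have hmono : ∀ {F G : ℝ × ℝ → ℝ}, Adm B L F → Adm B L G → ∫ p, |F p - G p| ≤ δ →
        cubI G ^ (1 / 3 : ℝ) ≤ (cubI F + 3 * B ^ 2 * δ) ^ (1 / 3 : ℝ) := by
      intro F G hF hG hd
      apply Real.rpow_le_rpow (cubI_nonneg _) _ (by norm_num)
      refine (cubI_le hF hG).trans ?_
      have : 3 * B ^ 2 * ∫ p, |F p - G p| ≤ 3 * B ^ 2 * δ :=
        mul_le_mul_of_nonneg_left hd (by positivity)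
      linarith
    have m0 := hmono hF0 a0 d0
    have m1 := hmono hF1 a1 d1
    have m2 := hmono hF2 a2 d2
    have n0 : 0 ≤ cubI (stepF N L G0) ^ (1 / 3 : ℝ) := Real.rpow_nonneg (cubI_nonneg _) _
    have n1 : 0 ≤ cubI (stepF N L G1) ^ (1 / 3 : ℝ) := Real.rpow_nonneg (cubI_nonneg _) _
    have n2 : 0 ≤ cubI (stepF N L G2) ^ (1 / 3 : ℝ) := Real.rpow_nonneg (cubI_nonneg _) _
    have hprod : cubI (stepF N L G0) ^ (1 / 3 : ℝ) * cubI (stepF N L G1) ^ (1 / 3 : ℝ) * cubI (stepF N L G2) ^ (1 / 3 : ℝ)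
        ≤ cub3 δ := by
      exact mul_le_mul (mul_le_mul m0 m1 n1 (n0.trans m0)) m2 n2 (mul_nonneg (n0.trans m0) (n1.trans m1))
    have e3 := mul_le_mul_of_nonneg_left hprod hΦ0
    have e4 := abs_sub_abs_le_abs_sub (formD S ε F0 F1 F2) (formD S ε (stepF N L G0) (stepF N L G1) (stepF N L G2))
    linarith
  have hcont : Continuous (fun δ : ℝ => Φ S.card * cub3 δ + C0 * δ) := by
    have c : ∀ a : ℝ, Continuous (fun δ : ℝ => (a + 3 * B ^ 2 * δ) ^ (1 / 3 : ℝ)) := by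
      intro a
      apply Continuous.rpow_const (by fun_prop)
      intro x
      right
      norm_num
    have c2 : Continuous cub3 := ((c _).mul (c _)).mul (c _)
    exact (continuous_const.mul c2).add (continuous_const.mul continuous_id)
  have hlim : Filter.Tendsto (fun δ : ℝ => Φ S.card * cub3 δ + C0 * δ) (nhdsWithin 0 (Set.Ioi 0))
      (nhds (Φ S.card * cub3 0 + C0 * 0)) := (hcont.tendsto 0).mono_left nhdsWithin_le_nhds
  have hfin := ge_of_tendsto hlim (eventually_nhdsWithin_of_forall fun δ hδ => key δ hδ)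
  simp only [hcub3, mul_zero, add_zero] at hfin
  exact hfin

/-- the grid estimate with the explicit growth -/
lemma gridGrowth_log : GridGrowth (fun m => 1000000 * (1 + Real.log m) ^ 2) :=
  fun M S hS ε hε F0 F1 F2 => grid_cubic M S hS ε hε F0 F1 F2

/-- **The strong bound for bounded measurable functions.** -/
theorem formD_measurable {Φ : ℕ → ℝ} (hΦ : GridGrowth Φ) (S : Finset ℤ) (hΦ0 : 0 ≤ Φ S.card) (ε : ℤ → ℝ)
    (hε : ∀ k, |ε k| ≤ 1) (F0 F1 F2 : ℝ × ℝ → ℝ)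
    (m0 : Measurable F0) (m1 : Measurable F1) (m2 : Measurable F2)
    (b0 : ∃ B, ∀ p, |F0 p| ≤ B) (b1 : ∃ B, ∀ p, |F1 p| ≤ B) (b2 : ∃ B, ∀ p, |F2 p| ≤ B)
    (c0 : ∃ R : ℝ, ∀ p, F0 p ≠ 0 → 0 ≤ p.1 ∧ p.1 < R ∧ 0 ≤ p.2 ∧ p.2 < R)
    (c1 : ∃ R : ℝ, ∀ p, F1 p ≠ 0 → 0 ≤ p.1 ∧ p.1 < R ∧ 0 ≤ p.2 ∧ p.2 < R)
    (c2 : ∃ R : ℝ, ∀ p, F2 p ≠ 0 → 0 ≤ p.1 ∧ p.1 < R ∧ 0 ≤ p.2 ∧ p.2 < R) :
    |formD S ε F0 F1 F2| ≤ Φ S.card *
      ((∫ p, |F0 p| ^ 3) ^ (1 / 3 : ℝ) * (∫ p, |F1 p| ^ 3) ^ (1 / 3 : ℝ) * (∫ p, |F2 p| ^ 3) ^ (1 / 3 : ℝ)) := by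
  obtain ⟨B0, hB0⟩ := b0
  obtain ⟨B1, hB1⟩ := b1
  obtain ⟨B2, hB2⟩ := b2
  obtain ⟨R0, hR0⟩ := c0
  obtain ⟨R1, hR1⟩ := c1
  obtain ⟨R2, hR2⟩ := c2
  obtain ⟨K, hK⟩ := Finset.exists_le S
  obtain ⟨L0, hL0⟩ := pow_unbounded_of_one_lt (max R0 (max R1 R2)) (by norm_num : (1 : ℝ) < 2)
  set L := max L0 K.toNat with hL
  have hLS : ∀ k ∈ S, k ≤ L := by
    intro k hk
    have h1 := hK k hk
    have h2 : K.toNat ≤ L := le_max_right _ _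
    have h3 : (K.toNat : ℤ) ≤ L := by exact_mod_cast h2
    omega
  have hpow : (2 : ℝ) ^ L0 ≤ 2 ^ L := pow_le_pow_right₀ (by norm_num) (le_max_left _ _)
  have h20 : R0 < 2 ^ L := by
    have : R0 ≤ max R0 (max R1 R2) := le_max_left _ _
    linarith
  have h21 : R1 < 2 ^ L := by
    have : R1 ≤ max R0 (max R1 R2) := (le_max_left _ _).trans (le_max_right _ _)
    linarith
  have h22 : R2 < 2 ^ L := by
    have : R2 ≤ max R0 (max R1 R2) := (le_max_right _ _).trans (le_max_right _ _)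
    linarith
  set B := max B0 (max B1 B2) with hB
  have adm : ∀ {F : ℝ × ℝ → ℝ} {B' R : ℝ}, Measurable F → B' ≤ B → R < 2 ^ L → (∀ p, |F p| ≤ B') →
      (∀ p, F p ≠ 0 → 0 ≤ p.1 ∧ p.1 < R ∧ 0 ≤ p.2 ∧ p.2 < R) → Adm B L F := by
    intro F B' R hm hB' hR hb hc
    refine ⟨hm, fun p => (hb p).trans hB', fun p hp => ?_⟩
    obtain ⟨h1, h2, h3, h4⟩ := hc p hp
    exact ⟨⟨h1, h2.trans hR⟩, ⟨h3, h4.trans hR⟩⟩
  exact formD_adm hΦ hΦ0 hε hLS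
    (adm m0 (le_max_left _ _) h20 hB0 hR0)
    (adm m1 ((le_max_left _ _).trans (le_max_right _ _)) h21 hB1 hR1)
    (adm m2 ((le_max_right _ _).trans (le_max_right _ _)) h22 hB2 hR2)

end Vale.Agent.Lib.P075
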