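import Vale.Agent.Lib.P075.Rise
import Vale.Agent.Lib.P075.Final3

/-!
The uniform bound: the potential bounds the form at all levels.
-/

open Matrix Finset BigOperators

set_option linter.unusedSectionVars false
set_option linter.unusedSimpArgs false

namespace Vale.Agent.Lib.P075

section leaf

variable {n : Type*} [Fintype n] [DecidableEq n] [Unique n]

/-- the value of the three halves power on a one point index set -/
lemma f32_leaf {P : Matrix n n ℝ} {x y : ℝ} (h : P default default = x ^ 2 + y ^ 2) :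
    f32 P ≤ 2 * (|x| ^ 3 + |y| ^ 3) := by
  set r := Real.sqrt (x ^ 2 + y ^ 2) with hr
  have hr0 : 0 ≤ r := Real.sqrt_nonneg _
  have hr2 : r * r = x ^ 2 + y ^ 2 := Real.mul_self_sqrt (by positivity)
  set R : Matrix n n ℝ := Matrix.of fun _ _ => r with hR
  have hRp : Psd R := by
    constructor
    · ext a b
      rfl
    · intro v
      simp only [qf, dotProduct, Matrix.mulVec, Fintype.sum_unique, hR, Matrix.of_apply]
      nlinarith [mul_nonneg (mul_self_nonneg (v default)) hr0]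
  have hRR : R * R = P := by
    ext a b
    rw [Subsingleton.elim a default, Subsingleton.elim b default]
    rw [Matrix.mul_apply, Fintype.sum_unique, h]
    simp only [hR, Matrix.of_apply]
    exact hr2
  rw [f32_eq hRp hRR]
  have e : trace (R * R * R) = r ^ 3 := by
    simp only [Matrix.trace, Matrix.diag_apply, Fintype.sum_unique]
    rw [Matrix.mul_apply, Fintype.sum_unique, Matrix.mul_apply, Fintype.sum_unique]
    simp only [hR, Matrix.of_apply]
    ring
  rw [e]
  have hx : 0 ≤ |x| := abs_nonneg _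
  have hy : 0 ≤ |y| := abs_nonneg _
  have hr3 : r * r = |x| ^ 2 + |y| ^ 2 := by rw [hr2, sq_abs, sq_abs]
  have h1 : 0 ≤ (r - |x|) ^ 2 * (r + 2 * |x|) := mul_nonneg (sq_nonneg _) (by positivity)
  have h2 : 0 ≤ (r - |y|) ^ 2 * (r + 2 * |y|) := mul_nonneg (sq_nonneg _) (by positivity)
  have h3 : r ^ 3 = r * |x| ^ 2 + r * |y| ^ 2 := by
    calc r ^ 3 = r * (r * r) := by ring
      _ = _ := by rw [hr3]; ring
  nlinarith

/-- the potential on a one point index set -/
lemma Vp_leaf_u (A B D : Matrix n n ℝ) : Vp A B D ≤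
    4 * (|A default default| ^ 3 + |B default default| ^ 3 + |D default default| ^ 3) := by
  have key : ∀ X Y : Matrix n n ℝ, (X * Y) default default = X default default * Y default default := by
    intro X Y
    rw [Matrix.mul_apply, Fintype.sum_unique]
  have h1 : f32 (Aᵀ * A + B * Bᵀ) ≤ 2 * (|A default default| ^ 3 + |B default default| ^ 3) := by
    apply f32_leaf
    rw [Matrix.add_apply, key, key]
    simp only [Matrix.transpose_apply]
    ring
  have h2 : f32 (Bᵀ * B + Dᵀ * D) ≤ 2 * (|B default default| ^ 3 + |D default default| ^ 3) := by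
    apply f32_leaf
    rw [Matrix.add_apply, key, key]
    simp only [Matrix.transpose_apply]
    ring
  have h3 : f32 (A * Aᵀ + D * Dᵀ) ≤ 2 * (|A default default| ^ 3 + |D default default| ^ 3) := by
    apply f32_leaf
    rw [Matrix.add_apply, key, key]
    simp only [Matrix.transpose_apply]
    ring
  simp only [Vp]
  linarith

end leaf

lemma cub_leaf (X : Matrix (Idx 0) (Idx 0) ℝ) : cub 0 X = |X () ()| ^ 3 := by
  have hsum : ∀ g : Idx 0 → ℝ, ∑ a, g a = g () := fun g => Finset.sum_singleton _ _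
  simp only [cub, hsum]
  simp

/-- the potential at a leaf -/
lemma Vp_leaf (A B D : Matrix (Idx 0) (Idx 0) ℝ) : Vp A B D ≤ 4 * (cub 0 A + cub 0 B + cub 0 D) := by
  haveI : Unique (Idx 0) := inferInstanceAs (Unique Unit)
  rw [cub_leaf, cub_leaf, cub_leaf]
  exact Vp_leaf_u A B D

lemma cub_A_children (k : ℕ) (A : Matrix (Idx (k + 1)) (Idx (k + 1)) ℝ) :
    (1 / 4 : ℝ) * ∑ j : Bool, ∑ l : Bool, cub k (blk (n := Idx k) A (xor j l) j) = cub (k + 1) A := by
  rw [cub_child]
  simp only [Fintype.sum_bool, Bool.xor_true, Bool.xor_false, Bool.not_true, Bool.not_false]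
  ring

lemma cub_B_children (k : ℕ) (B : Matrix (Idx (k + 1)) (Idx (k + 1)) ℝ) :
    (1 / 4 : ℝ) * ∑ j : Bool, ∑ l : Bool, cub k (blk (n := Idx k) B j l) = cub (k + 1) B := by
  rw [cub_child]

lemma cub_D_children (k : ℕ) (D : Matrix (Idx (k + 1)) (Idx (k + 1)) ℝ) :
    (1 / 4 : ℝ) * ∑ j : Bool, ∑ l : Bool, cub k (blk (n := Idx k) D (xor j l) l) = cub (k + 1) D := by
  rw [cub_child]
  simp only [Fintype.sum_bool, Bool.xor_true, Bool.xor_false, Bool.not_true, Bool.not_false]
  ring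

/-- **The potential bounds the form.** -/
theorem Lam_Vp {eps : ℕ → ℝ} (heps : ∀ k, |eps k| ≤ 1) (k : ℕ) :
    ∀ A B D : Matrix (Idx k) (Idx k) ℝ,
      |Lam eps k A B D| ≤ (4 / 3 : ℝ) * (4 * (cub k A + cub k B + cub k D) - Vp A B D) := by
  induction k with
  | zero =>
    intro A B D
    have h := Vp_leaf A B D
    simp only [Lam, abs_zero]
    linarith
  | succ k ih =>
    intro A B D
    rw [Lam_succ]
    have hchild := abs_quarter_sum_le (fun j l =>
        Lam eps k (blk (n := Idx k) A (xor j l) j) (blk (n := Idx k) B j l) (blk (n := Idx k) D (xor j l) l))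
        (fun j l => (4 / 3 : ℝ) * (4 * (cub k (blk (n := Idx k) A (xor j l) j) + cub k (blk (n := Idx k) B j l)
          + cub k (blk (n := Idx k) D (xor j l) l))
          - Vp (n := Idx k) (blk (n := Idx k) A (xor j l) j) (blk (n := Idx k) B j l) (blk (n := Idx k) D (xor j l) l)))
        (fun j l => ih _ _ _)
    have hrise := Vp_rise (n := Idx k) A B D
    have hA := cub_A_children k A
    have hB := cub_B_children k B
    have hD := cub_D_children k D
    have hT : |eps k * Tri (n := Idx k) A B D| ≤ |Tri (n := Idx k) A B D| := by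
      rw [abs_mul]
      exact mul_le_of_le_one_left (abs_nonneg _) (heps k)
    have hsum : (1 / 4 : ℝ) * ∑ j : Bool, ∑ l : Bool, (4 / 3 : ℝ) * (4 * (cub k (blk (n := Idx k) A (xor j l) j)
          + cub k (blk (n := Idx k) B j l) + cub k (blk (n := Idx k) D (xor j l) l))
          - Vp (n := Idx k) (blk (n := Idx k) A (xor j l) j) (blk (n := Idx k) B j l) (blk (n := Idx k) D (xor j l) l))
        = (4 / 3 : ℝ) * (4 * (cub (k + 1) A + cub (k + 1) B + cub (k + 1) D)
          - (1 / 4 : ℝ) * ∑ j : Bool, ∑ l : Bool, Vp (n := Idx k) (blk (n := Idx k) A (xor j l) j) (blk (n := Idx k) B j l)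
            (blk (n := Idx k) D (xor j l) l)) := by
      rw [← hA, ← hB, ← hD]
      simp only [Fintype.sum_bool]
      ring
    rw [hsum] at hchild
    have hVp : Vp (n := Idx (k + 1)) A B D = Vp (n := Bool × Idx k) A B D := rfl
    rw [hVp]
    calc _ ≤ |eps k * Tri (n := Idx k) A B D| + |(1 / 4 : ℝ) * ∑ j : Bool, ∑ l : Bool, Lam eps k (blk (n := Idx k) A (xor j l) j)
          (blk (n := Idx k) B j l) (blk (n := Idx k) D (xor j l) l)| := abs_add_le _ _
      _ ≤ _ := by linarith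

/-- the bound by the sum of the cubic masses -/
theorem Lam_cub_sum' {eps : ℕ → ℝ} (heps : ∀ k, |eps k| ≤ 1) (k : ℕ) (A B D : Matrix (Idx k) (Idx k) ℝ) :
    |Lam eps k A B D| ≤ (16 / 3 : ℝ) * (cub k A + cub k B + cub k D) := by
  have h := Lam_Vp heps k A B D
  have h0 := Vp_nonneg (n := Idx k) A B D
  linarith

/-- the bound by the product of the cubic norms -/
theorem Lam_cub_prod' {eps : ℕ → ℝ} (heps : ∀ k, |eps k| ≤ 1) (k : ℕ) (A B D : Matrix (Idx k) (Idx k) ℝ) :
    |Lam eps k A B D| ≤ 16 * (cub k A ^ (1 / 3 : ℝ) * cub k B ^ (1 / 3 : ℝ) * cub k D ^ (1 / 3 : ℝ)) := by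
  have hpos : 0 ≤ 16 * (cub k A ^ (1 / 3 : ℝ) * cub k B ^ (1 / 3 : ℝ) * cub k D ^ (1 / 3 : ℝ)) := by
    have h1 := cub_nonneg k A
    have h2 := cub_nonneg k B
    have h3 := cub_nonneg k D
    positivity
  by_cases hA : cub k A = 0
  · rw [cub_eq_zero hA, Lam_zero_left, abs_zero]
    rw [cub_eq_zero hA] at hpos
    exact hpos
  by_cases hB : cub k B = 0
  · rw [cub_eq_zero hB, Lam_zero_mid, abs_zero]
    rw [cub_eq_zero hB] at hpos
    exact hpos
  by_cases hD : cub k D = 0
  · rw [cub_eq_zero hD, Lam_zero_right, abs_zero]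
    rw [cub_eq_zero hD] at hpos
    exact hpos
  have hA0 : 0 < cub k A := lt_of_le_of_ne (cub_nonneg _ _) (Ne.symm hA)
  have hB0 : 0 < cub k B := lt_of_le_of_ne (cub_nonneg _ _) (Ne.symm hB)
  have hD0 : 0 < cub k D := lt_of_le_of_ne (cub_nonneg _ _) (Ne.symm hD)
  set p := cub k A ^ (1 / 3 : ℝ) with hp
  set q := cub k B ^ (1 / 3 : ℝ) with hq
  set r := cub k D ^ (1 / 3 : ℝ) with hr
  have hp0 : 0 < p := Real.rpow_pos_of_pos hA0 _
  have hq0 : 0 < q := Real.rpow_pos_of_pos hB0 _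
  have hr0 : 0 < r := Real.rpow_pos_of_pos hD0 _
  have hp3 : p ^ 3 = cub k A := rpow_third_cube hA0.le
  have hq3 : q ^ 3 = cub k B := rpow_third_cube hB0.le
  have hr3 : r ^ 3 = cub k D := rpow_third_cube hD0.le
  have e1 : cub k ((1 / p) • A) = 1 := by
    rw [cub_smul _ (by positivity), ← hp3]
    field_simp
  have e2 : cub k ((1 / q) • B) = 1 := by
    rw [cub_smul _ (by positivity), ← hq3]
    field_simp
  have e3 : cub k ((1 / r) • D) = 1 := by
    rw [cub_smul _ (by positivity), ← hr3]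
    field_simp
  have h1 := Lam_cub_sum' heps k ((1 / p) • A) ((1 / q) • B) ((1 / r) • D)
  rw [Lam_smul, e1, e2, e3, abs_mul, abs_of_pos (by positivity : 0 < 1 / p * (1 / q) * (1 / r))] at h1
  have h2 : 0 < p * q * r := by positivity
  have h3 : |Lam eps k A B D| = (p * q * r) * (1 / p * (1 / q) * (1 / r) * |Lam eps k A B D|) := by
    field_simp
  rw [h3]
  calc _ ≤ (p * q * r) * ((16 / 3 : ℝ) * (1 + 1 + 1)) := mul_le_mul_of_nonneg_left h1 h2.le
    _ = _ := by ring

/-- **The uniform bound on the grid.** -/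
theorem grid_uniform (M : ℕ) (S : Finset ℕ) (hS : ∀ r ∈ S, 1 ≤ r ∧ r ≤ M) (ε : ℕ → ℝ) (hε : ∀ r, |ε r| ≤ 1)
    (F0 F1 F2 : ℕ → ℕ → ℝ) :
    |∑ r ∈ S, ε r * scaleForm F0 F1 F2 r (2 ^ (M - r))| ≤ 16 *
      (gridCub M F0 ^ (1 / 3 : ℝ) * gridCub M F1 ^ (1 / 3 : ℝ) * gridCub M F2 ^ (1 / 3 : ℝ)) := by
  classical
  set eps : ℕ → ℝ := fun k => if k + 1 ∈ S then ε (k + 1) else 0 with heps
  have heps1 : ∀ k, |eps k| ≤ 1 := by
    intro k
    simp only [heps]
    split_ifs
    · exact hε _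
    · simp
  have hsum : ∑ r ∈ S, ε r * scaleForm F0 F1 F2 r (2 ^ (M - r)) = ∑ k ∈ range M, eps k * Sc (k + 1) M F0 F1 F2 := by
    have e1 : ∑ r ∈ S, ε r * scaleForm F0 F1 F2 r (2 ^ (M - r)) = ∑ r ∈ S, ε r * Sc r M F0 F1 F2 :=
      Finset.sum_congr rfl fun r hr => by rw [scaleForm_eq_Sc _ _ _ (hS r hr).2]
    rw [e1, ← sum_range_shift hS]
    apply Finset.sum_congr rfl
    intro k _
    simp only [heps]
    split_ifs <;> simp
  have hbound := Lam_cub_prod' heps1 M (matOf M F0) (matOf M F1) (matOf M (swapF F2))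
  rw [cub_matOf, cub_matOf, cub_matOf, gridCub_swap, rpow_div_four (gridCub_nonneg _ _),
    rpow_div_four (gridCub_nonneg _ _), rpow_div_four (gridCub_nonneg _ _)] at hbound
  set p := gridCub M F0 ^ (1 / 3 : ℝ) with hp
  set q := gridCub M F1 ^ (1 / 3 : ℝ) with hq
  set r := gridCub M F2 ^ (1 / 3 : ℝ) with hr
  have hp0 : 0 ≤ p := Real.rpow_nonneg (gridCub_nonneg _ _) _
  have hq0 : 0 ≤ q := Real.rpow_nonneg (gridCub_nonneg _ _) _
  have hr0 : 0 ≤ r := Real.rpow_nonneg (gridCub_nonneg _ _) _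
  set t := ((4 : ℝ) ^ M) ^ (1 / 3 : ℝ) with ht
  have ht0 : 0 < t := Real.rpow_pos_of_pos (by positivity) _
  have ht3 : t ^ 3 = 4 ^ M := rpow_third_cube (by positivity)
  rw [hsum, sum_Sc_eq, abs_mul, abs_of_pos (by positivity : (0 : ℝ) < 4 ^ M)]
  calc 4 ^ M * |Lam eps M (matOf M F0) (matOf M F1) (matOf M (swapF F2))|
      ≤ 4 ^ M * (16 * (p / t * (q / t) * (r / t))) := mul_le_mul_of_nonneg_left hbound (by positivity)
    _ = 16 * (p * q * r) := by
        rw [← ht3]
        field_simp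

/-- the uniform grid estimate -/
lemma gridGrowth_uniform : GridGrowth (fun _ => 16) :=
  fun M S hS ε hε F0 F1 F2 => grid_uniform M S hS ε hε F0 F1 F2

end Vale.Agent.Lib.P075
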