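import Mathlib

/-!
The dyadic form of the problem on the plane.
-/

open MeasureTheory

namespace Vale.Agent.Lib.P075

/-- the function `h_I` for the dyadic interval `I = [2 ^ k * n, 2 ^ k * (n + 1))`: the value `1` on the
left half of `I`, the value `-1` on the right half, and `0` off `I` -/
noncomputable def haarI (k : ℤ) (n : ℕ) (x : ℝ) : ℝ :=
  Set.indicator (Set.Ico ((2 : ℝ) ^ k * n) ((2 : ℝ) ^ k * (n + 1 / 2))) (fun _ => (1 : ℝ)) x
    - Set.indicator (Set.Ico ((2 : ℝ) ^ k * (n + 1 / 2)) ((2 : ℝ) ^ k * (n + 1))) (fun _ => (1 : ℝ)) x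

/-- the number `L_I(F0, F1, F2)` for the triple of dyadic intervals of length `2 ^ k` with indices
`n0, n1, n2` -/
noncomputable def formI (F0 F1 F2 : ℝ × ℝ → ℝ) (k : ℤ) (n0 n1 n2 : ℕ) : ℝ :=
  (2 : ℝ) ^ (-k) * ∫ x : ℝ × ℝ × ℝ, F0 (x.1, x.2.1) * F1 (x.2.1, x.2.2) * F2 (x.2.2, x.1) *
    (haarI k n0 x.1 * haarI k n1 x.2.1 * haarI k n2 x.2.2)

/-- the dyadic form: the sum over `k` in `S` of `ε k` times the sum of `L_I` over the triples with
indices `n0, n1, n0 xor n1`, which are exactly the triples of `A_k` -/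
noncomputable def formD (S : Finset ℤ) (ε : ℤ → ℝ) (F0 F1 F2 : ℝ × ℝ → ℝ) : ℝ :=
  ∑ k ∈ S, ε k * ∑' n : ℕ × ℕ, formI F0 F1 F2 k n.1 n.2 (n.1 ^^^ n.2)

end Vale.Agent.Lib.P075
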