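import Vale.Agent.Lib.P075.Final2
import Vale.Agent.Lib.P075.QDefs

/-!
Integrals of step functions on a dyadic mesh.
-/

open MeasureTheory Finset BigOperators

set_option linter.unusedSectionVars false
set_option linter.unusedSimpArgs false

namespace Vale.Agent.Lib.P075

/-- the interval `[0, 2 ^ L)` -/
def Ib (L : ℕ) : Set ℝ := Set.Ico 0 ((2 : ℝ) ^ L)

/-- the index of the mesh cell of a point -/
noncomputable def idx (N : ℕ) (x : ℝ) : ℕ := ⌊(2 : ℝ) ^ N * x⌋₊

/-- a mesh cell -/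
def cell (N a : ℕ) : Set ℝ := Set.Ico ((a : ℝ) / 2 ^ N) (((a : ℝ) + 1) / 2 ^ N)

/-- indicator function with value one -/
noncomputable def ci (s : Set ℝ) (x : ℝ) : ℝ := s.indicator (fun _ => (1 : ℝ)) x

lemma ci_of_mem {s : Set ℝ} {x : ℝ} (h : x ∈ s) : ci s x = 1 := by
  simp [ci, h]

lemma ci_of_not_mem {s : Set ℝ} {x : ℝ} (h : x ∉ s) : ci s x = 0 := by
  simp [ci, h]

lemma ci_nonneg (s : Set ℝ) (x : ℝ) : 0 ≤ ci s x := by
  by_cases h : x ∈ s
  · rw [ci_of_mem h]; norm_num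
  · rw [ci_of_not_mem h]

lemma ci_le_one (s : Set ℝ) (x : ℝ) : ci s x ≤ 1 := by
  by_cases h : x ∈ s
  · rw [ci_of_mem h]
  · rw [ci_of_not_mem h]; norm_num

lemma measurable_ci {s : Set ℝ} (hs : MeasurableSet s) : Measurable (ci s) :=
  measurable_const.indicator hs

lemma mem_cell {N a : ℕ} {x : ℝ} : x ∈ cell N a ↔ 0 ≤ x ∧ idx N x = a := by
  have h2 : (0 : ℝ) < 2 ^ N := by positivity
  constructor
  · rintro ⟨h1, h3⟩
    rw [div_le_iff₀ h2] at h1
    rw [lt_div_iff₀ h2] at h3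
    have h0 : 0 ≤ x := by
      have : (0 : ℝ) ≤ a := Nat.cast_nonneg a
      by_contra hc
      push Not at hc
      nlinarith
    refine ⟨h0, ?_⟩
    rw [idx, Nat.floor_eq_iff (by positivity)]
    constructor <;> linarith
  · rintro ⟨h0, h1⟩
    have h3 := (Nat.floor_eq_iff (by positivity : 0 ≤ (2 : ℝ) ^ N * x)).mp h1
    constructor
    · rw [div_le_iff₀ h2]; linarith [h3.1]
    · rw [lt_div_iff₀ h2]; linarith [h3.2]

lemma idx_lt {N L : ℕ} {x : ℝ} (h : x ∈ Ib L) : idx N x < 2 ^ (N + L) := by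
  rw [idx, Nat.floor_lt (by have := h.1; positivity)]
  push_cast
  rw [pow_add]
  exact mul_lt_mul_of_pos_left h.2 (by positivity)

lemma mem_Ib_of_idx {N L : ℕ} {x : ℝ} (h0 : 0 ≤ x) (h : idx N x < 2 ^ (N + L)) : x ∈ Ib L := by
  refine ⟨h0, ?_⟩
  rw [idx, Nat.floor_lt (by positivity)] at h
  push_cast at h
  rw [pow_add] at h
  exact lt_of_mul_lt_mul_left h (by positivity)

/-- decomposition of a function of the mesh index as a sum over cells -/
lemma sum_cell (N L : ℕ) (f : ℕ → ℝ) (x : ℝ) :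
    ∑ a ∈ range (2 ^ (N + L)), ci (cell N a) x * f a = ci (Ib L) x * f (idx N x) := by
  by_cases hx : x ∈ Ib L
  · rw [ci_of_mem hx, one_mul, Finset.sum_eq_single (idx N x)]
    · rw [ci_of_mem (mem_cell.mpr ⟨hx.1, rfl⟩), one_mul]
    · intro a _ ha
      rw [ci_of_not_mem, zero_mul]
      intro hc
      exact ha (mem_cell.mp hc).2.symm
    · intro hc
      exact absurd (Finset.mem_range.mpr (idx_lt hx)) hc
  · rw [ci_of_not_mem hx, zero_mul]
    apply Finset.sum_eq_zero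
    intro a ha
    rw [ci_of_not_mem, zero_mul]
    intro hc
    have h1 := mem_cell.mp hc
    exact hx (mem_Ib_of_idx h1.1 (by rw [h1.2]; exact Finset.mem_range.mp ha))

lemma measurableSet_cell (N a : ℕ) : MeasurableSet (cell N a) := measurableSet_Ico

lemma integrable_ci_Ico (a b : ℝ) : Integrable (ci (Set.Ico a b)) := by
  have : ci (Set.Ico a b) = (Set.Ico a b).indicator (fun _ => (1 : ℝ)) := rfl
  rw [this, integrable_indicator_iff measurableSet_Ico]
  exact integrableOn_const (by simp)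

lemma integral_ci_Ico {a b : ℝ} (h : a ≤ b) : ∫ x, ci (Set.Ico a b) x = b - a := by
  have : ci (Set.Ico a b) = (Set.Ico a b).indicator (fun _ => (1 : ℝ)) := rfl
  rw [this, integral_indicator measurableSet_Ico]
  simp [h]

lemma integrable_ci_cell (N a : ℕ) : Integrable (ci (cell N a)) := integrable_ci_Ico _ _

lemma integrable_ci_Ib (L : ℕ) : Integrable (ci (Ib L)) := integrable_ci_Ico _ _

lemma integral_ci_cell (N a : ℕ) : ∫ x, ci (cell N a) x = 1 / 2 ^ N := by
  have h : (a : ℝ) / 2 ^ N ≤ ((a : ℝ) + 1) / 2 ^ N := by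
    apply div_le_div_of_nonneg_right _ (by positivity)
    linarith
  rw [cell, integral_ci_Ico h]
  field_simp
  ring

lemma integral_ci_Ib (L : ℕ) : ∫ x, ci (Ib L) x = 2 ^ L := by
  rw [Ib, integral_ci_Ico (by positivity)]
  ring

/-- integral over the plane of a step function -/
lemma int2 (N L : ℕ) (T : ℕ → ℕ → ℝ) :
    ∫ p : ℝ × ℝ, ci (Ib L) p.1 * ci (Ib L) p.2 * T (idx N p.1) (idx N p.2) =
      (1 / 2 ^ N) ^ 2 * ∑ a0 ∈ range (2 ^ (N + L)), ∑ a1 ∈ range (2 ^ (N + L)), T a0 a1 := by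
  set R := range (2 ^ (N + L)) with hR
  have hpt : ∀ p : ℝ × ℝ, ci (Ib L) p.1 * ci (Ib L) p.2 * T (idx N p.1) (idx N p.2) =
      ∑ a ∈ R ×ˢ R, T a.1 a.2 * (ci (cell N a.1) p.1 * ci (cell N a.2) p.2) := by
    intro p
    rw [Finset.sum_product]
    have h1 : ∀ a0, ∑ a1 ∈ R, T a0 a1 * (ci (cell N a0) p.1 * ci (cell N a1) p.2) =
        ci (cell N a0) p.1 * (ci (Ib L) p.2 * T a0 (idx N p.2)) := by
      intro a0
      rw [← sum_cell N L (fun a1 => T a0 a1) p.2, Finset.mul_sum]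
      apply Finset.sum_congr rfl; intro a1 _
      ring
    simp only [h1]
    have h2 := sum_cell N L (fun a0 => ci (Ib L) p.2 * T a0 (idx N p.2)) p.1

    rw [h2]
    ring
  simp only [hpt]
  rw [integral_finsetSum]
  · simp only [integral_const_mul]
    have h3 : ∀ a : ℕ × ℕ, ∫ p : ℝ × ℝ, ci (cell N a.1) p.1 * ci (cell N a.2) p.2 = (1 / 2 ^ N) ^ 2 := by
      intro a
      have := integral_prod_mul (μ := volume) (ν := volume) (ci (cell N a.1)) (ci (cell N a.2))
      rw [integral_ci_cell, integral_ci_cell] at this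
      rw [sq, ← this]
      rfl
    simp only [h3]
    rw [Finset.sum_product, Finset.mul_sum]
    apply Finset.sum_congr rfl; intro a0 _
    rw [Finset.mul_sum]
    apply Finset.sum_congr rfl; intro a1 _
    ring
  · intro a _
    apply Integrable.const_mul
    exact (integrable_ci_cell N a.1).mul_prod (integrable_ci_cell N a.2)

/-- integral over space of a step function -/
lemma int3 (N L : ℕ) (T : ℕ → ℕ → ℕ → ℝ) :
    ∫ x : ℝ × ℝ × ℝ, ci (Ib L) x.1 * (ci (Ib L) x.2.1 * ci (Ib L) x.2.2) * T (idx N x.1) (idx N x.2.1) (idx N x.2.2) =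
      (1 / 2 ^ N) ^ 3 * ∑ a0 ∈ range (2 ^ (N + L)), ∑ a1 ∈ range (2 ^ (N + L)), ∑ a2 ∈ range (2 ^ (N + L)), T a0 a1 a2 := by
  set R := range (2 ^ (N + L)) with hR
  have hpt : ∀ x : ℝ × ℝ × ℝ, ci (Ib L) x.1 * (ci (Ib L) x.2.1 * ci (Ib L) x.2.2) * T (idx N x.1) (idx N x.2.1) (idx N x.2.2) =
      ∑ a ∈ R ×ˢ (R ×ˢ R), T a.1 a.2.1 a.2.2 * (ci (cell N a.1) x.1 * (ci (cell N a.2.1) x.2.1 * ci (cell N a.2.2) x.2.2)) := by
    intro x
    rw [Finset.sum_product]
    have h1 : ∀ a0, ∑ b ∈ R ×ˢ R, T a0 b.1 b.2 * (ci (cell N a0) x.1 * (ci (cell N b.1) x.2.1 * ci (cell N b.2) x.2.2)) =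
        ci (cell N a0) x.1 * (ci (Ib L) x.2.1 * (ci (Ib L) x.2.2 * T a0 (idx N x.2.1) (idx N x.2.2))) := by
      intro a0
      rw [Finset.sum_product]
      have h2 : ∀ a1, ∑ a2 ∈ R, T a0 a1 a2 * (ci (cell N a0) x.1 * (ci (cell N a1) x.2.1 * ci (cell N a2) x.2.2)) =
          ci (cell N a0) x.1 * (ci (cell N a1) x.2.1 * (ci (Ib L) x.2.2 * T a0 a1 (idx N x.2.2))) := by
        intro a1
        rw [← sum_cell N L (fun a2 => T a0 a1 a2) x.2.2, Finset.mul_sum, Finset.mul_sum]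
        apply Finset.sum_congr rfl; intro a2 _
        ring
      simp only [h2]
      have h3 := sum_cell N L (fun a1 => ci (Ib L) x.2.2 * T a0 a1 (idx N x.2.2)) x.2.1

      rw [← Finset.mul_sum, h3]
    simp only [h1]
    have h4 := sum_cell N L (fun a0 => ci (Ib L) x.2.1 * (ci (Ib L) x.2.2 * T a0 (idx N x.2.1) (idx N x.2.2))) x.1

    rw [h4]
    ring
  simp only [hpt]
  rw [integral_finsetSum]
  · simp only [integral_const_mul]
    have h3 : ∀ a : ℕ × ℕ × ℕ, ∫ x : ℝ × ℝ × ℝ, ci (cell N a.1) x.1 * (ci (cell N a.2.1) x.2.1 * ci (cell N a.2.2) x.2.2) = (1 / 2 ^ N) ^ 3 := by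
      intro a
      have h4 := integral_prod_mul (μ := volume) (ν := volume) (ci (cell N a.2.1)) (ci (cell N a.2.2))
      have h5 := integral_prod_mul (μ := volume) (ν := volume.prod volume) (ci (cell N a.1))
        (fun z : ℝ × ℝ => ci (cell N a.2.1) z.1 * ci (cell N a.2.2) z.2)
      rw [h4, integral_ci_cell, integral_ci_cell, integral_ci_cell] at h5
      rw [pow_succ, pow_succ, pow_one, mul_assoc, ← h5]
      rfl
    simp only [h3]
    rw [Finset.sum_product, Finset.mul_sum]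
    apply Finset.sum_congr rfl; intro a0 _
    rw [Finset.sum_product, Finset.mul_sum]
    apply Finset.sum_congr rfl; intro a1 _
    rw [Finset.mul_sum]
    apply Finset.sum_congr rfl; intro a2 _
    ring
  · intro a _
    apply Integrable.const_mul
    exact (integrable_ci_cell N a.1).mul_prod ((integrable_ci_cell N a.2.1).mul_prod (integrable_ci_cell N a.2.2))

end Vale.Agent.Lib.P075
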