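import Vale.Agent.Lib.P075.Node

/-!
The master induction along the tree of even children.
-/

open Matrix Finset BigOperators

set_option linter.unusedSectionVars false
set_option linter.unusedSimpArgs false

namespace Vale.Agent.Lib.P075

/-- the index sets of the levels -/
def Idx : ℕ → Type
  | 0 => Unit
  | k + 1 => Bool × Idx k

/-- finiteness of the index sets -/
instance idxFintype : (k : ℕ) → Fintype (Idx k)
  | 0 => inferInstanceAs (Fintype Unit)
  | k + 1 => by
    letI := idxFintype k
    exact inferInstanceAs (Fintype (Bool × Idx k))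

/-- decidable equality of the index sets -/
instance idxDec : (k : ℕ) → DecidableEq (Idx k)
  | 0 => inferInstanceAs (DecidableEq Unit)
  | k + 1 => by
    letI := idxDec k
    exact inferInstanceAs (DecidableEq (Bool × Idx k))

variable {n : Type*} [Fintype n] [DecidableEq n]

/-- node condition of the pruned form -/
def goodNode (A B D : Matrix n n ℝ) : Prop := hs A ≤ 1 / 4 ∧ hs B ≤ 1 / 4 ∧ hs D ≤ 1 / 4

open Classical in
/-- the pruned form -/
noncomputable def PLam (eps : ℕ → ℝ) : (k : ℕ) → (A B D : Matrix (Idx k) (Idx k) ℝ) → ℝ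
  | 0, _, _, _ => 0
  | k + 1, A, B, D =>
    if goodNode (n := Bool × Idx k) A B D then
      eps k * Tri (n := Idx k) A B D + (1 / 4 : ℝ) * ∑ j : Bool, ∑ l : Bool,
        PLam eps k (blk (n := Idx k) A (xor j l) j) (blk (n := Idx k) B j l)
          (blk (n := Idx k) D (xor j l) l)
    else 0

lemma opb_of_hs {X : Matrix n n ℝ} {c : ℝ} (h : hs X ≤ c) : OpB X c := by
  intro y
  have h1 : nsq (X *ᵥ y) ≤ hs X * nsq y := by
    rw [nsq_eq_sum, nsq_eq_sum, hs, Finset.sum_mul]
    apply Finset.sum_le_sum
    intro a _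
    have := Finset.sum_mul_sq_le_sq_mul_sq Finset.univ (X a) y
    simpa [Matrix.mulVec, dotProduct] using this
  exact h1.trans (mul_le_mul_of_nonneg_right h (nsq_nonneg y))

lemma hs_blk_le (X : Matrix (Bool × n) (Bool × n) ℝ) (i j : Bool) : hs (blk X i j) ≤ 4 * hs X := by
  rw [hs_eq_blk X]
  have h00 := hs_nonneg (blk X false false)
  have h01 := hs_nonneg (blk X false true)
  have h10 := hs_nonneg (blk X true false)
  have h11 := hs_nonneg (blk X true true)
  cases i <;> cases j <;> linarith

lemma hs_even_children (A : Matrix (Bool × n) (Bool × n) ℝ) :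
    (1 / 4 : ℝ) * ∑ j, ∑ l, hs (blk A (xor j l) j) = hs A := by
  rw [hs_eq_blk A]
  simp only [Fintype.sum_bool, Bool.xor_true, Bool.xor_false, Bool.not_true, Bool.not_false]
  ring

/-- **Master inequality.** -/
theorem master {L J : ℕ} (hJ : J ≤ L) {η : ℝ} (hη : 0 < η) {β : ℕ → ℝ} (hβ : ∀ t, 0 < β t)
    {eps : ℕ → ℝ} (heps : ∀ k, |eps k| ≤ 1) (k : ℕ) :
    ∀ (A B D : Matrix (Idx k) (Idx k) ℝ) (st st' : ℕ → PS (Idx k)),
      (∀ t ≤ J, PostOK L t B (st t)) → (∀ t ≤ J, PostOK L t D (st' t)) →
      OpB A 1 → OpB Aᵀ 1 →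
      |PLam eps k A B D| ≤ (∑ i ∈ range k, |eps i|) * ((η / 2) * hs A) + Phi L J η β A B D st st' := by
  induction k with
  | zero =>
    intro A B D st st' hst hst' hA hAT
    have h1 := Phi_nonneg hη hβ hst hst' hA hAT
    simp [PLam, h1]
  | succ k ih =>
    intro A' B' D' st1 st1' hst hst' hA hAT
    -- view the matrices on the product
    let A : Matrix (Bool × Idx k) (Bool × Idx k) ℝ := A'
    let B : Matrix (Bool × Idx k) (Bool × Idx k) ℝ := B'
    let D : Matrix (Bool × Idx k) (Bool × Idx k) ℝ := D'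
    let st : ℕ → PS (Bool × Idx k) := st1
    let st' : ℕ → PS (Bool × Idx k) := st1'
    have hst2 : ∀ t ≤ J, PostOK (n := Bool × Idx k) L t B (st t) := hst
    have hst2' : ∀ t ≤ J, PostOK (n := Bool × Idx k) L t D (st' t) := hst'
    have hA2 : OpB (n := Bool × Idx k) A 1 := hA
    have hAT2 : OpB (n := Bool × Idx k) Aᵀ 1 := hAT
    have hgoal : Phi (n := Idx (k + 1)) L J η β A' B' D' st1 st1' = Phi (n := Bool × Idx k) L J η β A B D st st' := rfl
    have hsA : hs (n := Idx (k + 1)) A' = hs (n := Bool × Idx k) A := rfl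
    by_cases hg : goodNode (n := Bool × Idx k) A B D
    · have e : PLam eps (k + 1) A' B' D' = eps k * Tri (n := Idx k) A B D + (1 / 4 : ℝ) * ∑ j : Bool, ∑ l : Bool,
          PLam eps k (blk (n := Idx k) A (xor j l) j) (blk (n := Idx k) B j l)
            (blk (n := Idx k) D (xor j l) l) := by
        simp only [PLam]
        exact if_pos hg
      rw [e, hgoal, hsA]
      obtain ⟨hgA, hgB, hgD⟩ := hg
      have opc : ∀ (X : Matrix (Bool × Idx k) (Bool × Idx k) ℝ), hs X ≤ 1 / 4 → ∀ i j,
          OpB (blk X i j) 1 ∧ OpB (blk X i j)ᵀ 1 := by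
        intro X hX i j
        have h1 : hs (blk X i j) ≤ 1 := by
          have := hs_blk_le X i j
          linarith
        refine ⟨opb_of_hs h1, opb_of_hs ?_⟩
        rwa [hs_transpose]
      obtain ⟨stc, stc', hc, hc', Etot, hE0, hE1, hE2⟩ := node_step (A := A) hJ hη hβ hst2 hst2'
        (fun j l => (opc B hgB j l).1) (fun j l => (opc B hgB j l).2)
        (fun j l => (opc D hgD j l).1) (fun j l => (opc D hgD j l).2)
      have hch : ∀ j l, |PLam eps k (blk (n := Idx k) A (xor j l) j) (blk (n := Idx k) B j l)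
            (blk (n := Idx k) D (xor j l) l)|
          ≤ (∑ i ∈ range k, |eps i|) * ((η / 2) * hs (blk (n := Idx k) A (xor j l) j))
            + Phi L J η β (blk (n := Idx k) A (xor j l) j) (blk (n := Idx k) B j l)
                (blk (n := Idx k) D (xor j l) l) (stc j l) (stc' (xor j l) l) := fun j l =>
        ih _ _ _ _ _ (fun t ht => hc j l t ht) (fun t ht => hc' (xor j l) l t ht)
          (opc A hgA (xor j l) j).1 (opc A hgA (xor j l) j).2
      set Em := ∑ i ∈ range k, |eps i| with hEm
      have hEm0 : 0 ≤ Em := Finset.sum_nonneg fun i _ => abs_nonneg _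
      have hs1 := hs_even_children A
      set Pc : Bool → Bool → ℝ := fun j l => PLam eps k (blk (n := Idx k) A (xor j l) j)
        (blk (n := Idx k) B j l) (blk (n := Idx k) D (xor j l) l) with hPc
      set Ph : Bool → Bool → ℝ := fun j l => Phi L J η β (blk (n := Idx k) A (xor j l) j)
        (blk (n := Idx k) B j l) (blk (n := Idx k) D (xor j l) l) (stc j l) (stc' (xor j l) l) with hPh
      set Hc : Bool → Bool → ℝ := fun j l => hs (blk (n := Idx k) A (xor j l) j) with hHc
      have hch2 : ∀ j l, |Pc j l| ≤ Em * ((η / 2) * Hc j l) + Ph j l := hch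
      have hsum : |(1 / 4 : ℝ) * ∑ j, ∑ l, Pc j l| ≤ Em * ((η / 2) * hs A) + (1 / 4 : ℝ) * ∑ j, ∑ l, Ph j l := by
        have h2 : Em * ((η / 2) * hs A) = (1 / 4 : ℝ) * ∑ j, ∑ l, (Em * ((η / 2) * Hc j l)) := by
          rw [← hs1]
          simp only [Fintype.sum_bool, hHc]
          ring
        rw [h2, ← mul_add, abs_mul, abs_of_pos (by norm_num : (0 : ℝ) < 1 / 4)]
        apply mul_le_mul_of_nonneg_left _ (by norm_num)
        simp only [← Finset.sum_add_distrib]
        refine (Finset.abs_sum_le_sum_abs _ _).trans (Finset.sum_le_sum fun j _ => ?_)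
        refine (Finset.abs_sum_le_sum_abs _ _).trans (Finset.sum_le_sum fun l _ => hch2 j l)
      have hterm : |eps k * Tri (n := Idx k) A B D| ≤ |eps k| * ((η / 2) * hs A) + Etot := by
        rw [abs_mul]
        have h3 := mul_le_mul_of_nonneg_left hE1 (abs_nonneg (eps k))
        have h4 := mul_le_mul_of_nonneg_right (heps k) hE0
        rw [mul_add] at h3
        linarith
      have h5 := abs_add_le (eps k * Tri (n := Idx k) A B D) ((1 / 4 : ℝ) * ∑ j, ∑ l, Pc j l)
      rw [Finset.sum_range_succ]
      have h6 : (Em + |eps k|) * ((η / 2) * hs A) = Em * ((η / 2) * hs A) + |eps k| * ((η / 2) * hs A) := by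
        ring
      rw [h6]
      linarith
    · have e : PLam eps (k + 1) A' B' D' = 0 := by
        simp only [PLam]
        exact if_neg hg
      rw [e, abs_zero]
      apply add_nonneg
      · apply mul_nonneg (Finset.sum_nonneg fun i _ => abs_nonneg _)
        exact mul_nonneg (by positivity) (hs_nonneg _)
      · exact Phi_nonneg hη hβ hst hst' hA hAT

end Vale.Agent.Lib.P075
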