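import Vale.Agent.Lib.P075.Step

/-!
The node inequality: chaining the processes.
-/

open Matrix Finset BigOperators

set_option linter.unusedSectionVars false
set_option linter.unusedSimpArgs false

namespace Vale.Agent.Lib.P075

variable {n : Type*} [Fintype n] [DecidableEq n]

/-- a pair value with an explicit dominating matrix -/
noncomputable def WP (L t : ℕ) (β θ ρ : ℝ) (A B a f S T g : Matrix n n ℝ) : ℝ :=
  (1 / (2 * β)) * PPv L t A B a f S + (β / 2) * RRv θ ρ T f g

lemma OpB.mono {X : Matrix n n ℝ} {c c' : ℝ} (h : OpB X c) (hc : c ≤ c') : OpB X c' := fun y =>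
  (h y).trans (mul_le_mul_of_nonneg_right hc (nsq_nonneg y))

/-- the full statement for one pair -/
theorem pair_full {L t : ℕ} {β θ ρ : ℝ} (hβ : 0 < β)
    {A B a f S g0 : Matrix (Bool × n) (Bool × n) ℝ}
    (hS : Coer S (th4 L)) (hT9 : ∀ y, qinv S (a *ᵥ y) ≤ 9 * nsq y)
    {ac fc Sc Pc mc gc mg : Bool → Bool → Matrix n n ℝ}
    (hrel : ∀ j l, StepRel L t (blk B j l) (blk a j l) (blk f j l) (blk S j j)
      (ac j l) (fc j l) (Sc j l) (Pc j l) (mc j l))
    (hθρ : ∀ j l, θ * trace (Pc j l) ≤ ρ * hs (mc j l))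
    (hg : ∀ j l, blk g0 (xor j l) l = gc j l + mg j l)
    (hgm : ∀ j l, (gc j l)ᵀ * mg j l = 0)
    (hgop : ∀ j l, OpB (gc j l) θ) :
    let E := (1 / (2 * β)) * ES A S + (β / 2) * ES g0 (Tm a S)
    0 ≤ E ∧ |Tri A a g0| ≤ E ∧
      E + (1 / 4 : ℝ) * ∑ j, ∑ l, WP L t β θ ρ (blk A (xor j l) j) (blk B j l) (ac j l) (fc j l)
        (Sc j l) (Tm (ac j l) (Sc j l)) (gc j l)
      ≤ WP L t β θ ρ A B a f S (Tm a S) g0 := by
  intro E
  have he : 0 < th4 L := th4_pos L
  have hSp : Psd S := Psd.of_coer hS he.le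
  have hTp := Tm_psd hS he a
  have hβ2 : 0 < 2 * β := by linarith
  have hc1 : 0 < 1 / (2 * β) := by positivity
  have hc2 : 0 < β / 2 := by positivity
  refine ⟨?_, ?_, ?_⟩
  · exact add_nonneg (mul_nonneg hc1.le (ES_nonneg hSp A)) (mul_nonneg hc2.le (ES_nonneg hTp g0))
  · exact Tri_le hS he A a g0 hβ
  · -- per child comparison with the pre-state
    have hT : ∀ y, qinv S (a *ᵥ y) ≤ qf (Tm a S) y := fun y => (qf_Tm a S y).ge
    have hchild : ∀ j l, WP L t β θ ρ (blk A (xor j l) j) (blk B j l) (ac j l) (fc j l)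
        (Sc j l) (Tm (ac j l) (Sc j l)) (gc j l)
        ≤ WP L t β θ ρ (blk A (xor j l) j) (blk B j l) (blk a j l) (blk f j l) (blk S j j)
          (blk (Tm a S) l l) (blk g0 (xor j l) l) := by
      intro j l
      have h1 := PPv_post_le (hrel j l) (blk A (xor j l) j)
      have hTs : (blk (Tm a S) l l)ᵀ = blk (Tm a S) l l := by
        rw [← blk_transpose, Tm_symm hS a]
      have h2 := RRv_post_le (hrel j l) hTs (fun y => qinv_blk hS he hT j l y)
        (fun y => by
          have h3 := hT9 (lift l y)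
          rw [← qf_Tm, qf_lift, nsq_lift] at h3
          linarith)
        (hθρ j l) (hgm j l) (hgop j l)
      rw [← hg j l] at h2
      simp only [WP]
      exact add_le_add (mul_le_mul_of_nonneg_left h1 hc1.le) (mul_le_mul_of_nonneg_left h2 hc2.le)
    have h1 := PPv_child L t A B a f hSp
    have h2 := RRv_child θ ρ (Tm a S) f g0
    have h3 : (1 / 4 : ℝ) * ∑ j, ∑ l, WP L t β θ ρ (blk A (xor j l) j) (blk B j l) (ac j l) (fc j l)
        (Sc j l) (Tm (ac j l) (Sc j l)) (gc j l)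
        ≤ (1 / 4 : ℝ) * ∑ j, ∑ l, WP L t β θ ρ (blk A (xor j l) j) (blk B j l) (blk a j l) (blk f j l)
          (blk S j j) (blk (Tm a S) l l) (blk g0 (xor j l) l) := by
      apply mul_le_mul_of_nonneg_left _ (by norm_num)
      exact Finset.sum_le_sum fun j _ => Finset.sum_le_sum fun l _ => hchild j l
    have h4 : (1 / 4 : ℝ) * ∑ j, ∑ l, WP L t β θ ρ (blk A (xor j l) j) (blk B j l) (blk a j l) (blk f j l)
          (blk S j j) (blk (Tm a S) l l) (blk g0 (xor j l) l)
        = (1 / (2 * β)) * ((1 / 4 : ℝ) * ∑ j, ∑ l,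
            PPv L t (blk A (xor j l) j) (blk B j l) (blk a j l) (blk f j l) (blk S j j))
          + (β / 2) * ((1 / 4 : ℝ) * ∑ j, ∑ l,
            RRv θ ρ (blk (Tm a S) l l) (blk f j l) (blk g0 (xor j l) l)) := by
      simp only [WP, Fintype.sum_bool]
      ring
    have h5 : WP L t β θ ρ A B a f S (Tm a S) g0 =
        (1 / (2 * β)) * PPv L t A B a f S + (β / 2) * RRv θ ρ (Tm a S) f g0 := rfl
    rw [h5]
    rw [h4] at h3
    have h6 := mul_le_mul_of_nonneg_left h1 hc1.le
    have h7 : (β / 2) * (ES g0 (Tm a S) + (1 / 4 : ℝ) * ∑ j, ∑ l,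
        RRv θ ρ (blk (Tm a S) l l) (blk f j l) (blk g0 (xor j l) l)) = (β / 2) * RRv θ ρ (Tm a S) f g0 := by
      rw [h2]
    simp only [E]
    rw [mul_add] at h6 h7
    linarith

/-! ### Transposition of the trilinear form and the tail -/

lemma Tri_transpose (A x g : Matrix (Bool × n) (Bool × n) ℝ) : Tri A x g = Tri Aᵀ g x := by
  simp only [Tri]
  calc trace (Jm * A * Jm * x * Jm * gᵀ) = trace ((Jm * A * Jm * x * Jm * gᵀ)ᵀ) :=
        (Matrix.trace_transpose _).symm
    _ = trace ((g * Jm * xᵀ * Jm * Aᵀ) * Jm) := by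
        simp only [Matrix.transpose_mul, Jm_transpose, Matrix.transpose_transpose, Matrix.mul_assoc]
    _ = trace (Jm * (g * Jm * xᵀ * Jm * Aᵀ)) := Matrix.trace_mul_comm _ _
    _ = trace ((Jm * g * Jm * xᵀ) * (Jm * Aᵀ)) := by simp only [Matrix.mul_assoc]
    _ = trace ((Jm * Aᵀ) * (Jm * g * Jm * xᵀ)) := Matrix.trace_mul_comm _ _
    _ = trace (Jm * Aᵀ * Jm * g * Jm * xᵀ) := by simp only [Matrix.mul_assoc]

lemma Tri_add_mid (A x y g : Matrix (Bool × n) (Bool × n) ℝ) :
    Tri A (x + y) g = Tri A x g + Tri A y g := by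
  simp only [Tri, Matrix.mul_add, Matrix.add_mul, Matrix.trace_add]

lemma Tri_add_last (A x g h : Matrix (Bool × n) (Bool × n) ℝ) :
    Tri A x (g + h) = Tri A x g + Tri A x h := by
  simp only [Tri, Matrix.transpose_add, Matrix.mul_add, Matrix.trace_add]

lemma hs_Jm_mul (X : Matrix (Bool × n) (Bool × n) ℝ) : hs (Jm * X) = hs X := by
  simp only [hs, Jm, Matrix.diagonal_mul, mul_pow]
  apply Finset.sum_congr rfl; intro a _
  apply Finset.sum_congr rfl; intro b _
  cases a.1 <;> simp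

lemma hs_mul_Jm (X : Matrix (Bool × n) (Bool × n) ℝ) : hs (X * Jm) = hs X := by
  simp only [hs, Jm, Matrix.mul_diagonal, mul_pow]
  apply Finset.sum_congr rfl; intro a _
  apply Finset.sum_congr rfl; intro b _
  cases b.1 <;> simp

/-- the tail bound -/
lemma Tri_tail (A f g : Matrix (Bool × n) (Bool × n) ℝ) {η : ℝ} (hη : 0 < η) :
    |Tri A f g| ≤ (η / 2) * hs A + (1 / (2 * η)) * hs (f * Jm * gᵀ) := by
  set c := Real.sqrt η with hc
  have hc0 : 0 < c := Real.sqrt_pos.mpr hη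
  have hc2 : c ^ 2 = η := Real.sq_sqrt hη.le
  set W := Jm * (f * Jm * gᵀ) * Jm with hW
  have e1 : Tri A f g = trace (A * W) := by
    calc Tri A f g = trace (Jm * (A * (Jm * (f * Jm * gᵀ)))) := by
          simp only [Tri, Matrix.mul_assoc]
      _ = trace ((A * (Jm * (f * Jm * gᵀ))) * Jm) := Matrix.trace_mul_comm _ _
      _ = trace (A * W) := by simp only [hW, Matrix.mul_assoc]
  have e2 : hs W = hs (f * Jm * gᵀ) := by
    rw [hW, hs_mul_Jm, hs_Jm_mul]
  have h1 := abs_trace_mul_le (c • A) (c⁻¹ • W)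
  have e3 : trace ((c • A) * (c⁻¹ • W)) = trace (A * W) := by
    rw [Matrix.smul_mul, Matrix.mul_smul, Matrix.trace_smul, Matrix.trace_smul, smul_smul,
      mul_inv_cancel₀ hc0.ne', one_smul]
  rw [e3, hs_smul, hs_smul, inv_pow, hc2, ← e1, e2] at h1
  have e4 : 1 / (2 * η) = (1 / 2) * η⁻¹ := by field_simp
  rw [e4]
  linarith

/-- telescoping -/
lemma Tri_telescope (A B D : Matrix (Bool × n) (Bool × n) ℝ)
    (a f a' f' : ℕ → Matrix (Bool × n) (Bool × n) ℝ) (J : ℕ)
    (hab : ∀ t ≤ J, a t + f t = B) (hab' : ∀ t ≤ J, a' t + f' t = D)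
    (h0 : a 0 = 0) (h0' : a' 0 = 0) :
    Tri A B D = Tri A (f J) (f' J) + ∑ t ∈ range J,
      (Tri A (a (t + 1)) (f' t) - Tri A (a t) (f' t)
        + Tri A (f (t + 1)) (a' (t + 1)) - Tri A (f (t + 1)) (a' t)) := by
  induction J with
  | zero =>
    have h1 := hab 0 le_rfl
    have h2 := hab' 0 le_rfl
    rw [h0, zero_add] at h1
    rw [h0', zero_add] at h2
    simp [h1, h2]
  | succ J ih =>
    have ih' := ih (fun t ht => hab t (by omega)) (fun t ht => hab' t (by omega))
    rw [Finset.sum_range_succ, ih']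
    have e1 := congrArg (fun X => Tri A X (f' J)) (hab J (by omega))
    have e2 := congrArg (fun X => Tri A X (f' J)) (hab (J + 1) le_rfl)
    have e3 := congrArg (fun X => Tri A (f (J + 1)) X) (hab' J (by omega))
    have e4 := congrArg (fun X => Tri A (f (J + 1)) X) (hab' (J + 1) le_rfl)
    simp only [Tri_add_mid, Tri_add_last] at e1 e2 e3 e4
    linarith

/-! ### Process data and the full potential -/

/-- the data of a process at a node -/
structure PS (n : Type*) where
  a : Matrix n n ℝ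
  f : Matrix n n ℝ
  S : Matrix n n ℝ

/-- the invariants of a process at a node -/
structure PostOK (L t : ℕ) (B : Matrix n n ℝ) (st : PS n) : Prop where
  hab : st.a + st.f = B
  hS : Coer st.S (th4 L)
  hop : OpB st.f (th4 t)
  hT : ∀ y, qinv st.S (st.a *ᵥ y) ≤ 9 * nsq y
  hz : t = 0 → st.a = 0

/-- pair value of a process state -/
noncomputable def Wst (L t : ℕ) (β θ ρ : ℝ) (A B : Matrix n n ℝ) (st : PS n) (g : Matrix n n ℝ) : ℝ :=
  WP L t β θ ρ A B st.a st.f st.S (Tm st.a st.S) g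

/-- the summand of the full potential -/
noncomputable def PhiT (L t : ℕ) (b : ℝ) (A B D : Matrix n n ℝ) (st st' : ℕ → PS n) : ℝ :=
  Wst L (t + 1) b (th4 t) 4 A B (st (t + 1)) (st' t).f
    + Wst L t b (th4 t) 1 A B (st t) (st' t).f
    + Wst L (t + 1) b (th4 (t + 1)) 1 Aᵀ D (st' (t + 1)) (st (t + 1)).f
    + Wst L t b (th4 (t + 1)) (1 / 4) Aᵀ D (st' t) (st (t + 1)).f

/-- the full potential of a node -/
noncomputable def Phi (L J : ℕ) (η : ℝ) (β : ℕ → ℝ) (A B D : Matrix n n ℝ) (st st' : ℕ → PS n) : ℝ :=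
  (1 / (2 * η)) * Psi (th4 J) (st J).f (st' J).fᵀ + ∑ t ∈ range J, PhiT L t (β t) A B D st st'

lemma Wst_nonneg {L t : ℕ} {β θ ρ : ℝ} (hβ : 0 < β) (hρ : 0 ≤ ρ) {A B : Matrix n n ℝ} {st : PS n}
    (hst : PostOK L t B st) (hA : OpB A 1) {g : Matrix n n ℝ} (hg : OpB g θ) :
    0 ≤ Wst L t β θ ρ A B st g := by
  have he := th4_pos L
  have hSp : Psd st.S := Psd.of_coer hst.hS he.le
  have h1 := PPv_nonneg L t hSp hA B st.a st.f
  have h2 := RRv_nonneg (θ := θ) hρ (Tm_psd hst.hS he st.a) hg st.f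
  exact add_nonneg (mul_nonneg (by positivity) h1) (mul_nonneg (by positivity) h2)

theorem Phi_nonneg {L J : ℕ} {η : ℝ} (hη : 0 < η) {β : ℕ → ℝ} (hβ : ∀ t, 0 < β t)
    {A B D : Matrix n n ℝ} {st st' : ℕ → PS n}
    (hst : ∀ t ≤ J, PostOK L t B (st t)) (hst' : ∀ t ≤ J, PostOK L t D (st' t))
    (hA : OpB A 1) (hAT : OpB Aᵀ 1) : 0 ≤ Phi L J η β A B D st st' := by
  apply add_nonneg
  · apply mul_nonneg (by positivity)
    have hθ := th4_pos J
    apply Psi_nonneg hθ.le
    · exact (hst J le_rfl).hop.mono (by linarith)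
    · rw [Matrix.transpose_transpose]
      exact (hst' J le_rfl).hop.mono (by linarith)
  · apply Finset.sum_nonneg
    intro t ht
    have ht' := Finset.mem_range.mp ht
    simp only [PhiT]
    have a1 := Wst_nonneg (θ := th4 t) (ρ := 4) (hβ t) (by norm_num) (hst (t + 1) (by omega)) hA
      (hst' t (by omega)).hop
    have a2 := Wst_nonneg (θ := th4 t) (ρ := 1) (hβ t) (by norm_num) (hst t (by omega)) hA
      (hst' t (by omega)).hop
    have a3 := Wst_nonneg (θ := th4 (t + 1)) (ρ := 1) (hβ t) (by norm_num) (hst' (t + 1) (by omega)) hAT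
      (hst (t + 1) (by omega)).hop
    have a4 := Wst_nonneg (θ := th4 (t + 1)) (ρ := 1 / 4) (hβ t) (by norm_num) (hst' t (by omega)) hAT
      (hst (t + 1) (by omega)).hop
    linarith

lemma quarter_sum_range (J : ℕ) (u : ℕ → Bool → Bool → ℝ) :
    (1 / 4 : ℝ) * ∑ j, ∑ l, ∑ t ∈ range J, u t j l =
      ∑ t ∈ range J, (1 / 4 : ℝ) * ∑ j, ∑ l, u t j l := by
  simp only [Fintype.sum_bool, ← Finset.sum_add_distrib, Finset.mul_sum]

lemma postOK_of_step {L t : ℕ} {B0 a0 f0 S0 a f S P m : Matrix n n ℝ}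
    (h : StepRel L t B0 a0 f0 S0 a f S P m) (hab : a0 + f0 = B0) (hz : t = 0 → a0 = 0)
    (hB : t = 0 → OpB B0 1) : PostOK L t B0 (PS.mk a f S) where
  hab := by
    show a + f = B0
    rw [← hab, h.ha, h.hf]
    abel
  hS := h.hS
  hop := h.hop
  hT := h.hT9
  hz := by
    intro ht
    have h0 := hz ht
    have h1 : OpB f0 (th4 t) := by
      rw [ht, th4_zero]
      have h2 : f0 = B0 := by rw [← hab, h0, zero_add]
      rw [h2]
      exact hB ht
    exact (h.htriv h0 h1).1

lemma xor_xor_self (j l : Bool) : xor (xor j l) l = j := by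
  cases j <;> cases l <;> rfl

/-- the tail comparison -/
lemma tail_child {L J : ℕ} {f f' : Matrix (Bool × n) (Bool × n) ℝ}
    (hf : OpB f (th4 J)) (hf' : OpB f' (th4 J))
    {B1 B2 a1 a2 S1 S2 ac ac' fc fc' Sc Sc' Pc Pc' mc mc' : Matrix n n ℝ} {j l : Bool}
    (h1 : StepRel L J B1 a1 (blk f j l) S1 ac fc Sc Pc mc)
    (h2 : StepRel L J B2 a2 (blk f' (xor j l) l) S2 ac' fc' Sc' Pc' mc') :
    Psi (th4 J) fc fc'ᵀ ≤ Psi (th4 J) (blk f j l) (blk f'ᵀ l (xor j l)) := by
  have hθ := th4_pos J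
  have e1 : blk f j l = fc + mc := h1.hf
  have e2 : blk f'ᵀ l (xor j l) = fc'ᵀ + mc'ᵀ := by
    rw [blk_transpose, h2.hf, Matrix.transpose_add]
  have hfT : OpB fᵀ (th4 J) := hf.transpose hθ.le
  have hfT' : OpB f'ᵀ (th4 J) := hf'.transpose hθ.le
  rw [e2]
  conv_rhs => rw [e1]
  apply Psi_mono hθ.le h1.horth1 h1.horth2
  · have := congrArg Matrix.transpose h2.horth1
    simpa [Matrix.transpose_mul] using this
  · simpa using h2.horth2
  · exact h1.hop
  · rw [← e1, ← blk_transpose]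
    exact opb_blk hfT l j
  · rw [← e2]
    exact opb_blk hfT' l (xor j l)
  · rw [← e2, ← blk_transpose, Matrix.transpose_transpose]
    exact opb_blk hf' (xor j l) l

lemma combine_sum (J : ℕ) (E P : ℕ → ℝ) (u : ℕ → Bool → Bool → ℝ)
    (h : ∀ t ∈ range J, E t + (1 / 4 : ℝ) * ∑ j, ∑ l, u t j l ≤ P t) :
    ∑ t ∈ range J, E t + (1 / 4 : ℝ) * ∑ j, ∑ l, ∑ t ∈ range J, u t j l ≤ ∑ t ∈ range J, P t := by
  rw [quarter_sum_range, ← Finset.sum_add_distrib]
  exact Finset.sum_le_sum h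

/-- **The node inequality.** -/
theorem node_step {L J : ℕ} (hJ : J ≤ L) {η : ℝ} (hη : 0 < η) {β : ℕ → ℝ} (hβ : ∀ t, 0 < β t)
    {A B D : Matrix (Bool × n) (Bool × n) ℝ} {st st' : ℕ → PS (Bool × n)}
    (hst : ∀ t ≤ J, PostOK L t B (st t)) (hst' : ∀ t ≤ J, PostOK L t D (st' t))
    (hB0 : ∀ j l, OpB (blk B j l) 1) (hBT : ∀ j l, OpB (blk B j l)ᵀ 1)
    (hD0 : ∀ j l, OpB (blk D j l) 1) (hDT : ∀ j l, OpB (blk D j l)ᵀ 1) :
    ∃ stc stc' : Bool → Bool → ℕ → PS n,
      (∀ j l, ∀ t ≤ J, PostOK L t (blk B j l) (stc j l t)) ∧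
      (∀ j l, ∀ t ≤ J, PostOK L t (blk D j l) (stc' j l t)) ∧
      ∃ Etot : ℝ, 0 ≤ Etot ∧ |Tri A B D| ≤ (η / 2) * hs A + Etot ∧
        Etot + (1 / 4 : ℝ) * ∑ j, ∑ l, Phi L J η β (blk A (xor j l) j) (blk B j l) (blk D (xor j l) l)
          (stc j l) (stc' (xor j l) l) ≤ Phi L J η β A B D st st' := by
  classical
  -- children by the step lemma
  have hexB : ∀ j l t, ∃ a f S P m : Matrix n n ℝ, t ≤ J →
      StepRel L t (blk B j l) (blk (st t).a j l) (blk (st t).f j l) (blk (st t).S j j) a f S P m := by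
    intro j l t
    by_cases ht : t ≤ J
    · obtain ⟨a, f, S, P, m, h⟩ := step_exists (t := t) (L := L) (by omega)
        (B := blk B j l) (a0 := blk (st t).a j l) (f0 := blk (st t).f j l) (S0 := blk (st t).S j j)
        (by rw [← blk_add, (hst t ht).hab]) (hBT j l) (coer_blk (hst t ht).hS (th4_pos L).le j)
      exact ⟨a, f, S, P, m, fun _ => h⟩
    · exact ⟨0, 0, 0, 0, 0, fun h => absurd h ht⟩
  have hexD : ∀ j l t, ∃ a f S P m : Matrix n n ℝ, t ≤ J →
      StepRel L t (blk D j l) (blk (st' t).a j l) (blk (st' t).f j l) (blk (st' t).S j j) a f S P m := by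
    intro j l t
    by_cases ht : t ≤ J
    · obtain ⟨a, f, S, P, m, h⟩ := step_exists (t := t) (L := L) (by omega)
        (B := blk D j l) (a0 := blk (st' t).a j l) (f0 := blk (st' t).f j l) (S0 := blk (st' t).S j j)
        (by rw [← blk_add, (hst' t ht).hab]) (hDT j l) (coer_blk (hst' t ht).hS (th4_pos L).le j)
      exact ⟨a, f, S, P, m, fun _ => h⟩
    · exact ⟨0, 0, 0, 0, 0, fun h => absurd h ht⟩
  choose aB fB SB PB mB hB using hexB
  choose aD fD SD PD mD hD using hexD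
  set stc : Bool → Bool → ℕ → PS n := fun j l t => PS.mk (aB j l t) (fB j l t) (SB j l t) with hstc
  set stc' : Bool → Bool → ℕ → PS n := fun j l t => PS.mk (aD j l t) (fD j l t) (SD j l t) with hstc'
  refine ⟨stc, stc', ?_, ?_, ?_⟩
  · intro j l t ht
    refine postOK_of_step (hB j l t ht) (by rw [← blk_add, (hst t ht).hab]) ?_ (fun _ => hB0 j l)
    intro h0
    subst h0
    rw [(hst 0 ht).hz rfl]
    ext; simp [blk_apply]
  · intro j l t ht
    refine postOK_of_step (hD j l t ht) (by rw [← blk_add, (hst' t ht).hab]) ?_ (fun _ => hD0 j l)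
    intro h0
    subst h0
    rw [(hst' 0 ht).hz rfl]
    ext; simp [blk_apply]
  -- the pairs
  have p1 := fun t (ht : t < J) => pair_full (L := L) (t := t + 1) (β := β t) (θ := th4 t) (ρ := 4)
    (hβ t) (A := A) (B := B) (a := (st (t + 1)).a) (f := (st (t + 1)).f) (S := (st (t + 1)).S)
    (g0 := (st' t).f) (hst (t + 1) (by omega)).hS (hst (t + 1) (by omega)).hT
    (ac := fun j l => aB j l (t + 1)) (fc := fun j l => fB j l (t + 1)) (Sc := fun j l => SB j l (t + 1))
    (Pc := fun j l => PB j l (t + 1)) (mc := fun j l => mB j l (t + 1))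
    (gc := fun j l => fD (xor j l) l t) (mg := fun j l => mD (xor j l) l t)
    (fun j l => hB j l (t + 1) (by omega))
    (fun j l => by
      have := (hB j l (t + 1) (by omega)).htr
      rw [th4_succ t]
      linarith)
    (fun j l => (hD (xor j l) l t (by omega)).hf)
    (fun j l => (hD (xor j l) l t (by omega)).horth1)
    (fun j l => (hD (xor j l) l t (by omega)).hop)
  have p2 := fun t (ht : t < J) => pair_full (L := L) (t := t) (β := β t) (θ := th4 t) (ρ := 1)
    (hβ t) (A := A) (B := B) (a := (st t).a) (f := (st t).f) (S := (st t).S)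
    (g0 := (st' t).f) (hst t (by omega)).hS (hst t (by omega)).hT
    (ac := fun j l => aB j l t) (fc := fun j l => fB j l t) (Sc := fun j l => SB j l t)
    (Pc := fun j l => PB j l t) (mc := fun j l => mB j l t)
    (gc := fun j l => fD (xor j l) l t) (mg := fun j l => mD (xor j l) l t)
    (fun j l => hB j l t (by omega))
    (fun j l => by
      have := (hB j l t (by omega)).htr
      linarith)
    (fun j l => (hD (xor j l) l t (by omega)).hf)
    (fun j l => (hD (xor j l) l t (by omega)).horth1)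
    (fun j l => (hD (xor j l) l t (by omega)).hop)
  have p3 := fun t (ht : t < J) => pair_full (L := L) (t := t + 1) (β := β t) (θ := th4 (t + 1)) (ρ := 1)
    (hβ t) (A := Aᵀ) (B := D) (a := (st' (t + 1)).a) (f := (st' (t + 1)).f) (S := (st' (t + 1)).S)
    (g0 := (st (t + 1)).f) (hst' (t + 1) (by omega)).hS (hst' (t + 1) (by omega)).hT
    (ac := fun j l => aD j l (t + 1)) (fc := fun j l => fD j l (t + 1)) (Sc := fun j l => SD j l (t + 1))
    (Pc := fun j l => PD j l (t + 1)) (mc := fun j l => mD j l (t + 1))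
    (gc := fun j l => fB (xor j l) l (t + 1)) (mg := fun j l => mB (xor j l) l (t + 1))
    (fun j l => hD j l (t + 1) (by omega))
    (fun j l => by
      have := (hD j l (t + 1) (by omega)).htr
      linarith)
    (fun j l => (hB (xor j l) l (t + 1) (by omega)).hf)
    (fun j l => (hB (xor j l) l (t + 1) (by omega)).horth1)
    (fun j l => (hB (xor j l) l (t + 1) (by omega)).hop)
  have p4 := fun t (ht : t < J) => pair_full (L := L) (t := t) (β := β t) (θ := th4 (t + 1)) (ρ := 1 / 4)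
    (hβ t) (A := Aᵀ) (B := D) (a := (st' t).a) (f := (st' t).f) (S := (st' t).S)
    (g0 := (st (t + 1)).f) (hst' t (by omega)).hS (hst' t (by omega)).hT
    (ac := fun j l => aD j l t) (fc := fun j l => fD j l t) (Sc := fun j l => SD j l t)
    (Pc := fun j l => PD j l t) (mc := fun j l => mD j l t)
    (gc := fun j l => fB (xor j l) l (t + 1)) (mg := fun j l => mB (xor j l) l (t + 1))
    (fun j l => hD j l t (by omega))
    (fun j l => by
      have := (hD j l t (by omega)).htr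
      rw [th4_succ t] at this
      linarith)
    (fun j l => (hB (xor j l) l (t + 1) (by omega)).hf)
    (fun j l => (hB (xor j l) l (t + 1) (by omega)).horth1)
    (fun j l => (hB (xor j l) l (t + 1) (by omega)).hop)
  -- the twisted energies
  set E1 : ℕ → ℝ := fun t => (1 / (2 * β t)) * ES A (st (t + 1)).S
    + (β t / 2) * ES (st' t).f (Tm (st (t + 1)).a (st (t + 1)).S) with hE1
  set E2 : ℕ → ℝ := fun t => (1 / (2 * β t)) * ES A (st t).S
    + (β t / 2) * ES (st' t).f (Tm (st t).a (st t).S) with hE2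
  set E3 : ℕ → ℝ := fun t => (1 / (2 * β t)) * ES Aᵀ (st' (t + 1)).S
    + (β t / 2) * ES (st (t + 1)).f (Tm (st' (t + 1)).a (st' (t + 1)).S) with hE3
  set E4 : ℕ → ℝ := fun t => (1 / (2 * β t)) * ES Aᵀ (st' t).S
    + (β t / 2) * ES (st (t + 1)).f (Tm (st' t).a (st' t).S) with hE4
  refine ⟨(1 / (2 * η)) * hs ((st J).f * Jm * (st' J).fᵀ)
    + ∑ t ∈ range J, (E1 t + E2 t + E3 t + E4 t), ?_, ?_, ?_⟩
  · apply add_nonneg (mul_nonneg (by positivity) (hs_nonneg _))
    apply Finset.sum_nonneg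
    intro t ht
    have ht' := Finset.mem_range.mp ht
    have a1 := (p1 t ht').1
    have a2 := (p2 t ht').1
    have a3 := (p3 t ht').1
    have a4 := (p4 t ht').1
    simp only [hE1, hE2, hE3, hE4]
    linarith
  · have htel := Tri_telescope A B D (fun t => (st t).a) (fun t => (st t).f) (fun t => (st' t).a)
      (fun t => (st' t).f) J (fun t ht => (hst t ht).hab) (fun t ht => (hst' t ht).hab)
      ((hst 0 (Nat.zero_le _)).hz rfl) ((hst' 0 (Nat.zero_le _)).hz rfl)
    rw [htel]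
    have htail := Tri_tail A (st J).f (st' J).f hη
    have hsum : |∑ t ∈ range J, (Tri A (st (t + 1)).a (st' t).f - Tri A (st t).a (st' t).f
        + Tri A (st (t + 1)).f (st' (t + 1)).a - Tri A (st (t + 1)).f (st' t).a)|
        ≤ ∑ t ∈ range J, (E1 t + E2 t + E3 t + E4 t) := by
      refine (Finset.abs_sum_le_sum_abs _ _).trans (Finset.sum_le_sum ?_)
      intro t ht
      have ht' := Finset.mem_range.mp ht
      have a1 := (p1 t ht').2.1
      have a2 := (p2 t ht').2.1
      have a3 := (p3 t ht').2.1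
      have a4 := (p4 t ht').2.1
      rw [Tri_transpose A (st (t + 1)).f (st' (t + 1)).a, Tri_transpose A (st (t + 1)).f (st' t).a]
      simp only [hE1, hE2, hE3, hE4]
      rw [abs_le] at a1 a2 a3 a4 ⊢
      constructor <;> linarith [a1.1, a1.2, a2.1, a2.2, a3.1, a3.2, a4.1, a4.2]
    have h3 := abs_add_le (Tri A (st J).f (st' J).f) (∑ t ∈ range J, (Tri A (st (t + 1)).a (st' t).f
        - Tri A (st t).a (st' t).f + Tri A (st (t + 1)).f (st' (t + 1)).a - Tri A (st (t + 1)).f (st' t).a))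
    linarith
  · -- main inequality
    have htail1 := Psi_step (th4 J) (st J).f (st' J).fᵀ
    have htail2 : ∀ j l, Psi (th4 J) (fB j l J) (fD (xor j l) l J)ᵀ
        ≤ Psi (th4 J) (blk (st J).f j l) (blk (st' J).fᵀ l (xor j l)) := fun j l =>
      tail_child (hst J le_rfl).hop (hst' J le_rfl).hop (hB j l J le_rfl) (hD (xor j l) l J le_rfl)
    have htail3 : (1 / 4 : ℝ) * ∑ j, ∑ l, Psi (th4 J) (fB j l J) (fD (xor j l) l J)ᵀ
        ≤ (1 / 4 : ℝ) * ∑ j, ∑ l, Psi (th4 J) (blk (st J).f j l) (blk (st' J).fᵀ l (xor j l)) := by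
      apply mul_le_mul_of_nonneg_left _ (by norm_num)
      exact Finset.sum_le_sum fun j _ => Finset.sum_le_sum fun l _ => htail2 j l
    have hcomb := combine_sum J (fun t => E1 t + E2 t + E3 t + E4 t)
      (fun t => PhiT L t (β t) A B D st st')
      (fun t j l => PhiT L t (β t) (blk A (xor j l) j) (blk B j l) (blk D (xor j l) l)
        (stc j l) (stc' (xor j l) l)) ?_
    · simp only [Phi]
      have e : ∀ j l, (1 / (2 * η)) * Psi (th4 J) (stc j l J).f (stc' (xor j l) l J).fᵀ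
          + ∑ t ∈ range J, PhiT L t (β t) (blk A (xor j l) j) (blk B j l) (blk D (xor j l) l)
              (stc j l) (stc' (xor j l) l)
          = (1 / (2 * η)) * Psi (th4 J) (fB j l J) (fD (xor j l) l J)ᵀ
            + ∑ t ∈ range J, PhiT L t (β t) (blk A (xor j l) j) (blk B j l) (blk D (xor j l) l)
              (stc j l) (stc' (xor j l) l) := fun j l => rfl
      simp only [e]
      have hc : 0 < 1 / (2 * η) := by positivity
      have h5 := mul_le_mul_of_nonneg_left htail3 hc.le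
      have h6 := mul_le_mul_of_nonneg_left htail1 hc.le
      simp only [Fintype.sum_bool] at hcomb h5 h6 ⊢
      nlinarith
    · intro t ht
      have ht' := Finset.mem_range.mp ht
      have a1 := (p1 t ht').2.2
      have a2 := (p2 t ht').2.2
      have a3 := (p3 t ht').2.2
      have a4 := (p4 t ht').2.2
      have a1' : E1 t + (1 / 4 : ℝ) * ∑ j, ∑ l, Wst L (t + 1) (β t) (th4 t) 4 (blk A (xor j l) j) (blk B j l)
          (stc j l (t + 1)) (stc' (xor j l) l t).f ≤ Wst L (t + 1) (β t) (th4 t) 4 A B (st (t + 1)) (st' t).f := a1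
      have a2' : E2 t + (1 / 4 : ℝ) * ∑ j, ∑ l, Wst L t (β t) (th4 t) 1 (blk A (xor j l) j) (blk B j l)
          (stc j l t) (stc' (xor j l) l t).f ≤ Wst L t (β t) (th4 t) 1 A B (st t) (st' t).f := a2
      have a3' : E3 t + (1 / 4 : ℝ) * ∑ j, ∑ l, Wst L (t + 1) (β t) (th4 (t + 1)) 1 (blk Aᵀ (xor j l) j)
          (blk D j l) (stc' j l (t + 1)) (stc (xor j l) l (t + 1)).f
          ≤ Wst L (t + 1) (β t) (th4 (t + 1)) 1 Aᵀ D (st' (t + 1)) (st (t + 1)).f := a3
      have a4' : E4 t + (1 / 4 : ℝ) * ∑ j, ∑ l, Wst L t (β t) (th4 (t + 1)) (1 / 4) (blk Aᵀ (xor j l) j)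
          (blk D j l) (stc' j l t) (stc (xor j l) l (t + 1)).f
          ≤ Wst L t (β t) (th4 (t + 1)) (1 / 4) Aᵀ D (st' t) (st (t + 1)).f := a4
      have r3 : ∑ j, ∑ l, Wst L (t + 1) (β t) (th4 (t + 1)) 1 (blk A (xor j l) j)ᵀ (blk D (xor j l) l)
          (stc' (xor j l) l (t + 1)) (stc j l (t + 1)).f
          = ∑ j, ∑ l, Wst L (t + 1) (β t) (th4 (t + 1)) 1 (blk Aᵀ (xor j l) j)
          (blk D j l) (stc' j l (t + 1)) (stc (xor j l) l (t + 1)).f := by
        rw [← sum_xor_reindex (fun j l => Wst L (t + 1) (β t) (th4 (t + 1)) 1 (blk Aᵀ (xor j l) j)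
          (blk D j l) (stc' j l (t + 1)) (stc (xor j l) l (t + 1)).f)]
        simp only [xor_xor_self, blk_transpose]
      have r4 : ∑ j, ∑ l, Wst L t (β t) (th4 (t + 1)) (1 / 4) (blk A (xor j l) j)ᵀ (blk D (xor j l) l)
          (stc' (xor j l) l t) (stc j l (t + 1)).f
          = ∑ j, ∑ l, Wst L t (β t) (th4 (t + 1)) (1 / 4) (blk Aᵀ (xor j l) j)
          (blk D j l) (stc' j l t) (stc (xor j l) l (t + 1)).f := by
        rw [← sum_xor_reindex (fun j l => Wst L t (β t) (th4 (t + 1)) (1 / 4) (blk Aᵀ (xor j l) j)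
          (blk D j l) (stc' j l t) (stc (xor j l) l (t + 1)).f)]
        simp only [xor_xor_self, blk_transpose]
      simp only [PhiT, Finset.sum_add_distrib, mul_add]
      rw [r3, r4]
      linarith

end Vale.Agent.Lib.P075
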