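import Vale.Agent.Lib.P075.Star

/-!
Quadratic forms, coercive matrices and the inverse quadratic form.
-/

open Matrix Finset BigOperators

set_option linter.unusedSectionVars false
set_option linter.unusedSimpArgs false

namespace Vale.Agent.Lib.P075

variable {n : Type*} [Fintype n] [DecidableEq n]

/-- quadratic form of a matrix -/
def qf (S : Matrix n n ℝ) (x : n → ℝ) : ℝ := x ⬝ᵥ S *ᵥ x

/-- squared Euclidean norm -/
def nsq (x : n → ℝ) : ℝ := x ⬝ᵥ x

lemma nsq_nonneg (x : n → ℝ) : 0 ≤ nsq x := by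
  simp only [nsq, dotProduct]
  exact Finset.sum_nonneg fun i _ => mul_self_nonneg _

lemma nsq_eq_sum (x : n → ℝ) : nsq x = ∑ i, x i ^ 2 := by
  simp only [nsq, dotProduct, pow_two]

lemma nsq_smul (c : ℝ) (x : n → ℝ) : nsq (c • x) = c ^ 2 * nsq x := by
  simp only [nsq_eq_sum, Pi.smul_apply, smul_eq_mul, mul_pow, ← Finset.mul_sum]

lemma nsq_add_le (x y : n → ℝ) : nsq (x + y) ≤ 2 * nsq x + 2 * nsq y := by
  simp only [nsq_eq_sum, Pi.add_apply, Finset.mul_sum, ← Finset.sum_add_distrib]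
  exact Finset.sum_le_sum fun i _ => by nlinarith [sq_nonneg (x i - y i)]

lemma nsq_add3_le (x y z : n → ℝ) : nsq (x + y + z) ≤ 3 * nsq x + 3 * nsq y + 3 * nsq z := by
  simp only [nsq_eq_sum, Pi.add_apply, Finset.mul_sum, ← Finset.sum_add_distrib]
  exact Finset.sum_le_sum fun i _ => by
    nlinarith [sq_nonneg (x i - y i), sq_nonneg (y i - z i), sq_nonneg (x i - z i)]

/-- Cauchy-Schwarz in dot product form -/
lemma dot_sq_le (x y : n → ℝ) : (x ⬝ᵥ y) ^ 2 ≤ nsq x * nsq y := by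
  simp only [nsq_eq_sum, dotProduct]
  exact Finset.sum_mul_sq_le_sq_mul_sq _ _ _

lemma two_dot_le (x y : n → ℝ) : 2 * (x ⬝ᵥ y) ≤ nsq x + nsq y := by
  simp only [nsq_eq_sum, dotProduct, Finset.mul_sum, ← Finset.sum_add_distrib]
  exact Finset.sum_le_sum fun i _ => by nlinarith [sq_nonneg (x i - y i)]

/-- symmetric positive semidefinite -/
structure Psd (S : Matrix n n ℝ) : Prop where
  symm : Sᵀ = S
  nonneg : ∀ x, 0 ≤ qf S x

/-- symmetric and bounded below by `e` -/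
structure Coer (S : Matrix n n ℝ) (e : ℝ) : Prop where
  symm : Sᵀ = S
  lower : ∀ x, e * nsq x ≤ qf S x

lemma qf_add (S T : Matrix n n ℝ) (x : n → ℝ) : qf (S + T) x = qf S x + qf T x := by
  simp [qf, Matrix.add_mulVec, dotProduct_add]

lemma qf_sub (S T : Matrix n n ℝ) (x : n → ℝ) : qf (S - T) x = qf S x - qf T x := by
  simp [qf, Matrix.sub_mulVec, dotProduct_sub]

lemma qf_smul (c : ℝ) (S : Matrix n n ℝ) (x : n → ℝ) : qf (c • S) x = c * qf S x := by
  simp [qf, Matrix.smul_mulVec, dotProduct_smul]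

lemma qf_one (x : n → ℝ) : qf (1 : Matrix n n ℝ) x = nsq x := by
  simp [qf, nsq]

lemma dot_mulVec_symm {S : Matrix n n ℝ} (hS : Sᵀ = S) (x y : n → ℝ) :
    x ⬝ᵥ S *ᵥ y = y ⬝ᵥ S *ᵥ x := by
  rw [Matrix.dotProduct_mulVec, ← Matrix.mulVec_transpose, hS, dotProduct_comm]

/-- transposition under the dot product -/
lemma dot_mulVec_transpose (X : Matrix n n ℝ) (x y : n → ℝ) :
    x ⬝ᵥ X *ᵥ y = (Xᵀ *ᵥ x) ⬝ᵥ y := by
  rw [Matrix.dotProduct_mulVec, Matrix.mulVec_transpose]

/-- expansion of the quadratic form of a sum -/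
lemma qf_vadd {S : Matrix n n ℝ} (hS : Sᵀ = S) (x y : n → ℝ) :
    qf S (x + y) = qf S x + 2 * (x ⬝ᵥ S *ᵥ y) + qf S y := by
  simp only [qf, Matrix.mulVec_add, dotProduct_add, add_dotProduct]
  rw [dot_mulVec_symm hS y x]
  ring

lemma qf_vsmul (S : Matrix n n ℝ) (c : ℝ) (x : n → ℝ) : qf S (c • x) = c ^ 2 * qf S x := by
  simp only [qf, Matrix.mulVec_smul, dotProduct_smul, smul_dotProduct, smul_eq_mul]
  ring

namespace Coer

variable {D : Matrix n n ℝ} {e : ℝ}

lemma isUnit (hD : Coer D e) (he : 0 < e) : IsUnit D := by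
  rw [← Matrix.mulVec_injective_iff_isUnit]
  intro x y hxy
  have h0 : D *ᵥ (x - y) = 0 := by rw [Matrix.mulVec_sub, sub_eq_zero]; exact hxy
  have h1 := hD.lower (x - y)
  have h2 : qf D (x - y) = 0 := by simp [qf, h0]
  rw [h2] at h1
  have h3 : nsq (x - y) ≤ 0 := by
    by_contra hcon
    rw [not_le] at hcon
    have := mul_pos he hcon
    linarith
  have h4 : nsq (x - y) = 0 := le_antisymm h3 (nsq_nonneg _)
  rw [nsq_eq_sum, Finset.sum_eq_zero_iff_of_nonneg (fun _ _ => sq_nonneg _)] at h4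
  funext i
  have := h4 i (Finset.mem_univ i)
  have h5 : (x - y) i = 0 := by simpa using this
  simpa [sub_eq_zero] using h5

lemma isUnit_det (hD : Coer D e) (he : 0 < e) : IsUnit D.det :=
  (Matrix.isUnit_iff_isUnit_det D).mp (hD.isUnit he)

lemma mul_inv_mulVec (hD : Coer D e) (he : 0 < e) (y : n → ℝ) : D *ᵥ (D⁻¹ *ᵥ y) = y := by
  rw [Matrix.mulVec_mulVec, Matrix.mul_nonsing_inv _ (hD.isUnit_det he), Matrix.one_mulVec]

lemma inv_mul_mulVec (hD : Coer D e) (he : 0 < e) (y : n → ℝ) : D⁻¹ *ᵥ (D *ᵥ y) = y := by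
  rw [Matrix.mulVec_mulVec, Matrix.nonsing_inv_mul _ (hD.isUnit_det he), Matrix.one_mulVec]

lemma inv_symm (hD : Coer D e) : (D⁻¹)ᵀ = D⁻¹ := by
  rw [Matrix.transpose_nonsing_inv, hD.symm]

end Coer

/-- inverse quadratic form -/
noncomputable def qinv (D : Matrix n n ℝ) (y : n → ℝ) : ℝ := y ⬝ᵥ D⁻¹ *ᵥ y

section qinv

variable {D : Matrix n n ℝ} {e : ℝ}

lemma qinv_eq_qf (hD : Coer D e) (he : 0 < e) (y : n → ℝ) : qinv D y = qf D (D⁻¹ *ᵥ y) := by
  simp only [qinv, qf]
  rw [hD.mul_inv_mulVec he, dotProduct_comm]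

/-- variational lower bound -/
lemma qinv_var (hD : Coer D e) (he : 0 < e) (x y : n → ℝ) :
    2 * (x ⬝ᵥ y) - qf D x ≤ qinv D y := by
  set u := D⁻¹ *ᵥ y with hu
  have hDu : D *ᵥ u = y := hD.mul_inv_mulVec he y
  have hq : qinv D y = qf D u := qinv_eq_qf hD he y
  have h0 : 0 ≤ qf D (x - u) := by
    have := hD.lower (x - u)
    have h1 := mul_nonneg he.le (nsq_nonneg (x - u))
    linarith
  have h1 : qf D (x - u) = qf D x - 2 * (x ⬝ᵥ y) + qf D u := by
    have h2 : x - u = x + (-1 : ℝ) • u := by simp [sub_eq_add_neg]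
    rw [h2, qf_vadd hD.symm, qf_vsmul, Matrix.mulVec_smul, hDu]
    simp only [dotProduct_smul, smul_eq_mul]
    ring
  rw [hq]
  linarith

lemma qinv_nonneg (hD : Coer D e) (he : 0 < e) (y : n → ℝ) : 0 ≤ qinv D y := by
  rw [qinv_eq_qf hD he]
  have := hD.lower (D⁻¹ *ᵥ y)
  have h1 := mul_nonneg he.le (nsq_nonneg (D⁻¹ *ᵥ y))
  linarith

lemma qinv_vsmul (D : Matrix n n ℝ) (c : ℝ) (y : n → ℝ) : qinv D (c • y) = c ^ 2 * qinv D y := by
  simp only [qinv, Matrix.mulVec_smul, dotProduct_smul, smul_dotProduct, smul_eq_mul]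
  ring

/-- monotonicity in the matrix -/
lemma qinv_anti {D' : Matrix n n ℝ} {e' : ℝ} (hD : Coer D e) (he : 0 < e) (hD' : Coer D' e')
    (he' : 0 < e') (hle : ∀ x, qf D x ≤ qf D' x) (y : n → ℝ) : qinv D' y ≤ qinv D y := by
  set u := D'⁻¹ *ᵥ y with hu
  have hDu : D' *ᵥ u = y := hD'.mul_inv_mulVec he' y
  have h1 : qinv D' y = 2 * (u ⬝ᵥ y) - qf D' u := by
    have h2 : qinv D' y = qf D' u := qinv_eq_qf hD' he' y
    have h3 : qf D' u = u ⬝ᵥ y := by simp only [qf]; rw [hDu]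
    linarith
  have h2 := qinv_var hD he u y
  have h3 := hle u
  linarith

/-- upper bound by the lower bound constant -/
lemma qinv_le (hD : Coer D e) (he : 0 < e) (y : n → ℝ) : qinv D y ≤ nsq y / e := by
  rw [le_div_iff₀ he]
  set u := D⁻¹ *ᵥ y with hu
  have hq : qinv D y = qf D u := qinv_eq_qf hD he y
  have hq2 : qf D u = u ⬝ᵥ y := by
    simp only [qf]; rw [hD.mul_inv_mulVec he]
  have h1 := hD.lower u
  have h2 := two_dot_le (e • u) y
  have h3 : (e • u) ⬝ᵥ y = e * (u ⬝ᵥ y) := by simp [smul_dotProduct]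
  have h4 : nsq (e • u) = e ^ 2 * nsq u := nsq_smul _ _
  rw [hq]
  have h5 : e * (e * nsq u) ≤ e * (u ⬝ᵥ y) := by
    apply mul_le_mul_of_nonneg_left _ he.le
    linarith
  nlinarith

end qinv

/-- column of a matrix -/
def colm (Z : Matrix n n ℝ) (z : n) : n → ℝ := fun a => Z a z

lemma colm_eq_mulVec (Z : Matrix n n ℝ) (z : n) : colm Z z = Z *ᵥ Pi.single z 1 := by
  funext a
  simp [colm, Matrix.mulVec_single]

lemma hs_eq_sum_col (Z : Matrix n n ℝ) : hs Z = ∑ z, nsq (colm Z z) := by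
  simp only [hs, nsq_eq_sum, colm]
  exact Finset.sum_comm

lemma hs_eq_sum_row (Z : Matrix n n ℝ) : hs Z = ∑ z, nsq (colm Zᵀ z) := by
  rw [← hs_transpose, hs_eq_sum_col]

lemma mul_colm (X Z : Matrix n n ℝ) (z : n) : colm (X * Z) z = X *ᵥ colm Z z := by
  funext a
  simp [colm, Matrix.mul_apply, Matrix.mulVec, dotProduct]

/-- trace of a conjugate as a sum over columns -/
lemma trace_conj_eq_sum (T Y : Matrix n n ℝ) : trace (Yᵀ * T * Y) = ∑ z, qf T (colm Y z) := by
  simp only [Matrix.trace, Matrix.diag_apply, qf]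
  apply Finset.sum_congr rfl
  intro z _
  rw [Matrix.mul_assoc, Matrix.mul_apply]
  simp only [dotProduct, Matrix.transpose_apply, colm]
  apply Finset.sum_congr rfl
  intro a _
  congr 1

/-- variant with the conjugating matrix on the other side -/
lemma trace_conj_eq_sum' (S X : Matrix n n ℝ) : trace (X * S * Xᵀ) = ∑ z, qf S (colm Xᵀ z) := by
  have := trace_conj_eq_sum S Xᵀ
  rwa [Matrix.transpose_transpose] at this

/-- trace as a sum of diagonal quadratic forms -/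
lemma trace_eq_sum_qf (T : Matrix n n ℝ) : trace T = ∑ z, qf T (Pi.single z 1) := by
  simp only [Matrix.trace, Matrix.diag_apply, qf]
  apply Finset.sum_congr rfl
  intro z _
  simp [Matrix.mulVec_single]

/-- operator bound -/
def OpB (X : Matrix n n ℝ) (c : ℝ) : Prop := ∀ y, nsq (X *ᵥ y) ≤ c * nsq y

/-- an operator bound passes to the transpose -/
lemma OpB.transpose {X : Matrix n n ℝ} {c : ℝ} (h : OpB X c) (hc : 0 ≤ c) : OpB Xᵀ c := by
  intro x
  set w := Xᵀ *ᵥ x with hw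
  have h1 : nsq w = x ⬝ᵥ (X *ᵥ w) := by
    rw [dot_mulVec_transpose]; rfl
  have h2 := dot_sq_le x (X *ᵥ w)
  have h3 := h w
  rw [← h1] at h2
  have hx := nsq_nonneg x
  have hww := nsq_nonneg w
  by_cases h0 : nsq w = 0
  · rw [h0]; exact mul_nonneg hc hx
  have hpos : 0 < nsq w := lt_of_le_of_ne hww (Ne.symm h0)
  have h4 : nsq w ^ 2 ≤ nsq w * (c * nsq x) := by
    calc nsq w ^ 2 ≤ nsq x * nsq (X *ᵥ w) := h2
      _ ≤ nsq x * (c * nsq w) := mul_le_mul_of_nonneg_left h3 hx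
      _ = nsq w * (c * nsq x) := by ring
  have : nsq w * nsq w ≤ nsq w * (c * nsq x) := by nlinarith
  exact le_of_mul_le_mul_left this hpos

lemma hs_mul_le_of_opb {X Y : Matrix n n ℝ} {c : ℝ} (h : OpB X c) : hs (X * Y) ≤ c * hs Y := by
  rw [hs_eq_sum_col, hs_eq_sum_col, Finset.mul_sum]
  apply Finset.sum_le_sum
  intro z _
  rw [mul_colm]
  exact h _

lemma hs_mul_le_of_opb' {X Y : Matrix n n ℝ} {c : ℝ} (h : OpB Yᵀ c) : hs (X * Y) ≤ c * hs X := by
  have := hs_mul_le_of_opb (Y := Xᵀ) h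
  rwa [← Matrix.transpose_mul, hs_transpose, hs_transpose] at this

/-- diagonal entries of a conjugate -/
lemma conj_diag (T Y : Matrix n n ℝ) (z : n) : (Yᵀ * T * Y) z z = qf T (colm Y z) := by
  simp only [qf]
  rw [Matrix.mul_assoc, Matrix.mul_apply]
  simp only [dotProduct, Matrix.transpose_apply, colm]
  apply Finset.sum_congr rfl
  intro a _
  congr 1

/-- real spectral theorem in matrix form -/
lemma sym_eig {X : Matrix n n ℝ} (hX : Xᵀ = X) :
    ∃ (U : Matrix n n ℝ) (lam : n → ℝ), Uᵀ * U = 1 ∧ U * Uᵀ = 1 ∧ X = U * diagonal lam * Uᵀ := by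
  have hH : X.IsHermitian := by
    rw [Matrix.IsHermitian, Matrix.conjTranspose_eq_transpose_of_trivial]; exact hX
  refine ⟨(hH.eigenvectorUnitary : Matrix n n ℝ), hH.eigenvalues, ?_, ?_, ?_⟩
  · have := Unitary.coe_star_mul_self hH.eigenvectorUnitary
    rwa [Matrix.star_eq_conjTranspose, Matrix.conjTranspose_eq_transpose_of_trivial] at this
  · have := Unitary.coe_mul_star_self hH.eigenvectorUnitary
    rwa [Unitary.coe_star, Matrix.star_eq_conjTranspose,
      Matrix.conjTranspose_eq_transpose_of_trivial] at this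
  · have := hH.spectral_theorem
    rw [Unitary.conjStarAlgAut_apply, Matrix.star_eq_conjTranspose,
      Matrix.conjTranspose_eq_transpose_of_trivial] at this
    simpa using this

/-- trace of a product of two positive semidefinite matrices is nonnegative -/
lemma trace_mul_psd_nonneg {X G : Matrix n n ℝ} (hX : Psd X) (hG : ∀ x, 0 ≤ qf G x) :
    0 ≤ trace (X * G) := by
  obtain ⟨U, lam, hU1, hU2, hXU⟩ := sym_eig hX.symm
  have hlam : ∀ i, 0 ≤ lam i := by
    intro i
    have h := hX.nonneg (colm U i)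
    rw [← conj_diag, hXU] at h
    have e : Uᵀ * (U * diagonal lam * Uᵀ) * U = diagonal lam := by
      calc Uᵀ * (U * diagonal lam * Uᵀ) * U = (Uᵀ * U) * diagonal lam * (Uᵀ * U) := by
            simp only [Matrix.mul_assoc]
        _ = diagonal lam := by rw [hU1]; simp
    rw [e] at h
    simpa using h
  have e2 : trace (X * G) = ∑ i, lam i * qf G (colm U i) := by
    rw [hXU]
    have e3 : trace (U * diagonal lam * Uᵀ * G) = trace (diagonal lam * (Uᵀ * G * U)) := by
      rw [Matrix.mul_assoc, Matrix.mul_assoc, Matrix.trace_mul_comm]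
      simp only [Matrix.mul_assoc]
    rw [e3]
    simp only [Matrix.trace, Matrix.diag_apply, Matrix.diagonal_mul, conj_diag]
  rw [e2]
  exact Finset.sum_nonneg fun i _ => mul_nonneg (hlam i) (hG _)

end Vale.Agent.Lib.P075
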