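import Vale.Agent.Lib.P075.Ypot

/-!
The raising lemma.
-/

open Matrix Finset BigOperators

set_option linter.unusedSectionVars false
set_option linter.unusedSimpArgs false

namespace Vale.Agent.Lib.P075

variable {n : Type*} [Fintype n] [DecidableEq n]

/-- the raising potential -/
noncomputable def Fpot (s : Finset ℕ) (th ka : ℕ → ℝ) (Z : ℕ → Matrix n n ℝ) (S : Matrix n n ℝ) : ℝ :=
  trace S + ∑ p ∈ s, ka p * Yp (th p) S (Z p)

lemma trace_nonneg_of_psd {S : Matrix n n ℝ} (hS : Psd S) : 0 ≤ trace S := by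
  rw [trace_eq_sum_qf]
  exact Finset.sum_nonneg fun z _ => hS.nonneg _

lemma Fpot_nonneg {s : Finset ℕ} {th ka : ℕ → ℝ} (hth : ∀ p ∈ s, 0 < th p) (hka : ∀ p ∈ s, 0 < ka p)
    (Z : ℕ → Matrix n n ℝ) {S : Matrix n n ℝ} (hS : Psd S) : 0 ≤ Fpot s th ka Z S :=
  add_nonneg (trace_nonneg_of_psd hS)
    (Finset.sum_nonneg fun p hp => mul_nonneg (hka p hp).le (Yp_nonneg (hth p hp) hS _))

lemma trace_vecMulVec (w : n → ℝ) : trace (vecMulVec w w) = nsq w := by
  simp [Matrix.trace, vecMulVec_apply, nsq_eq_sum, pow_two]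

/-- one raising step -/
lemma raise_one {s : Finset ℕ} {th ka : ℕ → ℝ} (hth : ∀ p ∈ s, 0 < th p) (hka : ∀ p ∈ s, 0 < ka p)
    (Z : ℕ → Matrix n n ℝ) {S : Matrix n n ℝ} (hS : Psd S) {p : ℕ} (hp : p ∈ s) (x : n → ℝ)
    (hviol : (8 / (ka p * th p)) * nsq ((S + th p • 1) *ᵥ x) < nsq ((Z p)ᵀ *ᵥ x)) :
    ∃ S', Psd S' ∧ (∀ y, qf S y ≤ qf S' y) ∧
      Fpot s th ka Z S' ≤ Fpot s th ka Z S - 3 * th p := by
  have hθ := hth p hp
  have hk := hka p hp
  set D := S + th p • 1 with hD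
  have hDc : Coer D (th p) := hS.shift
  set w := D *ᵥ x with hw
  have hwpos : 0 < nsq w := by
    by_contra hcon
    have h0 : nsq w = 0 := le_antisymm (not_lt.mp hcon) (nsq_nonneg w)
    have hw0 : w = 0 := by
      rw [nsq_eq_sum, Finset.sum_eq_zero_iff_of_nonneg (fun _ _ => sq_nonneg _)] at h0
      funext i
      simpa using h0 i (Finset.mem_univ i)
    have hx : nsq x = 0 := by
      have h1 := hDc.lower x
      have h2 : qf D x = 0 := by simp only [qf]; rw [← hw, hw0]; simp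
      rw [h2] at h1
      have h3 : nsq x ≤ 0 := by
        by_contra h4
        have := mul_pos hθ (not_le.mp h4)
        linarith
      exact le_antisymm h3 (nsq_nonneg x)
    have hx0 : x = 0 := by
      rw [nsq_eq_sum, Finset.sum_eq_zero_iff_of_nonneg (fun _ _ => sq_nonneg _)] at hx
      funext i
      simpa using hx i (Finset.mem_univ i)
    rw [h0, hx0] at hviol
    simp [nsq] at hviol
  set ρ := th p / nsq w with hρ
  have hρ0 : 0 < ρ := div_pos hθ hwpos
  have hρ1 : ρ * (w ⬝ᵥ x) ≤ 1 := rho_bound hθ hDc x hwpos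
  have hρw : ρ * nsq w = th p := by
    rw [hρ]; field_simp
  refine ⟨S + ρ • vecMulVec w w, hS.add (psd_vecMulVec w hρ0.le), ?_, ?_⟩
  · intro y
    rw [qf_add]
    linarith [(psd_vecMulVec w hρ0.le).nonneg y]
  · simp only [Fpot]
    have htr : trace (S + ρ • vecMulVec w w) = trace S + th p := by
      rw [Matrix.trace_add, Matrix.trace_smul, trace_vecMulVec, smul_eq_mul, hρw]
    have hdrop : 4 * th p ≤ ka p * (th p * ((ρ / 2) * nsq ((Z p)ᵀ *ᵥ x))) := by
      have h1 : 0 < ka p * th p := mul_pos hk hθ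
      have h2 : 8 * nsq w ≤ ka p * th p * nsq ((Z p)ᵀ *ᵥ x) := by
        rw [div_mul_eq_mul_div, div_lt_iff₀ h1] at hviol
        linarith
      have h3 : ρ / 2 * (8 * nsq w) ≤ ρ / 2 * (ka p * th p * nsq ((Z p)ᵀ *ᵥ x)) :=
        mul_le_mul_of_nonneg_left h2 (by linarith)
      calc 4 * th p = ρ / 2 * (8 * nsq w) := by rw [← hρw]; ring
        _ ≤ ρ / 2 * (ka p * th p * nsq ((Z p)ᵀ *ᵥ x)) := h3
        _ = _ := by ring
    have hsum : ∑ q ∈ s, ka q * Yp (th q) (S + ρ • vecMulVec w w) (Z q)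
        ≤ ∑ q ∈ s, (ka q * Yp (th q) S (Z q) - if q = p then 4 * th p else 0) := by
      apply Finset.sum_le_sum
      intro q hq
      by_cases hqp : q = p
      · subst hqp
        rw [if_pos rfl]
        have h1 := Yp_raise hθ hS x hρ0.le hρ1 (Z q)
        have h2 := mul_le_mul_of_nonneg_left h1 hk.le
        rw [mul_sub] at h2
        linarith
      · rw [if_neg hqp, sub_zero]
        apply mul_le_mul_of_nonneg_left _ (hka q hq).le
        apply Yp_anti (hth q hq) hS (hS.add (psd_vecMulVec w hρ0.le))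
        intro y
        rw [qf_add]
        linarith [(psd_vecMulVec w hρ0.le).nonneg y]
    rw [Finset.sum_sub_distrib, Finset.sum_ite_eq' s p, if_pos hp] at hsum
    rw [htr]
    linarith

/-- **Raising lemma.** -/
theorem raise_exists {s : Finset ℕ} {th ka : ℕ → ℝ} (hth : ∀ p ∈ s, 0 < th p) (hka : ∀ p ∈ s, 0 < ka p)
    (Z : ℕ → Matrix n n ℝ) {S : Matrix n n ℝ} (hS : Psd S) :
    ∃ S', Psd S' ∧ (∀ y, qf S y ≤ qf S' y) ∧ Fpot s th ka Z S' ≤ Fpot s th ka Z S ∧
      ∀ p ∈ s, ∀ x, nsq ((Z p)ᵀ *ᵥ x) ≤ (8 / (ka p * th p)) * nsq ((S' + th p • 1) *ᵥ x) := by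
  obtain ⟨δ, hδ, hδp⟩ : ∃ δ : ℝ, 0 < δ ∧ ∀ p ∈ s, δ ≤ 3 * th p := by
    by_cases hs : s.Nonempty
    · obtain ⟨p0, hp0, hmin⟩ := s.exists_min_image th hs
      exact ⟨3 * th p0, by have := hth p0 hp0; linarith, fun p hp => by have := hmin p hp; linarith⟩
    · refine ⟨1, one_pos, fun p hp => absurd ⟨p, hp⟩ hs⟩
  have main : ∀ (N : ℕ) (S : Matrix n n ℝ), Psd S → Fpot s th ka Z S ≤ N * δ →
      ∃ S', Psd S' ∧ (∀ y, qf S y ≤ qf S' y) ∧ Fpot s th ka Z S' ≤ Fpot s th ka Z S ∧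
        ∀ p ∈ s, ∀ x, nsq ((Z p)ᵀ *ᵥ x) ≤ (8 / (ka p * th p)) * nsq ((S' + th p • 1) *ᵥ x) := by
    intro N
    induction N with
    | zero =>
      intro S hS hF
      refine ⟨S, hS, fun _ => le_refl _, le_refl _, ?_⟩
      intro p hp x
      by_contra hcon
      obtain ⟨S', hS', _, hF'⟩ := raise_one hth hka Z hS hp x (not_le.mp hcon)
      have h1 := Fpot_nonneg hth hka Z hS'
      have h2 := hδp p hp
      simp at hF
      linarith
    | succ N ih =>
      intro S hS hF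
      by_cases hgood : ∀ p ∈ s, ∀ x, nsq ((Z p)ᵀ *ᵥ x) ≤ (8 / (ka p * th p)) * nsq ((S + th p • 1) *ᵥ x)
      · exact ⟨S, hS, fun _ => le_refl _, le_refl _, hgood⟩
      · push Not at hgood
        obtain ⟨p, hp, x, hx⟩ := hgood
        obtain ⟨S1, hS1, hle1, hF1⟩ := raise_one hth hka Z hS hp x hx
        have h2 := hδp p hp
        have hF2 : Fpot s th ka Z S1 ≤ N * δ := by
          push_cast at hF
          linarith
        obtain ⟨S', hS', hle', hF', hgood'⟩ := ih S1 hS1 hF2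
        exact ⟨S', hS', fun y => (hle1 y).trans (hle' y), by linarith, hgood'⟩
  obtain ⟨N, hN⟩ := exists_nat_ge (Fpot s th ka Z S / δ)
  exact main N S hS (by rwa [div_le_iff₀ hδ] at hN)

end Vale.Agent.Lib.P075
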