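import Vale.Agent.Lib.P075.Windows

/-!
One step of the process on a matrix.
-/

open Matrix Finset BigOperators

set_option linter.unusedSectionVars false
set_option linter.unusedSimpArgs false

namespace Vale.Agent.Lib.P075

variable {n : Type*} [Fintype n] [DecidableEq n]

/-- the matrix tested at level `p` -/
def Zt (t : ℕ) (B a : Matrix n n ℝ) (p : ℕ) : Matrix n n ℝ := if p ≤ t then B else a

/-- the multilevel inverse-form sum -/
noncomputable def Ysum (L t : ℕ) (B a S : Matrix n n ℝ) : ℝ :=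
  ∑ p ∈ Icc 1 L, kap t p * Yp (th4 p) S (Zt t B a p)

lemma Ysum_nonneg (L t : ℕ) (B a : Matrix n n ℝ) {S : Matrix n n ℝ} (hS : Psd S) :
    0 ≤ Ysum L t B a S :=
  Finset.sum_nonneg fun p hp => mul_nonneg (kap_pos (Finset.mem_Icc.mp hp).1).le
    (Yp_nonneg (th4_pos p) hS _)

lemma trace_mul_transpose_eq (m : Matrix n n ℝ) : trace (m * mᵀ) = hs m := by
  rw [← hs_transpose, hs_eq_trace, Matrix.transpose_transpose]

lemma qf_proj {P : Matrix n n ℝ} (hPT : Pᵀ = P) (hPP : P * P = P) (y : n → ℝ) :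
    qf P y = nsq (P *ᵥ y) := by
  rw [nsq_mulVec_eq_qf, hPT, hPP]

lemma trace_proj_nonneg {P : Matrix n n ℝ} (hPT : Pᵀ = P) (hPP : P * P = P) : 0 ≤ trace P := by
  rw [trace_eq_sum_qf]
  exact Finset.sum_nonneg fun z _ => by rw [qf_proj hPT hPP]; exact nsq_nonneg _

/-- geometric sum of the increments -/
lemma sum_kap_th4 (L t : ℕ) :
    ∑ p ∈ Icc 1 L, (if t < p then kap t p * th4 p else 0) ≤ 200 * th4 t := by
  have e : (Icc 1 L).filter (fun p => t < p) = Ioc t L := by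
    ext p
    simp only [Finset.mem_filter, Finset.mem_Icc, Finset.mem_Ioc]
    omega
  rw [← Finset.sum_filter, e]
  have h1 : ∀ p ∈ Ioc t L, kap t p * th4 p = 200 * th4 t * (1 / 2 : ℝ) ^ (p - t) := by
    intro p hp
    have hp' := Finset.mem_Ioc.mp hp
    have h2 : kap t p = 200 * 2 ^ (p - t) := by
      unfold kap
      rw [if_neg (by omega)]
    have h3 : th4 p = th4 t * (1 / 4 : ℝ) ^ (p - t) := by
      simp only [th4]
      rw [← pow_add]
      congr 1
      omega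
    rw [h2, h3]
    have h4 : (1 / 4 : ℝ) ^ (p - t) = (1 / 2 : ℝ) ^ (p - t) * (1 / 2 : ℝ) ^ (p - t) := by
      rw [← mul_pow]; norm_num
    have h5 : (2 : ℝ) ^ (p - t) * (1 / 2 : ℝ) ^ (p - t) = 1 := by
      rw [← mul_pow]; norm_num
    rw [h4]
    calc 200 * 2 ^ (p - t) * (th4 t * ((1 / 2 : ℝ) ^ (p - t) * (1 / 2 : ℝ) ^ (p - t)))
        = 200 * th4 t * (1 / 2 : ℝ) ^ (p - t) * ((2 : ℝ) ^ (p - t) * (1 / 2 : ℝ) ^ (p - t)) := by ring
      _ = _ := by rw [h5, mul_one]
  rw [Finset.sum_congr rfl h1, ← Finset.mul_sum]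
  have h2 := sum_half_le t L
  have h3 : 0 ≤ 200 * th4 t := by have := th4_pos t; positivity
  calc _ ≤ 200 * th4 t * 1 := mul_le_mul_of_nonneg_left h2 h3
    _ = _ := mul_one _

/-- the relation between a pre-state and its post-state -/
structure StepRel (L t : ℕ) (B a0 f0 S0 a f S P m : Matrix n n ℝ) : Prop where
  hf : f0 = f + m
  ha : a = a0 + m
  hPT : Pᵀ = P
  hPP : P * P = P
  hmP : m * P = m
  horth1 : fᵀ * m = 0
  horth2 : f * mᵀ = 0
  hop : OpB f (th4 t)
  htr : th4 t * trace P ≤ hs m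
  hS : Coer S (th4 L)
  hle : ∀ x, qf S0 x ≤ qf S x
  hT9 : ∀ y, qinv S (a *ᵥ y) ≤ 9 * nsq y
  hTP : ∀ y, qinv S (a *ᵥ y) ≤ qinv S0 (a0 *ᵥ y) + qf P y
  hF : trace S + Ysum L t B a S ≤ trace S0 + Ysum L t B a0 S0 + 201 * hs m
  htriv : a0 = 0 → OpB f0 (th4 t) → a = 0 ∧ f = f0

/-- **The step lemma.** -/
theorem step_exists {L t : ℕ} (htL : t ≤ L) {B a0 f0 S0 : Matrix n n ℝ} (hB : a0 + f0 = B)
    (hBop : OpB Bᵀ 1) (hS0 : Coer S0 (th4 L)) :
    ∃ a f S P m : Matrix n n ℝ, StepRel L t B a0 f0 S0 a f S P m := by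
  obtain ⟨P, m, f, hF, hPT, hPP, hmP, h1, h2, hfop, htr, htriv⟩ := extraction f0 (th4_pos t)
  have hS0p : Psd S0 := Psd.of_coer hS0 (th4_pos L).le
  set a := a0 + m with ha
  have hab : a + f = B := by
    rw [← hB, hF, ha]; abel
  set S1 := S0 + m * mᵀ with hS1
  have hS1c : Coer S1 (th4 L) := hS0.mono_add (psd_mul_transpose m)
  have hS1p : Psd S1 := hS0p.add (psd_mul_transpose m)
  have hS01 : ∀ x, qf S0 x ≤ qf S1 x := by
    intro x
    rw [hS1, qf_add]
    linarith [(psd_mul_transpose m).nonneg x]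
  obtain ⟨S, hSp, hle, hFS, hgood⟩ := raise_exists (s := Icc 1 L) (th := th4) (ka := kap t)
    (fun p _ => th4_pos p) (fun p hp => kap_pos (Finset.mem_Icc.mp hp).1) (Zt t B a) hS1p
  have hSc : Coer S (th4 L) := ⟨hSp.symm, fun x => (hS1c.lower x).trans (hle x)⟩
  have hfT : OpB fᵀ (th4 t) := hfop.transpose (th4_pos t).le
  have hwin : ∀ x, nsq (aᵀ *ᵥ x) ≤ 9 * qf S x :=
    windows_bound htL hSc hab hBop hfT (fun p hp x => hgood p hp x)
  refine ⟨a, f, S, P, m, ⟨hF, ha, hPT, hPP, hmP, h1, h2, hfop, htr, hSc,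
    fun x => (hS01 x).trans (hle x), ?_, ?_, ?_, ?_⟩⟩
  · exact qinv_le_of_transpose hSc (th4_pos L) (by norm_num) hwin
  · intro y
    have h3 : qinv S (a *ᵥ y) ≤ qinv S1 (a *ᵥ y) :=
      qinv_anti hS1c (th4_pos L) hSc (th4_pos L) hle _
    have h4 : a *ᵥ y = a0 *ᵥ y + m *ᵥ y := by rw [ha, Matrix.add_mulVec]
    rw [h4] at h3 ⊢
    exact h3.trans (qinv_add_rank hS0 (th4_pos L) hPT hPP hmP _ _)
  · -- potential
    have h3 : trace S1 = trace S0 + hs m := by
      rw [hS1, Matrix.trace_add, trace_mul_transpose_eq]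
    have h4 : Fpot (Icc 1 L) th4 (kap t) (Zt t B a) S = trace S + Ysum L t B a S := rfl
    have h5 : Fpot (Icc 1 L) th4 (kap t) (Zt t B a) S1 = trace S1 + Ysum L t B a S1 := rfl
    rw [h4, h5] at hFS
    have h6 : Ysum L t B a S1 ≤ Ysum L t B a0 S0
        + ∑ p ∈ Icc 1 L, (if t < p then kap t p * th4 p else 0) * trace P := by
      simp only [Ysum]
      rw [← Finset.sum_add_distrib]
      apply Finset.sum_le_sum
      intro p hp
      have hk := kap_pos (t := t) (Finset.mem_Icc.mp hp).1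
      by_cases hpt : t < p
      · have e1 : Zt t B a p = a0 + m := by simp [Zt, not_le.mpr hpt, ha]
        have e2 : Zt t B a0 p = a0 := by simp [Zt, not_le.mpr hpt]
        rw [e1, e2, if_pos hpt]
        have := Yp_add (th4_pos p) hS0p hPT hPP hmP a0
        have h7 := mul_le_mul_of_nonneg_left this hk.le
        calc _ ≤ _ := h7
          _ = _ := by ring
      · have hp2 : p ≤ t := not_lt.mp hpt
        simp only [Zt, if_pos hp2, if_neg hpt, zero_mul, add_zero]
        exact mul_le_mul_of_nonneg_left (Yp_anti (th4_pos p) hS0p hS1p hS01 B) hk.le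
    have h7 : ∑ p ∈ Icc 1 L, (if t < p then kap t p * th4 p else 0) * trace P ≤ 200 * hs m := by
      rw [← Finset.sum_mul]
      have h8 := sum_kap_th4 L t
      have h9 := trace_proj_nonneg hPT hPP
      calc _ ≤ 200 * th4 t * trace P := mul_le_mul_of_nonneg_right h8 h9
        _ = 200 * (th4 t * trace P) := by ring
        _ ≤ _ := by linarith
    linarith
  · intro h0 hop
    have hm := htriv hop
    refine ⟨?_, ?_⟩
    · rw [ha, h0, hm]; simp
    · rw [hF, hm]; simp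

/-! ### Blocks -/

lemma mulVec_lift (a : Matrix (Bool × n) (Bool × n) ℝ) (l : Bool) (y : n → ℝ) (j : Bool) (c : n) :
    (a *ᵥ lift l y) (j, c) = (1 / 2 : ℝ) * (blk a j l *ᵥ y) c := by
  simp only [Matrix.mulVec, dotProduct, lift, Fintype.sum_prod_type, Fintype.sum_bool, blk_apply,
    Finset.mul_sum]
  cases l <;> simp <;> (apply Finset.sum_congr rfl; intro b _; ring)

lemma qf_lift (T : Matrix (Bool × n) (Bool × n) ℝ) (l : Bool) (y : n → ℝ) :
    qf T (lift l y) = (1 / 2 : ℝ) * qf (blk T l l) y := by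
  simp only [qf_eq_sum, lift, Fintype.sum_prod_type, Fintype.sum_bool, blk_apply, Finset.mul_sum]
  cases l <;> simp <;> (apply Finset.sum_congr rfl; intro b _; apply Finset.sum_congr rfl; intro c _; ring)

lemma nsq_lift (l : Bool) (y : n → ℝ) : nsq (lift l y) = nsq y := by
  simp only [nsq_eq_sum, lift, Fintype.sum_prod_type, Fintype.sum_bool]
  cases l <;> simp

lemma coer_blk {S : Matrix (Bool × n) (Bool × n) ℝ} {e : ℝ} (hS : Coer S e) (he : 0 ≤ e) (j : Bool) :
    Coer (blk S j j) e where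
  symm := by
    have := blk_transpose S j j
    rw [hS.symm] at this
    exact this.symm
  lower x := by
    have h1 := hS.lower (lift j x)
    rw [qf_lift, nsq_lift] at h1
    have h2 := mul_nonneg he (nsq_nonneg x)
    linarith

lemma psd_blk {S : Matrix (Bool × n) (Bool × n) ℝ} (hS : Psd S) (j : Bool) : Psd (blk S j j) where
  symm := by
    have := blk_transpose S j j
    rw [hS.symm] at this
    exact this.symm
  nonneg x := by
    have h1 := hS.nonneg (lift j x)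
    rw [qf_lift] at h1
    linarith

lemma opb_blk {X : Matrix (Bool × n) (Bool × n) ℝ} {c : ℝ} (hX : OpB X c) (i j : Bool) :
    OpB (blk X i j) (4 * c) := by
  intro y
  have h1 := hX (lift j y)
  rw [nsq_lift] at h1
  have h2 : nsq (blk X i j *ᵥ y) = 4 * ∑ a, ((X *ᵥ lift j y) (i, a)) ^ 2 := by
    rw [nsq_eq_sum, Finset.mul_sum]
    apply Finset.sum_congr rfl
    intro a _
    rw [mulVec_lift]
    ring
  have h3 : ∑ a, ((X *ᵥ lift j y) (i, a)) ^ 2 ≤ nsq (X *ᵥ lift j y) := by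
    rw [nsq_eq_sum, Fintype.sum_prod_type, Fintype.sum_bool]
    have p1 : 0 ≤ ∑ a, ((X *ᵥ lift j y) (true, a)) ^ 2 := Finset.sum_nonneg fun _ _ => sq_nonneg _
    have p2 : 0 ≤ ∑ a, ((X *ᵥ lift j y) (false, a)) ^ 2 := Finset.sum_nonneg fun _ _ => sq_nonneg _
    cases i <;> linarith
  rw [h2]
  nlinarith

/-- restriction of the inverse form to blocks -/
lemma qinv_blk {S a T : Matrix (Bool × n) (Bool × n) ℝ} {e : ℝ} (hS : Coer S e) (he : 0 < e)
    (hT : ∀ y, qinv S (a *ᵥ y) ≤ qf T y) (j l : Bool) (y : n → ℝ) :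
    qinv (blk S j j) (blk a j l *ᵥ y) ≤ qf (blk T l l) y := by
  have hb : Coer (blk S j j) e := coer_blk hS he.le j
  set v := blk a j l *ᵥ y with hv
  set u := (blk S j j)⁻¹ *ᵥ v with hu
  have h1 : qinv (blk S j j) v = qf (blk S j j) u := qinv_eq_qf hb he v
  have h2 : qf (blk S j j) u = u ⬝ᵥ v := by
    simp only [qf]; rw [hb.mul_inv_mulVec he]
  have h3 := qinv_var hS he (lift j u) (a *ᵥ lift l y)
  have h4 : lift j u ⬝ᵥ (a *ᵥ lift l y) = (1 / 2 : ℝ) * (u ⬝ᵥ v) := by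
    simp only [dotProduct, lift, Fintype.sum_prod_type, Fintype.sum_bool, mulVec_lift, Finset.mul_sum]
    cases j <;> simp <;> (apply Finset.sum_congr rfl; intro b _; ring)
  have h5 := hT (lift l y)
  rw [qf_lift] at h3 h5
  rw [h1]
  nlinarith

/-! ### The potentials -/

/-- the first potential -/
def sA (A S : Matrix n n ℝ) : ℝ := trace S - trace (A * S * Aᵀ)

/-- the sum of the first potential and the inverse-form terms -/
noncomputable def PPv (L t : ℕ) (A B a f S : Matrix n n ℝ) : ℝ :=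
  sA A S + Ysum L t B a S + 201 * hs f

/-- the second potential; the partner is the transpose of `g` -/
def RRv (θ ρ : ℝ) (T f g : Matrix n n ℝ) : ℝ :=
  (θ * trace T - trace (g * T * gᵀ)) + 18 * hs g + ρ * hs f

/-- the twisted energy -/
def ES (A S : Matrix (Bool × n) (Bool × n) ℝ) : ℝ := trace (A * Jm * S * Jm * Aᵀ)

lemma Jm_transpose : (Jm : Matrix (Bool × n) (Bool × n) ℝ)ᵀ = Jm := by
  simp [Jm]

lemma Jm_mul_Jm : (Jm : Matrix (Bool × n) (Bool × n) ℝ) * Jm = 1 := by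
  rw [Jm, Matrix.diagonal_mul_diagonal, ← Matrix.diagonal_one]
  congr 1
  funext p
  cases h : p.1 <;> simp [sg, h]

lemma ES_nonneg {S : Matrix (Bool × n) (Bool × n) ℝ} (hS : Psd S) (A : Matrix (Bool × n) (Bool × n) ℝ) :
    0 ≤ ES A S := by
  have e : ES A S = trace ((A * Jm) * S * (A * Jm)ᵀ) := by
    simp only [ES, Matrix.transpose_mul, Jm_transpose, Matrix.mul_assoc]
  rw [e, trace_conj_eq_sum']
  exact Finset.sum_nonneg fun z _ => hS.nonneg _

lemma sA_nonneg {A S : Matrix n n ℝ} (hS : Psd S) (hA : OpB A 1) : 0 ≤ sA A S := by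
  have h1 : 0 ≤ trace (S * (1 - Aᵀ * A)) := by
    apply trace_mul_psd_nonneg hS
    intro x
    rw [qf_sub, qf_one, ← nsq_mulVec_eq_qf]
    have := hA x
    linarith
  have h2 : trace (S * (1 - Aᵀ * A)) = sA A S := by
    simp only [sA, Matrix.mul_sub, Matrix.mul_one, Matrix.trace_sub]
    congr 1
    rw [Matrix.trace_mul_comm]
    simp only [Matrix.mul_assoc]
    rw [Matrix.trace_mul_comm]
    simp only [Matrix.mul_assoc]
  rw [← h2]
  exact h1

lemma sum_xor_reindex (g : Bool → Bool → ℝ) :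
    ∑ j, ∑ l, g (xor j l) l = ∑ j, ∑ l, g j l := by
  simp only [Fintype.sum_bool, Bool.xor_true, Bool.xor_false, Bool.not_true, Bool.not_false]
  ring

/-- `ES` plus the average of the children -/
lemma sA_child (A S : Matrix (Bool × n) (Bool × n) ℝ) :
    ES A S + (1 / 4 : ℝ) * ∑ j, ∑ l, sA (blk A (xor j l) j) (blk S j j) = sA A S := by
  have h1 := twist_identity A S
  have h2 := trace_eq_four S
  simp only [ES, sA]
  simp only [Fintype.sum_bool, Bool.xor_true, Bool.xor_false, Bool.not_true, Bool.not_false] at h1 h2 ⊢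
  linarith

lemma blk_Zt (t p : ℕ) (B a : Matrix (Bool × n) (Bool × n) ℝ) (j l : Bool) :
    blk (Zt t B a p) j l = Zt t (blk B j l) (blk a j l) p := by
  simp only [Zt]
  split_ifs <;> rfl

lemma Ysum_child (L t : ℕ) (B a : Matrix (Bool × n) (Bool × n) ℝ)
    {S : Matrix (Bool × n) (Bool × n) ℝ} (hS : Psd S) :
    (1 / 4 : ℝ) * ∑ j, ∑ l, Ysum L t (blk B j l) (blk a j l) (blk S j j) ≤ Ysum L t B a S := by
  have key : ∀ p ∈ Icc 1 L, (1 / 4 : ℝ) * ∑ j, ∑ l,
      (kap t p * Yp (th4 p) (blk S j j) (Zt t (blk B j l) (blk a j l) p))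
      ≤ kap t p * Yp (th4 p) S (Zt t B a p) := by
    intro p hp
    have hk := kap_pos (t := t) (Finset.mem_Icc.mp hp).1
    have h1 := Yp_child (th4_pos p) hS (fun j => psd_blk hS j) (Zt t B a p)
    simp only [blk_Zt] at h1
    have h2 := mul_le_mul_of_nonneg_left h1 hk.le
    simp only [Fintype.sum_bool] at h2 ⊢
    linarith
  have h : (1 / 4 : ℝ) * ∑ j, ∑ l, Ysum L t (blk B j l) (blk a j l) (blk S j j) =
      ∑ p ∈ Icc 1 L, (1 / 4 : ℝ) * ∑ j, ∑ l,
        (kap t p * Yp (th4 p) (blk S j j) (Zt t (blk B j l) (blk a j l) p)) := by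
    simp only [Ysum, Fintype.sum_bool, Finset.mul_sum, mul_add, ← Finset.sum_add_distrib]
  rw [h]
  exact Finset.sum_le_sum key

/-- the first potential along the even children -/
theorem PPv_child (L t : ℕ) (A B a f : Matrix (Bool × n) (Bool × n) ℝ)
    {S : Matrix (Bool × n) (Bool × n) ℝ} (hS : Psd S) :
    ES A S + (1 / 4 : ℝ) * ∑ j, ∑ l,
      PPv L t (blk A (xor j l) j) (blk B j l) (blk a j l) (blk f j l) (blk S j j)
      ≤ PPv L t A B a f S := by
  have h1 := sA_child A S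
  have h2 := Ysum_child L t B a hS
  have h3 := hs_eq_blk f
  simp only [PPv]
  simp only [Fintype.sum_bool] at h1 h2 ⊢
  linarith

lemma PPv_post_le {L t : ℕ} {B a0 f0 S0 a f S P m : Matrix n n ℝ}
    (h : StepRel L t B a0 f0 S0 a f S P m) (A : Matrix n n ℝ) :
    PPv L t A B a f S ≤ PPv L t A B a0 f0 S0 := by
  have h1 : trace (A * S0 * Aᵀ) ≤ trace (A * S * Aᵀ) := by
    rw [trace_conj_eq_sum', trace_conj_eq_sum']
    exact Finset.sum_le_sum fun z _ => h.hle _
  have h2 := h.hF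
  have h3 : hs f0 = hs f + hs m := by
    rw [h.hf]; exact hs_add_of_orth h.horth1
  simp only [PPv, sA]
  rw [h3]
  linarith

lemma PPv_nonneg (L t : ℕ) {A S : Matrix n n ℝ} (hS : Psd S) (hA : OpB A 1) (B a f : Matrix n n ℝ) :
    0 ≤ PPv L t A B a f S :=
  add_nonneg (add_nonneg (sA_nonneg hS hA) (Ysum_nonneg L t B a hS))
    (mul_nonneg (by norm_num) (hs_nonneg f))

/-- the dominating matrix for the inverse form -/
noncomputable def Tm (a S : Matrix n n ℝ) : Matrix n n ℝ := aᵀ * S⁻¹ * a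

lemma qf_Tm (a S : Matrix n n ℝ) (y : n → ℝ) : qf (Tm a S) y = qinv S (a *ᵥ y) := by
  simp only [qf, qinv, Tm]
  rw [← Matrix.mulVec_mulVec, ← Matrix.mulVec_mulVec, dot_mulVec_transpose, Matrix.transpose_transpose]

lemma Tm_symm {S : Matrix n n ℝ} {e : ℝ} (hS : Coer S e) (a : Matrix n n ℝ) : (Tm a S)ᵀ = Tm a S := by
  simp only [Tm, Matrix.transpose_mul, Matrix.transpose_transpose, hS.inv_symm, Matrix.mul_assoc]

lemma Tm_psd {S : Matrix n n ℝ} {e : ℝ} (hS : Coer S e) (he : 0 < e) (a : Matrix n n ℝ) :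
    Psd (Tm a S) where
  symm := Tm_symm hS a
  nonneg y := by
    rw [qf_Tm]
    exact qinv_nonneg hS he _

/-- the second potential along the even children -/
theorem RRv_child (θ ρ : ℝ) (T f g : Matrix (Bool × n) (Bool × n) ℝ) :
    ES g T + (1 / 4 : ℝ) * ∑ j, ∑ l, RRv θ ρ (blk T l l) (blk f j l) (blk g (xor j l) l)
      = RRv θ ρ T f g := by
  have h1 := twist_identity g T
  have h2 : θ * trace T = θ * _ := congrArg (fun x => θ * x) (trace_eq_four T)
  have h3 := hs_eq_blk g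
  have h4 : ρ * hs f = ρ * _ := congrArg (fun x => ρ * x) (hs_eq_blk f)
  simp only [ES, RRv]
  simp only [Fintype.sum_bool, Bool.xor_true, Bool.xor_false, Bool.not_true, Bool.not_false] at h1 h2 h3 h4 ⊢
  nlinarith

lemma trace_mul_tt (X g : Matrix n n ℝ) : trace (X * (gᵀ * g)) = trace (g * X * gᵀ) := by
  rw [← Matrix.mul_assoc, Matrix.trace_mul_comm]
  simp only [Matrix.mul_assoc]

lemma RRv_nonneg {θ ρ : ℝ} (hρ : 0 ≤ ρ) {T g : Matrix n n ℝ} (hT : Psd T)
    (hg : OpB g θ) (f : Matrix n n ℝ) : 0 ≤ RRv θ ρ T f g := by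
  have h1 : 0 ≤ trace (T * (θ • 1 - gᵀ * g)) := by
    apply trace_mul_psd_nonneg hT
    intro x
    rw [qf_sub, qf_smul, qf_one, ← nsq_mulVec_eq_qf]
    have := hg x
    linarith
  have h2 : trace (T * (θ • 1 - gᵀ * g)) = θ * trace T - trace (g * T * gᵀ) := by
    rw [Matrix.mul_sub, Matrix.trace_sub, Matrix.mul_smul, Matrix.trace_smul, Matrix.mul_one,
      smul_eq_mul, trace_mul_tt]
  rw [h2] at h1
  have h3 := hs_nonneg g
  have h4 := mul_nonneg hρ (hs_nonneg f)
  simp only [RRv]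
  linarith

/-- monotonicity of the second potential under a step -/
theorem RRv_post_le {L t : ℕ} {B a0 f0 S0 a f S P m : Matrix n n ℝ}
    (h : StepRel L t B a0 f0 S0 a f S P m) {T0 : Matrix n n ℝ} (hT0s : T0ᵀ = T0)
    (hT0 : ∀ y, qinv S0 (a0 *ᵥ y) ≤ qf T0 y) (hT18 : ∀ y, qf T0 y ≤ 18 * nsq y)
    {θ ρ : ℝ} (hρ : θ * trace P ≤ ρ * hs m)
    {g m' : Matrix n n ℝ} (hgm : gᵀ * m' = 0) (hg : OpB g θ) :
    RRv θ ρ (Tm a S) f g ≤ RRv θ ρ T0 f0 (g + m') := by
  have hTs := Tm_symm h.hS a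
  have hD : Psd (T0 + P - Tm a S) := by
    constructor
    · rw [Matrix.transpose_sub, Matrix.transpose_add, hT0s, h.hPT, hTs]
    · intro y
      rw [qf_sub, qf_add, qf_Tm]
      have h1 := h.hTP y
      have h2 := hT0 y
      linarith
  have h1 : 0 ≤ trace ((T0 + P - Tm a S) * (θ • 1 - gᵀ * g)) := by
    apply trace_mul_psd_nonneg hD
    intro x
    rw [qf_sub, qf_smul, qf_one, ← nsq_mulVec_eq_qf]
    have := hg x
    linarith
  have h2 : trace ((T0 + P - Tm a S) * (θ • 1 - gᵀ * g)) =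
      θ * (trace T0 + trace P - trace (Tm a S))
        - (trace (g * T0 * gᵀ) + trace (g * P * gᵀ) - trace (g * Tm a S * gᵀ)) := by
    rw [Matrix.mul_sub, Matrix.trace_sub, Matrix.mul_smul, Matrix.trace_smul, Matrix.mul_one,
      trace_mul_tt, smul_eq_mul, Matrix.trace_sub, Matrix.trace_add]
    congr 1
    simp only [Matrix.mul_sub, Matrix.sub_mul, Matrix.mul_add, Matrix.add_mul, Matrix.trace_sub,
      Matrix.trace_add]
  rw [h2] at h1
  have hP : Psd P := ⟨h.hPT, fun y => by rw [qf_proj h.hPT h.hPP]; exact nsq_nonneg _⟩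
  have h3 : 0 ≤ trace (g * P * gᵀ) := by
    rw [trace_conj_eq_sum']
    exact Finset.sum_nonneg fun z _ => hP.nonneg _
  have h4 : trace ((g + m') * T0 * (g + m')ᵀ) = trace (g * T0 * gᵀ) + trace (m' * T0 * m'ᵀ) := by
    have hmg : m'ᵀ * g = 0 := by
      have := congrArg Matrix.transpose hgm
      simpa [Matrix.transpose_mul] using this
    have e1 : ∀ Y : Matrix n n ℝ, trace (Y * T0 * Yᵀ) = trace (T0 * (Yᵀ * Y)) :=
      fun Y => (trace_mul_tt T0 Y).symm
    have e2 : (g + m')ᵀ * (g + m') = gᵀ * g + m'ᵀ * m' := by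
      rw [Matrix.transpose_add, Matrix.add_mul, Matrix.mul_add, Matrix.mul_add, hgm, hmg]
      simp
    rw [e1, e1, e1, e2, Matrix.mul_add, Matrix.trace_add]
  have h5 : trace (m' * T0 * m'ᵀ) ≤ 18 * hs m' := by
    rw [trace_conj_eq_sum', hs_eq_sum_row, Finset.mul_sum]
    exact Finset.sum_le_sum fun z _ => hT18 _
  have h6 : hs (g + m') = hs g + hs m' := hs_add_of_orth hgm
  have h7 : hs f0 = hs f + hs m := by
    rw [h.hf]; exact hs_add_of_orth h.horth1
  simp only [RRv]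
  rw [h4, h6, h7]
  nlinarith

/-! ### The pair inequality -/

/-- the trilinear form; the last argument is transposed -/
def Tri (A x g : Matrix (Bool × n) (Bool × n) ℝ) : ℝ := trace (Jm * A * Jm * x * Jm * gᵀ)

lemma trace_pair_le {S : Matrix n n ℝ} {e : ℝ} (hS : Coer S e) (he : 0 < e) (X a Y : Matrix n n ℝ)
    {β : ℝ} (hβ : 0 < β) :
    2 * |trace (X * a * Y)| ≤ (1 / β) * trace (X * S * Xᵀ) + β * trace (Yᵀ * Tm a S * Y) := by
  have e1 : trace (X * a * Y) = ∑ z, colm Xᵀ z ⬝ᵥ (a *ᵥ colm Y z) := by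
    simp only [Matrix.trace, Matrix.diag_apply]
    apply Finset.sum_congr rfl
    intro z _
    rw [Matrix.mul_assoc, Matrix.mul_apply]
    simp only [dotProduct, colm, Matrix.transpose_apply]
    apply Finset.sum_congr rfl
    intro c _
    congr 1
  have key : ∀ (u v : n → ℝ) (s : ℝ), s ^ 2 = 1 →
      2 * (s * (u ⬝ᵥ v)) ≤ (1 / β) * qf S u + β * qinv S v := by
    intro u v s hs
    have h1 := qinv_var hS he ((s / β) • u) v
    rw [qf_vsmul, smul_dotProduct, smul_eq_mul] at h1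
    have h2 : (s / β) ^ 2 = 1 / β ^ 2 := by rw [div_pow, hs]
    rw [h2] at h1
    have h3 := mul_le_mul_of_nonneg_left h1 hβ.le
    have e2 : β * (2 * (s / β * (u ⬝ᵥ v)) - 1 / β ^ 2 * qf S u) =
        2 * (s * (u ⬝ᵥ v)) - (1 / β) * qf S u := by
      field_simp
    rw [e2] at h3
    linarith
  rw [trace_conj_eq_sum' S X, trace_conj_eq_sum (Tm a S) Y, e1]
  simp only [qf_Tm]
  rw [Finset.mul_sum, Finset.mul_sum, ← Finset.sum_add_distrib]
  rcases abs_cases (∑ z, colm Xᵀ z ⬝ᵥ (a *ᵥ colm Y z)) with ⟨h, _⟩ | ⟨h, _⟩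
  · rw [h, Finset.mul_sum]
    apply Finset.sum_le_sum
    intro z _
    have := key (colm Xᵀ z) (a *ᵥ colm Y z) 1 (by norm_num)
    linarith
  · rw [h, ← Finset.sum_neg_distrib, Finset.mul_sum]
    apply Finset.sum_le_sum
    intro z _
    have := key (colm Xᵀ z) (a *ᵥ colm Y z) (-1) (by norm_num)
    linarith

/-- the AM-GM bound for a pair -/
theorem Tri_le {S : Matrix (Bool × n) (Bool × n) ℝ} {e : ℝ} (hS : Coer S e) (he : 0 < e)
    (A a g : Matrix (Bool × n) (Bool × n) ℝ) {β : ℝ} (hβ : 0 < β) :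
    |Tri A a g| ≤ (1 / (2 * β)) * ES A S + (β / 2) * ES g (Tm a S) := by
  have h1 := trace_pair_le hS he (Jm * A * Jm) a (Jm * gᵀ) hβ
  have e1 : trace (Jm * A * Jm * a * (Jm * gᵀ)) = Tri A a g := by
    simp only [Tri, Matrix.mul_assoc]
  have e2 : trace (Jm * A * Jm * S * (Jm * A * Jm)ᵀ) = ES A S := by
    simp only [ES, Matrix.transpose_mul, Jm_transpose]
    calc trace (Jm * A * Jm * S * (Jm * (Aᵀ * Jm)))
        = trace (Jm * ((A * Jm * S * Jm * Aᵀ) * Jm)) := by simp only [Matrix.mul_assoc]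
      _ = trace (((A * Jm * S * Jm * Aᵀ) * Jm) * Jm) := Matrix.trace_mul_comm _ _
      _ = _ := by rw [Matrix.mul_assoc _ Jm Jm, Jm_mul_Jm, Matrix.mul_one]
  have e3 : trace ((Jm * gᵀ)ᵀ * Tm a S * (Jm * gᵀ)) = ES g (Tm a S) := by
    simp only [ES, Matrix.transpose_mul, Jm_transpose, Matrix.transpose_transpose, Matrix.mul_assoc]
  rw [e1, e2, e3] at h1
  have e4 : 1 / (2 * β) = (1 / 2) * (1 / β) := by field_simp
  rw [e4]
  linarith

end Vale.Agent.Lib.P075
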