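import Vale.Agent.Lib.P075.TriBound
import Vale.Agent.Lib.P075.Step

/-!
The potential at a node: pinching, the children and the rise.
-/

open Matrix Finset BigOperators

set_option linter.unusedSectionVars false
set_option linter.unusedSimpArgs false

namespace Vale.Agent.Lib.P075

variable {n : Type*} [Fintype n] [DecidableEq n]

/-- block diagonal matrix -/
def bdiag (X : Bool → Matrix n n ℝ) : Matrix (Bool × n) (Bool × n) ℝ :=
  Matrix.of fun p q => if p.1 = q.1 then X p.1 p.2 q.2 else 0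

lemma bdiag_mul (X Y : Bool → Matrix n n ℝ) : bdiag X * bdiag Y = bdiag (fun j => X j * Y j) := by
  ext ⟨i, a⟩ ⟨j, b⟩
  cases i <;> cases j <;>
    simp [bdiag, Matrix.mul_apply, Fintype.sum_prod_type]

lemma bdiag_transpose (X : Bool → Matrix n n ℝ) : (bdiag X)ᵀ = bdiag (fun j => (X j)ᵀ) := by
  ext ⟨i, a⟩ ⟨j, b⟩
  cases i <;> cases j <;> simp [bdiag, Matrix.transpose_apply]

lemma trace_bdiag (X : Bool → Matrix n n ℝ) : trace (bdiag X) = ∑ j, trace (X j) := by
  simp [bdiag, Matrix.trace, Fintype.sum_prod_type]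

lemma qf_bdiag (X : Bool → Matrix n n ℝ) (w : Bool × n → ℝ) :
    qf (bdiag X) w = ∑ j, qf (X j) (fun a => w (j, a)) := by
  simp [bdiag, qf, dotProduct, Matrix.mulVec, Fintype.sum_prod_type, Finset.mul_sum]

lemma psd_bdiag {X : Bool → Matrix n n ℝ} (h : ∀ j, Psd (X j)) : Psd (bdiag X) where
  symm := by
    rw [bdiag_transpose]
    congr 1
    funext j
    exact (h j).symm
  nonneg w := by
    rw [qf_bdiag]
    exact Finset.sum_nonneg fun j _ => (h j).nonneg _

lemma f32_bdiag {X : Bool → Matrix n n ℝ} (h : ∀ j, Psd (X j)) :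
    f32 (bdiag X) = ∑ j, f32 (X j) := by
  have hR : Psd (bdiag fun j => msqrt (X j)) := psd_bdiag fun j => msqrt_psd (h j)
  have e : (bdiag fun j => msqrt (X j)) * (bdiag fun j => msqrt (X j)) = bdiag X := by
    rw [bdiag_mul]
    congr 1
    funext j
    exact msqrt_sq (h j)
  rw [f32_eq hR e, bdiag_mul, bdiag_mul, trace_bdiag]
  exact Finset.sum_congr rfl fun j _ => (f32_cube (h j)).symm

lemma pinch_eq (P : Matrix (Bool × n) (Bool × n) ℝ) :
    P + Jm * P * Jm = bdiag (fun j => blk P j j) := by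
  ext ⟨i, a⟩ ⟨j, b⟩
  cases i <;> cases j <;>
    simp [bdiag, Jm, Matrix.add_apply, Matrix.diagonal_mul, Matrix.mul_diagonal, blk_apply, sg] <;> ring

lemma psd_jconj {P : Matrix (Bool × n) (Bool × n) ℝ} (hP : Psd P) : Psd (Jm * P * Jm) := by
  have := psd_conj (V := Jm) hP
  rwa [Jm_transpose] at this

lemma f32_jconj {P : Matrix (Bool × n) (Bool × n) ℝ} (hP : Psd P) : f32 (Jm * P * Jm) = f32 P := by
  have := f32_conj (V := Jm) hP (by rw [Jm_transpose, Jm_mul_Jm])
  rwa [Jm_transpose] at this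

/-- the defect against the twist controls the average of the children -/
lemma rise_generic {X Y : Matrix (Bool × n) (Bool × n) ℝ} (hX : Psd X) (hY : Psd Y)
    {C : Bool → Bool → Matrix n n ℝ} (hC : ∀ j l, Psd (C j l))
    (hb : ∀ j, blk (X + Y) j j = (1 / 2 : ℝ) • (C j false + C j true)) :
    (1 / 2 : ℝ) * Dl X (Jm * Y * Jm) ≤ (1 / 4 : ℝ) * ∑ j, ∑ l, f32 (C j l) - f32 (X + Y) := by
  have hP := hX.add hY
  have hJX := psd_jconj hX
  have hJY := psd_jconj hY
  have h1 : Dl X (Jm * Y * Jm) ≤ Dl (X + Y) (Jm * Y * Jm + Jm * X * Jm) := Dl_mono hX hY hJY hJX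
  have e1 : Jm * Y * Jm + Jm * X * Jm = Jm * (X + Y) * Jm := by
    rw [Matrix.mul_add, Matrix.add_mul, add_comm]
  rw [e1] at h1
  have h2 : Dl (X + Y) (Jm * (X + Y) * Jm) = ∑ j, f32 (blk (X + Y) j j) - 2 * f32 (X + Y) := by
    simp only [Dl]
    rw [pinch_eq, f32_bdiag (fun j => psd_blk hP j), f32_jconj hP]
    ring
  have h3 : ∀ j, f32 (blk (X + Y) j j) ≤ (1 / 2 : ℝ) * ∑ l, f32 (C j l) := by
    intro j
    rw [hb j, Fintype.sum_bool, add_comm (f32 (C j true))]
    exact f32_mid (hC j false) (hC j true)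
  have h4 : ∑ j, f32 (blk (X + Y) j j) ≤ (1 / 2 : ℝ) * ∑ j, ∑ l, f32 (C j l) := by
    rw [Finset.mul_sum]
    exact Finset.sum_le_sum fun j _ => h3 j
  rw [h2] at h1
  linarith

/-- the potential of a node -/
noncomputable def Vp (A B D : Matrix n n ℝ) : ℝ :=
  f32 (Aᵀ * A + B * Bᵀ) + f32 (Bᵀ * B + Dᵀ * D) + f32 (A * Aᵀ + D * Dᵀ)

lemma Vp_nonneg (A B D : Matrix n n ℝ) : 0 ≤ Vp A B D := by
  have h1 := f32_nonneg ((psd_transpose_mul A).add (psd_mul_transpose B))
  have h2 := f32_nonneg ((psd_transpose_mul B).add (psd_transpose_mul D))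
  have h3 := f32_nonneg ((psd_mul_transpose A).add (psd_mul_transpose D))
  simp only [Vp]
  linarith

/-- **The rise of the potential at a node.** -/
theorem Vp_rise (A B D : Matrix (Bool × n) (Bool × n) ℝ) :
    (3 / 4 : ℝ) * |Tri A B D| ≤
      (1 / 4 : ℝ) * ∑ j, ∑ l, Vp (blk A (xor j l) j) (blk B j l) (blk D (xor j l) l) - Vp A B D := by
  have hJ := Jm_mul_Jm (n := n)
  have hJt := Jm_transpose (n := n)
  -- the triple product
  have e0 : Tri A B D = trace (A * (Jm * B) * (Jm * Dᵀ * Jm)) := by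
    simp only [Tri]
    calc trace (Jm * A * Jm * B * Jm * Dᵀ) = trace (Jm * (A * (Jm * B) * (Jm * Dᵀ))) := by
          simp only [Matrix.mul_assoc]
      _ = trace ((A * (Jm * B) * (Jm * Dᵀ)) * Jm) := Matrix.trace_mul_comm _ _
      _ = _ := by simp only [Matrix.mul_assoc]
  have h0 := trace_tri_le A (Jm * B) (Jm * Dᵀ * Jm)
  rw [← e0] at h0
  have e1 : (Jm * B) * (Jm * B)ᵀ = Jm * (B * Bᵀ) * Jm := by
    simp only [Matrix.transpose_mul, hJt, Matrix.mul_assoc]
  have e2 : (Jm * B)ᵀ * (Jm * B) = Bᵀ * B := by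
    calc (Jm * B)ᵀ * (Jm * B) = Bᵀ * (Jm * Jm) * B := by
          simp only [Matrix.transpose_mul, hJt, Matrix.mul_assoc]
      _ = _ := by rw [hJ, Matrix.mul_one]
  have e3 : (Jm * Dᵀ * Jm) * (Jm * Dᵀ * Jm)ᵀ = Jm * (Dᵀ * D) * Jm := by
    calc (Jm * Dᵀ * Jm) * (Jm * Dᵀ * Jm)ᵀ = Jm * Dᵀ * (Jm * Jm) * D * Jm := by
          simp only [Matrix.transpose_mul, hJt, Matrix.transpose_transpose, Matrix.mul_assoc]
      _ = _ := by rw [hJ, Matrix.mul_one]; simp only [Matrix.mul_assoc]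
  have e4 : (Jm * Dᵀ * Jm)ᵀ * (Jm * Dᵀ * Jm) = Jm * (D * Dᵀ) * Jm := by
    calc (Jm * Dᵀ * Jm)ᵀ * (Jm * Dᵀ * Jm) = Jm * D * (Jm * Jm) * Dᵀ * Jm := by
          simp only [Matrix.transpose_mul, hJt, Matrix.transpose_transpose, Matrix.mul_assoc]
      _ = _ := by rw [hJ, Matrix.mul_one]; simp only [Matrix.mul_assoc]
  rw [e1, e2, e3, e4, Dl_comm (Jm * (D * Dᵀ) * Jm)] at h0
  -- the three pairs
  have r1 := rise_generic (X := Aᵀ * A) (Y := B * Bᵀ) (psd_transpose_mul A) (psd_mul_transpose B)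
    (C := fun j l => (blk A (xor j l) j)ᵀ * blk A (xor j l) j + blk B j l * (blk B j l)ᵀ)
    (fun j l => (psd_transpose_mul _).add (psd_mul_transpose _))
    (by
      intro j
      rw [blk_add, blk_mul, blk_mul]
      simp only [blk_transpose]
      cases j <;> simp [smul_add] <;> abel)
  have r2 := rise_generic (X := Bᵀ * B) (Y := Dᵀ * D) (psd_transpose_mul B) (psd_transpose_mul D)
    (C := fun l j => (blk B j l)ᵀ * blk B j l + (blk D (xor j l) l)ᵀ * blk D (xor j l) l)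
    (fun j l => (psd_transpose_mul _).add (psd_transpose_mul _))
    (by
      intro j
      rw [blk_add, blk_mul, blk_mul]
      simp only [blk_transpose]
      cases j <;> simp [smul_add] <;> abel)
  have r3 := rise_generic (X := A * Aᵀ) (Y := D * Dᵀ) (psd_mul_transpose A) (psd_mul_transpose D)
    (C := fun i j => blk A i j * (blk A i j)ᵀ + blk D i (xor i j) * (blk D i (xor i j))ᵀ)
    (fun j l => (psd_mul_transpose _).add (psd_mul_transpose _))
    (by
      intro j
      rw [blk_add, blk_mul, blk_mul]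
      simp only [blk_transpose]
      cases j <;> simp [smul_add] <;> abel)
  have hsum : ∑ j, ∑ l, Vp (blk A (xor j l) j) (blk B j l) (blk D (xor j l) l) =
      ∑ j, ∑ l, f32 ((blk A (xor j l) j)ᵀ * blk A (xor j l) j + blk B j l * (blk B j l)ᵀ)
      + ∑ l, ∑ j, f32 ((blk B j l)ᵀ * blk B j l + (blk D (xor j l) l)ᵀ * blk D (xor j l) l)
      + ∑ i, ∑ j, f32 (blk A i j * (blk A i j)ᵀ + blk D i (xor i j) * (blk D i (xor i j))ᵀ) := by
    simp only [Vp, Fintype.sum_bool, Bool.xor_true, Bool.xor_false, Bool.not_true, Bool.not_false]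
    ring
  rw [hsum]
  simp only [Vp]
  linarith

end Vale.Agent.Lib.P075
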