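import Vale.Agent.Lib.P075.Master

/-!
The root of the tree and the final bound for the pruned form.
-/

open Matrix Finset BigOperators

set_option linter.unusedSectionVars false
set_option linter.unusedSimpArgs false

namespace Vale.Agent.Lib.P075

variable {n : Type*} [Fintype n] [DecidableEq n]

lemma coer_smul_one {e : ℝ} : Coer ((e • 1 : Matrix n n ℝ)) e where
  symm := by simp
  lower x := by rw [qf_smul, qf_one]

lemma sA_root_le (A : Matrix n n ℝ) {e : ℝ} (he : 0 ≤ e) (hc : e * Fintype.card n ≤ 1) :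
    sA A (e • 1) ≤ 1 := by
  have h1 : 0 ≤ trace (A * (e • 1) * Aᵀ) := by
    rw [trace_conj_eq_sum']
    exact Finset.sum_nonneg fun z _ => (Psd.of_coer coer_smul_one he).nonneg _
  have h2 : trace (e • (1 : Matrix n n ℝ)) = e * Fintype.card n := by
    simp [Matrix.trace_smul]
  simp only [sA]
  linarith

lemma Ysum_root_le {L t : ℕ} (htL : t ≤ L) {B : Matrix n n ℝ} (hB : hs B ≤ 1) {e : ℝ} (he : 0 ≤ e) :
    Ysum L t B 0 (e • 1) ≤ 200 * (t : ℝ) ^ 2 := by
  have hS : Psd ((e • 1 : Matrix n n ℝ)) := Psd.of_coer coer_smul_one he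
  have h1 : ∀ p ∈ Icc 1 L, kap t p * Yp (th4 p) (e • 1) (Zt t B 0 p)
      ≤ if p ≤ t then 200 * (t : ℝ) else 0 := by
    intro p hp
    by_cases hpt : p ≤ t
    · simp only [Zt, if_pos hpt, kap]
      have h2 := Yp_le_hs (th4_pos p) hS B
      have h3 : (0 : ℝ) ≤ 200 * t := by positivity
      have h4 := mul_le_mul_of_nonneg_left (h2.trans hB) h3
      linarith
    · simp only [Zt, if_neg hpt, Yp_zero, mul_zero, le_refl]
  refine (Finset.sum_le_sum h1).trans (le_of_eq ?_)
  rw [← Finset.sum_filter]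
  have e1 : (Icc 1 L).filter (fun p => p ≤ t) = Icc 1 t := by
    ext p
    simp only [Finset.mem_filter, Finset.mem_Icc]
    omega
  rw [e1]
  simp
  ring

/-- the value of a pair at the root -/
lemma Wst_root_le {L t t' : ℕ} (htL : t ≤ L) {B B' a f S P m a' f' S' P' m' : Matrix n n ℝ}
    (h : StepRel L t B 0 B (th4 L • 1) a f S P m)
    (h' : StepRel L t' B' 0 B' (th4 L • 1) a' f' S' P' m')
    (hB : hs B ≤ 1) (hB' : hs B' ≤ 1) (hc : th4 L * Fintype.card n ≤ 1)
    {β ρ : ℝ} (hβ : 0 < β) (hρ0 : 0 ≤ ρ) (hρ : th4 t' * trace P ≤ ρ * hs m) (A : Matrix n n ℝ) :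
    Wst L t β (th4 t') ρ A B (PS.mk a f S) f' ≤
      (1 / (2 * β)) * (202 + 200 * (t : ℝ) ^ 2) + (β / 2) * (18 + ρ) := by
  have he := (th4_pos L).le
  have h1 : PPv L t A B a f S ≤ 202 + 200 * (t : ℝ) ^ 2 := by
    refine (PPv_post_le h A).trans ?_
    simp only [PPv]
    have h2 := sA_root_le A he hc
    have h3 := Ysum_root_le htL hB he
    linarith
  have h2 : RRv (th4 t') ρ (Tm a S) f f' ≤ 18 + ρ := by
    have h3 := RRv_post_le h (T0 := 0) (by simp)
      (fun y => by simp [qinv, qf])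
      (fun y => by
        have : qf (0 : Matrix n n ℝ) y = 0 := by simp [qf]
        rw [this]
        exact mul_nonneg (by norm_num) (nsq_nonneg y))
      hρ h'.horth1 h'.hop
    rw [← h'.hf] at h3
    refine h3.trans ?_
    have h4 := mul_le_mul_of_nonneg_left hB hρ0
    have h5 : trace ((0 : Matrix n n ℝ) * B'ᵀ) = 0 := by simp
    simp only [RRv, Matrix.trace_zero, mul_zero]
    rw [h5]
    linarith
  simp only [Wst, WP]
  exact add_le_add (mul_le_mul_of_nonneg_left h1 (by positivity))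
    (mul_le_mul_of_nonneg_left h2 (by positivity))

/-- numerical bound for a single pair -/
lemma pair_num {b s ρ : ℝ} (hb : 1 ≤ b) (hs0 : 0 ≤ s) (hs : s + 1 ≤ b) (hρ : ρ ≤ 4) :
    (1 / (2 * b)) * (202 + 200 * s ^ 2) + (b / 2) * (18 + ρ) ≤ 112 * b := by
  have hb0 : 0 < b := by linarith
  have h1 : 202 + 200 * s ^ 2 ≤ 202 * b ^ 2 := by nlinarith
  have h2 : (1 / (2 * b)) * (202 + 200 * s ^ 2) ≤ 101 * b := by
    rw [div_mul_eq_mul_div, div_le_iff₀ (by positivity)]
    nlinarith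
  have h3 : (b / 2) * (18 + ρ) ≤ 11 * b := by nlinarith
  linarith

/-- **The bound for the pruned form at the root.** -/
theorem plam_bound_aux {L J k : ℕ} (hJL : J ≤ L)
    (hc : th4 L * Fintype.card (Idx k) ≤ 1)
    {eps : ℕ → ℝ} (heps : ∀ k, |eps k| ≤ 1) {m : ℝ} (hm : ∑ i ∈ range k, |eps i| ≤ m)
    (hmJ : m * th4 J ≤ 1)
    (A B D : Matrix (Idx k) (Idx k) ℝ) (hA : hs A ≤ 1) (hB : hs B ≤ 1) (hD : hs D ≤ 1) :
    |PLam eps k A B D| ≤ 8 + 448 * (J : ℝ) * ((J : ℝ) + 1) := by
  classical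
  have hS0 : Coer ((th4 L • 1 : Matrix (Idx k) (Idx k) ℝ)) (th4 L) := coer_smul_one
  have hBT : OpB Bᵀ 1 := opb_of_hs (by rwa [hs_transpose])
  have hDT : OpB Dᵀ 1 := opb_of_hs (by rwa [hs_transpose])
  have hexB : ∀ t, ∃ a f S P m : Matrix (Idx k) (Idx k) ℝ, t ≤ J →
      StepRel L t B 0 B (th4 L • 1) a f S P m := by
    intro t
    by_cases ht : t ≤ J
    · obtain ⟨a, f, S, P, m, h⟩ := step_exists (t := t) (L := L) (by omega)
        (B := B) (a0 := 0) (f0 := B) (S0 := th4 L • 1) (by simp) hBT hS0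
      exact ⟨a, f, S, P, m, fun _ => h⟩
    · exact ⟨0, 0, 0, 0, 0, fun h => absurd h ht⟩
  have hexD : ∀ t, ∃ a f S P m : Matrix (Idx k) (Idx k) ℝ, t ≤ J →
      StepRel L t D 0 D (th4 L • 1) a f S P m := by
    intro t
    by_cases ht : t ≤ J
    · obtain ⟨a, f, S, P, m, h⟩ := step_exists (t := t) (L := L) (by omega)
        (B := D) (a0 := 0) (f0 := D) (S0 := th4 L • 1) (by simp) hDT hS0
      exact ⟨a, f, S, P, m, fun _ => h⟩
    · exact ⟨0, 0, 0, 0, 0, fun h => absurd h ht⟩
  choose aB fB SB PB mB hRB using hexB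
  choose aD fD SD PD mD hRD using hexD
  set st : ℕ → PS (Idx k) := fun t => PS.mk (aB t) (fB t) (SB t) with hst
  set st' : ℕ → PS (Idx k) := fun t => PS.mk (aD t) (fD t) (SD t) with hst'
  have hok : ∀ t ≤ J, PostOK L t B (st t) := fun t ht =>
    postOK_of_step (hRB t ht) (by simp) (fun _ => rfl) (fun _ => opb_of_hs hB)
  have hok' : ∀ t ≤ J, PostOK L t D (st' t) := fun t ht =>
    postOK_of_step (hRD t ht) (by simp) (fun _ => rfl) (fun _ => opb_of_hs hD)
  have hη := th4_pos J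
  set β : ℕ → ℝ := fun t => (t : ℝ) + 2 with hβdef
  have hβ : ∀ t, 0 < β t := fun t => by simp only [hβdef]; positivity
  have hmaster := master (L := L) (J := J) hJL hη hβ heps k A B D st st' hok hok' (opb_of_hs hA)
    (opb_of_hs (by rwa [hs_transpose]))
  -- the tail
  have htail : Psi (th4 J) (st J).f (st' J).fᵀ ≤ 14 * th4 J := by
    have h1 := Psi_le (th4 J) (st J).f (st' J).fᵀ
    rw [hs_transpose] at h1
    have h2 : hs (st J).f ≤ 1 := by
      have e1 : hs B = hs (fB J) + hs (mB J) := by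
        conv_lhs => rw [(hRB J le_rfl).hf]
        exact hs_add_of_orth (hRB J le_rfl).horth1
      have := hs_nonneg (mB J)
      show hs (fB J) ≤ 1
      linarith
    have h3 : hs (st' J).f ≤ 1 := by
      have e1 : hs D = hs (fD J) + hs (mD J) := by
        conv_lhs => rw [(hRD J le_rfl).hf]
        exact hs_add_of_orth (hRD J le_rfl).horth1
      have := hs_nonneg (mD J)
      show hs (fD J) ≤ 1
      linarith
    nlinarith
  -- the pairs
  have hpairs : ∀ t ∈ range J, PhiT L t (β t) A B D st st' ≤ 448 * ((J : ℝ) + 1) := by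
    intro t ht
    have ht' := Finset.mem_range.mp ht
    have hb : (t : ℝ) + 2 ≤ (J : ℝ) + 1 := by
      have : ((t + 1 : ℕ) : ℝ) ≤ J := by exact_mod_cast ht'
      push_cast at this
      linarith
    have hb1 : (1 : ℝ) ≤ (t : ℝ) + 2 := by
      have : (0 : ℝ) ≤ t := Nat.cast_nonneg t
      linarith
    have ht0 : (0 : ℝ) ≤ t := Nat.cast_nonneg t
    simp only [PhiT]
    have a1 := Wst_root_le (t := t + 1) (t' := t) (by omega) (hRB (t + 1) (by omega)) (hRD t (by omega))
      hB hD hc (hβ t) (ρ := 4) (by norm_num)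
      (by
        have := (hRB (t + 1) (by omega)).htr
        rw [th4_succ t]
        linarith) A
    have a2 := Wst_root_le (t := t) (t' := t) (by omega) (hRB t (by omega)) (hRD t (by omega))
      hB hD hc (hβ t) (ρ := 1) (by norm_num)
      (by
        have := (hRB t (by omega)).htr
        linarith) A
    have a3 := Wst_root_le (t := t + 1) (t' := t + 1) (by omega) (hRD (t + 1) (by omega))
      (hRB (t + 1) (by omega)) hD hB hc (hβ t) (ρ := 1) (by norm_num)
      (by
        have := (hRD (t + 1) (by omega)).htr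
        linarith) Aᵀ
    have a4 := Wst_root_le (t := t) (t' := t + 1) (by omega) (hRD t (by omega))
      (hRB (t + 1) (by omega)) hD hB hc (hβ t) (ρ := 1 / 4) (by norm_num)
      (by
        have := (hRD t (by omega)).htr
        rw [th4_succ t] at this
        linarith) Aᵀ
    have n1 := pair_num (b := (t : ℝ) + 2) (s := ((t + 1 : ℕ) : ℝ)) (ρ := 4) hb1 (Nat.cast_nonneg _)
      (by push_cast; linarith) (by norm_num)
    have n2 := pair_num (b := (t : ℝ) + 2) (s := (t : ℝ)) (ρ := 1) hb1 ht0 (by linarith) (by norm_num)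
    have n3 := pair_num (b := (t : ℝ) + 2) (s := ((t + 1 : ℕ) : ℝ)) (ρ := 1) hb1 (Nat.cast_nonneg _)
      (by push_cast; linarith) (by norm_num)
    have n4 := pair_num (b := (t : ℝ) + 2) (s := (t : ℝ)) (ρ := 1 / 4) hb1 ht0 (by linarith) (by norm_num)
    have a1' := a1.trans n1
    have a2' := a2.trans n2
    have a3' := a3.trans n3
    have a4' := a4.trans n4
    linarith
  have hsum : ∑ t ∈ range J, PhiT L t (β t) A B D st st' ≤ 448 * (J : ℝ) * ((J : ℝ) + 1) := by
    refine (Finset.sum_le_sum hpairs).trans (le_of_eq ?_)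
    simp
    ring
  -- total
  have hm0 : 0 ≤ ∑ i ∈ range k, |eps i| := Finset.sum_nonneg fun i _ => abs_nonneg _
  have h1 : (∑ i ∈ range k, |eps i|) * ((th4 J / 2) * hs A) ≤ 1 := by
    have h2 : (th4 J / 2) * hs A ≤ th4 J := by
      have := hs_nonneg A
      nlinarith
    have h3 : (∑ i ∈ range k, |eps i|) * ((th4 J / 2) * hs A) ≤ m * th4 J := by
      calc _ ≤ (∑ i ∈ range k, |eps i|) * th4 J := mul_le_mul_of_nonneg_left h2 hm0
        _ ≤ _ := mul_le_mul_of_nonneg_right hm hη.le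
    linarith
  have h2 : (1 / (2 * th4 J)) * Psi (th4 J) (st J).f (st' J).fᵀ ≤ 7 := by
    calc _ ≤ (1 / (2 * th4 J)) * (14 * th4 J) :=
          mul_le_mul_of_nonneg_left htail (by positivity)
      _ = 7 := by field_simp; norm_num
  simp only [Phi] at hmaster
  linarith

lemma card_Idx (k : ℕ) : Fintype.card (Idx k) = 2 ^ k := by
  induction k with
  | zero => rfl
  | succ k ih =>
    have : Fintype.card (Idx (k + 1)) = Fintype.card (Bool × Idx k) := rfl
    rw [this, Fintype.card_prod, ih]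
    simp [pow_succ]
    ring

/-- **The bound for the pruned form.** -/
theorem plam_bound {J k : ℕ} {eps : ℕ → ℝ} (heps : ∀ k, |eps k| ≤ 1) {m : ℝ}
    (hm : ∑ i ∈ range k, |eps i| ≤ m) (hmJ : m * th4 J ≤ 1)
    (A B D : Matrix (Idx k) (Idx k) ℝ) (hA : hs A ≤ 1) (hB : hs B ≤ 1) (hD : hs D ≤ 1) :
    |PLam eps k A B D| ≤ 8 + 448 * (J : ℝ) * ((J : ℝ) + 1) := by
  apply plam_bound_aux (L := J + k) (by omega) _ heps hm hmJ A B D hA hB hD
  rw [card_Idx]
  have h1 : th4 (J + k) ≤ th4 k := th4_anti (by omega)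
  have h2 : th4 k * (2 : ℝ) ^ k ≤ 1 := by
    simp only [th4]
    rw [← mul_pow]
    exact pow_le_one₀ (by norm_num) (by norm_num)
  push_cast
  have h3 : (0 : ℝ) < 2 ^ k := by positivity
  nlinarith

end Vale.Agent.Lib.P075
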