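import Vale.Agent.Lib.P075.Basic

/-!
Twist identities and the key quartic inequality.
-/

open Matrix Finset BigOperators

namespace Vale.Agent.Lib.P075

variable {n : Type*} [Fintype n] [DecidableEq n]

lemma twist_identity (A S : Matrix (Bool × n) (Bool × n) ℝ) :
    trace (A * Jm * S * Jm * Aᵀ) + trace (A * S * Aᵀ) =
      (1 / 4 : ℝ) * ∑ i, ∑ j, trace (blk A i j * blk S j j * (blk A i j)ᵀ) := by
  rw [trace_eq_blk (A * Jm * S * Jm * Aᵀ), trace_eq_blk (A * S * Aᵀ)]
  simp only [blk_mul_J_mul]
  simp only [blk_mul, blk_transpose, Matrix.smul_mul, Matrix.mul_smul,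
    Matrix.add_mul, Matrix.mul_add, Matrix.sub_mul, Matrix.mul_sub, Matrix.trace_add,
    Matrix.trace_sub, Matrix.trace_smul, smul_eq_mul,
    smul_add, smul_sub, Fintype.sum_bool]
  ring

omit [DecidableEq n] in
/-- trace of a matrix as a four-fold average of the diagonal blocks -/
lemma trace_eq_four (S : Matrix (Bool × n) (Bool × n) ℝ) :
    trace S = (1 / 4 : ℝ) * ∑ _i : Bool, ∑ j : Bool, trace (blk S j j) := by
  rw [trace_eq_blk]
  simp only [Fintype.sum_bool]
  ring

/-- the product norm with and without the twist -/
lemma hs_mul_add_twist (f h : Matrix (Bool × n) (Bool × n) ℝ) :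
    hs (f * h) + hs (f * Jm * h) =
      (1 / 8 : ℝ) * ∑ j, ∑ l, ∑ i, hs (blk f j l * blk h l i) := by
  rw [hs_eq_blk (f * h), hs_eq_blk (f * Jm * h)]
  simp only [blk_mul_J_mul]
  simp only [blk_mul, hs_smul, Fintype.sum_bool]
  have key : ∀ X Y : Matrix n n ℝ, hs (X - Y) = 2 * hs X + 2 * hs Y - hs (X + Y) := by
    intro X Y
    have := hs_parallelogram X Y
    linarith
  simp only [key]
  ring

omit [DecidableEq n] in
/-- the quartic block inequality for one factor -/
lemma Q_le_blocks (f : Matrix (Bool × n) (Bool × n) ℝ) :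
    hs (fᵀ * f) ≤
      (1 / 4 : ℝ) * ∑ j, ∑ l, hs ((blk f j l)ᵀ * blk f j l)
      - (1 / 16 : ℝ) * ∑ l, hs ((blk f false l)ᵀ * blk f false l
          - (blk f true l)ᵀ * blk f true l) := by
  rw [hs_eq_blk (fᵀ * f)]
  simp only [blk_mul, blk_transpose, hs_smul, Fintype.sum_bool]
  have d : ∀ X Y : Matrix n n ℝ, hs (X + Y) = 2 * hs X + 2 * hs Y - hs (X - Y) := by
    intro X Y
    have := hs_parallelogram X Y
    linarith
  have e1 := hs_add_le ((blk f false false)ᵀ * blk f false true) ((blk f true false)ᵀ * blk f true true)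
  have e2 := hs_add_le ((blk f false true)ᵀ * blk f false false) ((blk f true true)ᵀ * blk f true false)
  have t1 := hs_tmul_le (blk f false false) (blk f false true)
  have t2 := hs_tmul_le (blk f true false) (blk f true true)
  have t3 := hs_tmul_le (blk f false true) (blk f false false)
  have t4 := hs_tmul_le (blk f true true) (blk f true false)
  rw [d ((blk f false false)ᵀ * blk f false false) ((blk f true false)ᵀ * blk f true false),
    d ((blk f false true)ᵀ * blk f false true) ((blk f true true)ᵀ * blk f true true)]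
  norm_num
  nlinarith

/-- **Key inequality**: the twisted product energy is dominated by the drop of the quartic
potential along the even children. -/
theorem star_ineq (f h : Matrix (Bool × n) (Bool × n) ℝ) :
    hs (f * h) + hs (f * Jm * h) + hs (fᵀ * f) + hs (h * hᵀ) ≤
      (1 / 4 : ℝ) * ∑ j, ∑ l, (hs (blk f j l * blk h l (xor j l))
        + hs ((blk f j l)ᵀ * blk f j l)
        + hs (blk h l (xor j l) * (blk h l (xor j l))ᵀ)) := by
  have h1 := hs_mul_add_twist f h
  have h2 := Q_le_blocks f
  have h3 := Q_le_blocks hᵀ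
  simp only [Matrix.transpose_transpose, blk_transpose] at h3
  -- the sign sum
  have tr1 : ∀ (l : Bool) (i : Bool) (j : Bool), hs (blk f j l * blk h l i) =
      trace (((blk f j l)ᵀ * blk f j l) * (blk h l i * (blk h l i)ᵀ)) := fun l i j =>
    hs_mul_eq_trace _ _
  have a0 := abs_trace_mul_le ((blk f false false)ᵀ * blk f false false
      - (blk f true false)ᵀ * blk f true false)
      (blk h false false * (blk h false false)ᵀ - blk h false true * (blk h false true)ᵀ)
  have a1 := abs_trace_mul_le ((blk f false true)ᵀ * blk f false true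
      - (blk f true true)ᵀ * blk f true true)
      (blk h true false * (blk h true false)ᵀ - blk h true true * (blk h true true)ᵀ)
  have a0' := (abs_le.mp (le_of_mul_le_mul_left (a := (2:ℝ)) (by
    have := a0; linarith : 2 * |trace ((((blk f false false)ᵀ * blk f false false
      - (blk f true false)ᵀ * blk f true false)) * (blk h false false * (blk h false false)ᵀ - blk h false true * (blk h false true)ᵀ))| ≤ 2 * ((hs ((blk f false false)ᵀ * blk f false false
      - (blk f true false)ᵀ * blk f true false) + hs (blk h false false * (blk h false false)ᵀ - blk h false true * (blk h false true)ᵀ)) / 2)) (by norm_num)))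
  have a1' := (abs_le.mp (le_of_mul_le_mul_left (a := (2:ℝ)) (by
    have := a1; linarith : 2 * |trace (((blk f false true)ᵀ * blk f false true
      - (blk f true true)ᵀ * blk f true true) * (blk h true false * (blk h true false)ᵀ - blk h true true * (blk h true true)ᵀ))| ≤ 2 * ((hs ((blk f false true)ᵀ * blk f false true
      - (blk f true true)ᵀ * blk f true true) + hs (blk h true false * (blk h true false)ᵀ - blk h true true * (blk h true true)ᵀ)) / 2)) (by norm_num)))
  simp only [Matrix.sub_mul, Matrix.mul_sub, Matrix.trace_sub] at a0' a1'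
  simp only [Fintype.sum_bool, Bool.xor_true, Bool.xor_false, Bool.not_true, Bool.not_false] at h1 h2 h3 ⊢
  simp only [tr1] at h1 ⊢
  nlinarith [a0'.1, a0'.2, a1'.1, a1'.2]

end Vale.Agent.Lib.P075
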