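import Vale.Agent.Lib.P075.GridInt

/-!
The dyadic form of step functions.
-/

open MeasureTheory Finset BigOperators

set_option linter.unusedSectionVars false
set_option linter.unusedSimpArgs false

namespace Vale.Agent.Lib.P075

/-- the step function of a grid function, on the square of side `2 ^ L`, with mesh `2 ^ (-N)` -/
noncomputable def stepF (N L : ℕ) (G : ℕ → ℕ → ℝ) (p : ℝ × ℝ) : ℝ :=
  ci (Ib L) p.1 * ci (Ib L) p.2 * G (idx N p.1) (idx N p.2)

lemma mem_Ico_div {N A B : ℕ} {x : ℝ} (h0 : 0 ≤ x) :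
    x ∈ Set.Ico ((A : ℝ) / 2 ^ N) ((B : ℝ) / 2 ^ N) ↔ A ≤ idx N x ∧ idx N x < B := by
  have h2 : (0 : ℝ) < 2 ^ N := by positivity
  have hy : 0 ≤ (2 : ℝ) ^ N * x := by positivity
  rw [Set.mem_Ico, div_le_iff₀ h2, lt_div_iff₀ h2, idx, Nat.le_floor_iff hy, Nat.floor_lt hy, mul_comm x]

/-- the Haar sign on blocks, as a function of the natural coordinate -/
noncomputable def uH (r n a : ℕ) : ℝ := if a / 2 ^ r = n then bitSign r a else 0

lemma nat_haar {r n a : ℕ} (hr : 1 ≤ r) :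
    (if 2 ^ r * n ≤ a ∧ a < 2 ^ r * n + 2 ^ (r - 1) then (1 : ℝ) else 0)
      - (if 2 ^ r * n + 2 ^ (r - 1) ≤ a ∧ a < 2 ^ r * (n + 1) then (1 : ℝ) else 0) = uH r n a := by
  obtain ⟨s, rfl⟩ : ∃ s, r = s + 1 := ⟨r - 1, by omega⟩
  have hd : 0 < 2 ^ s := by positivity
  simp only [Nat.add_sub_cancel, uH, bitSign]
  have e : 2 ^ (s + 1) = 2 * 2 ^ s := by ring
  rw [e]
  set d := 2 ^ s with hd'
  by_cases h1 : 2 * d * n ≤ a ∧ a < 2 * d * n + d
  · have h2 : ¬ (2 * d * n + d ≤ a ∧ a < 2 * d * (n + 1)) := by omega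
    have h3 : a / (2 * d) = n := by
      apply Nat.div_eq_of_lt_le
      · rw [mul_comm]; exact h1.1
      · rw [mul_comm]
        have : 2 * d * (n + 1) = 2 * d * n + 2 * d := by ring
        omega
    have h4 : a / d = 2 * n := by
      apply Nat.div_eq_of_lt_le
      · have : 2 * n * d = 2 * d * n := by ring
        omega
      · have : (2 * n + 1) * d = 2 * d * n + d := by ring
        show a < (2 * n + 1) * d
        omega
    rw [if_pos h1, if_neg h2, if_pos h3, h4]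
    simp
  · rw [if_neg h1]
    by_cases h2 : 2 * d * n + d ≤ a ∧ a < 2 * d * (n + 1)
    · have h3 : a / (2 * d) = n := by
        apply Nat.div_eq_of_lt_le
        · rw [mul_comm]
          omega
        · rw [mul_comm]
          exact h2.2
      have h4 : a / d = 2 * n + 1 := by
        apply Nat.div_eq_of_lt_le
        · have : (2 * n + 1) * d = 2 * d * n + d := by ring
          omega
        · have e2 : (2 * n + 1 + 1) * d = 2 * d * (n + 1) := by ring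
          show a < (2 * n + 1 + 1) * d
          omega
      rw [if_pos h2, if_pos h3, h4]
      have : (2 * n + 1) % 2 ≠ 0 := by omega
      simp [this]
    · rw [if_neg h2, if_neg]
      · simp
      · intro h3
        have h5 : 2 * d * n ≤ a ∧ a < 2 * d * (n + 1) := by
          rw [← h3]
          constructor
          · exact Nat.mul_div_le _ _
          · have := Nat.lt_mul_div_succ a (by positivity : 0 < 2 * d)
            exact this
        have e3 : 2 * d * (n + 1) = 2 * d * n + d + d := by ring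
        omega

/-- the Haar function on the mesh -/
lemma haar_step {k : ℤ} {N r : ℕ} (hr : 1 ≤ r) (hk : k + N = r) (n : ℕ) {x : ℝ} (h0 : 0 ≤ x) :
    haarI k n x = uH r n (idx N x) := by
  have h2 : (2 : ℝ) ^ N ≠ 0 := by positivity
  have e1 : (2 : ℝ) ^ k = 2 ^ r / 2 ^ N := by
    have : k = (r : ℤ) - N := by omega
    rw [this, zpow_sub₀ (by norm_num), zpow_natCast, zpow_natCast]
  have e0 : (2 : ℝ) ^ r = 2 * 2 ^ (r - 1) := by
    obtain ⟨s, rfl⟩ : ∃ s, r = s + 1 := ⟨r - 1, by omega⟩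
    simp only [Nat.add_sub_cancel]
    ring
  have a1 : (2 : ℝ) ^ k * n = ((2 ^ r * n : ℕ) : ℝ) / 2 ^ N := by
    rw [e1]; push_cast; ring
  have a2 : (2 : ℝ) ^ k * (n + 1 / 2) = ((2 ^ r * n + 2 ^ (r - 1) : ℕ) : ℝ) / 2 ^ N := by
    rw [e1]; push_cast; rw [e0]; field_simp
  have a3 : (2 : ℝ) ^ k * (n + 1) = ((2 ^ r * (n + 1) : ℕ) : ℝ) / 2 ^ N := by
    rw [e1]; push_cast; ring
  rw [haarI, a1, a2, a3, ← nat_haar hr]
  have i1 := @mem_Ico_div N (2 ^ r * n) (2 ^ r * n + 2 ^ (r - 1)) x h0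
  have i2 := @mem_Ico_div N (2 ^ r * n + 2 ^ (r - 1)) (2 ^ r * (n + 1)) x h0
  congr 1
  · by_cases h : 2 ^ r * n ≤ idx N x ∧ idx N x < 2 ^ r * n + 2 ^ (r - 1)
    · rw [if_pos h, Set.indicator_of_mem (i1.mpr h)]
    · rw [if_neg h, Set.indicator_of_notMem (fun hc => h (i1.mp hc))]
  · by_cases h : 2 ^ r * n + 2 ^ (r - 1) ≤ idx N x ∧ idx N x < 2 ^ r * (n + 1)
    · rw [if_pos h, Set.indicator_of_mem (i2.mpr h)]
    · rw [if_neg h, Set.indicator_of_notMem (fun hc => h (i2.mp hc))]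

/-- restricting a sum over the range to a block -/
lemma sum_uH {r j M n : ℕ} (hM : r + j = M) (hn : n < 2 ^ j) (g : ℕ → ℝ) :
    ∑ a ∈ range (2 ^ M), uH r n a * g a = ∑ a ∈ Ico (2 ^ r * n) (2 ^ r * (n + 1)), bitSign r a * g a := by
  have h1 : ∀ a, uH r n a * g a = if a / 2 ^ r = n then bitSign r a * g a else 0 := by
    intro a
    simp only [uH, ite_mul, zero_mul]
  simp only [h1]
  rw [← Finset.sum_filter]
  apply Finset.sum_congr _ (fun _ _ => rfl)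
  ext a
  have hd : 0 < 2 ^ r := by positivity
  rw [Finset.mem_filter, Finset.mem_range, Finset.mem_Ico]
  constructor
  · rintro ⟨_, h⟩
    rw [← h]
    constructor
    · exact Nat.mul_div_le _ _
    · exact Nat.lt_mul_div_succ a hd
  · rintro ⟨h3, h4⟩
    constructor
    · rw [← hM, pow_add]
      calc a < 2 ^ r * (n + 1) := h4
        _ ≤ 2 ^ r * 2 ^ j := Nat.mul_le_mul_left _ hn
    · apply Nat.div_eq_of_lt_le
      · rw [mul_comm]; exact h3
      · rw [mul_comm]; exact h4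

/-- the form of a triple of intervals for step functions -/
lemma formI_step {k : ℤ} {N L r j : ℕ} (hr : 1 ≤ r) (hk : k + N = r) (hM : r + j = N + L)
    (G0 G1 G2 : ℕ → ℕ → ℝ) {n0 n1 n2 : ℕ} (h0 : n0 < 2 ^ j) (h1 : n1 < 2 ^ j) (h2 : n2 < 2 ^ j) :
    formI (stepF N L G0) (stepF N L G1) (stepF N L G2) k n0 n1 n2 =
      (1 / 2 ^ N) ^ 2 * blockForm G0 G1 G2 r n0 n1 n2 := by
  set T : ℕ → ℕ → ℕ → ℝ := fun a0 a1 a2 =>
    uH r n0 a0 * (uH r n1 a1 * (uH r n2 a2 * (G0 a0 a1 * G1 a1 a2 * G2 a2 a0))) with hT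
  have hpt : ∀ x : ℝ × ℝ × ℝ, stepF N L G0 (x.1, x.2.1) * stepF N L G1 (x.2.1, x.2.2) * stepF N L G2 (x.2.2, x.1) *
      (haarI k n0 x.1 * haarI k n1 x.2.1 * haarI k n2 x.2.2) =
      ci (Ib L) x.1 * (ci (Ib L) x.2.1 * ci (Ib L) x.2.2) * T (idx N x.1) (idx N x.2.1) (idx N x.2.2) := by
    rintro ⟨x0, x1, x2⟩
    simp only [stepF, hT]
    by_cases c0 : x0 ∈ Ib L
    · by_cases c1 : x1 ∈ Ib L
      · by_cases c2 : x2 ∈ Ib L
        · rw [ci_of_mem c0, ci_of_mem c1, ci_of_mem c2, haar_step hr hk n0 c0.1, haar_step hr hk n1 c1.1,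
            haar_step hr hk n2 c2.1]
          ring
        · rw [ci_of_not_mem c2]; ring
      · rw [ci_of_not_mem c1]; ring
    · rw [ci_of_not_mem c0]; ring
  simp only [formI, hpt]
  rw [int3, ← hM]
  have hs : ∑ a0 ∈ range (2 ^ (r + j)), ∑ a1 ∈ range (2 ^ (r + j)), ∑ a2 ∈ range (2 ^ (r + j)), T a0 a1 a2 =
      ∑ a0 ∈ Ico (2 ^ r * n0) (2 ^ r * (n0 + 1)), ∑ a1 ∈ Ico (2 ^ r * n1) (2 ^ r * (n1 + 1)),
        ∑ a2 ∈ Ico (2 ^ r * n2) (2 ^ r * (n2 + 1)),
          bitSign r a0 * (bitSign r a1 * (bitSign r a2 * (G0 a0 a1 * G1 a1 a2 * G2 a2 a0))) := by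
    have hh : ∀ a0, ∑ a1 ∈ range (2 ^ (r + j)), ∑ a2 ∈ range (2 ^ (r + j)), T a0 a1 a2 =
        uH r n0 a0 * ∑ a1 ∈ Ico (2 ^ r * n1) (2 ^ r * (n1 + 1)), ∑ a2 ∈ Ico (2 ^ r * n2) (2 ^ r * (n2 + 1)),
          bitSign r a1 * (bitSign r a2 * (G0 a0 a1 * G1 a1 a2 * G2 a2 a0)) := by
      intro a0
      have hh2 : ∀ a1, ∑ a2 ∈ range (2 ^ (r + j)), T a0 a1 a2 =
          uH r n0 a0 * (uH r n1 a1 * ∑ a2 ∈ Ico (2 ^ r * n2) (2 ^ r * (n2 + 1)),
            bitSign r a2 * (G0 a0 a1 * G1 a1 a2 * G2 a2 a0)) := by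
        intro a1
        rw [← sum_uH rfl h2, Finset.mul_sum, Finset.mul_sum]
      simp only [hh2]
      rw [← Finset.mul_sum, sum_uH rfl h1]
      congr 1
      apply Finset.sum_congr rfl; intro a1 _
      rw [Finset.mul_sum]
    simp only [hh]
    rw [sum_uH rfl h0]
    apply Finset.sum_congr rfl; intro a0 _
    rw [Finset.mul_sum]
    apply Finset.sum_congr rfl; intro a1 _
    rw [Finset.mul_sum]
  rw [hs, blockForm]
  have e2 : (2 : ℝ) ^ (-k) = 2 ^ N / 2 ^ r := by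
    have : -k = (N : ℤ) - r := by omega
    rw [this, zpow_sub₀ (by norm_num), zpow_natCast, zpow_natCast]
  rw [e2]
  have e3 : ∑ a0 ∈ Ico (2 ^ r * n0) (2 ^ r * (n0 + 1)), ∑ a1 ∈ Ico (2 ^ r * n1) (2 ^ r * (n1 + 1)),
        ∑ a2 ∈ Ico (2 ^ r * n2) (2 ^ r * (n2 + 1)),
          bitSign r a0 * (bitSign r a1 * (bitSign r a2 * (G0 a0 a1 * G1 a1 a2 * G2 a2 a0))) =
      ∑ x0 ∈ Ico (2 ^ r * n0) (2 ^ r * (n0 + 1)), ∑ x1 ∈ Ico (2 ^ r * n1) (2 ^ r * (n1 + 1)),
        ∑ x2 ∈ Ico (2 ^ r * n2) (2 ^ r * (n2 + 1)),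
          G0 x0 x1 * G1 x1 x2 * G2 x2 x0 * (bitSign r x0 * bitSign r x1 * bitSign r x2) := by
    apply Finset.sum_congr rfl; intro a0 _
    apply Finset.sum_congr rfl; intro a1 _
    apply Finset.sum_congr rfl; intro a2 _
    ring
  rw [e3]
  field_simp

/-- sum over indices with vanishing xor -/
lemma scaleForm_eq_pairs (G0 G1 G2 : ℕ → ℕ → ℝ) (r j : ℕ) :
    scaleForm G0 G1 G2 r (2 ^ j) = ∑ n0 ∈ range (2 ^ j), ∑ n1 ∈ range (2 ^ j),
      blockForm G0 G1 G2 r n0 n1 (n0 ^^^ n1) := by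
  simp only [scaleForm]
  apply Finset.sum_congr rfl; intro n0 h0
  apply Finset.sum_congr rfl; intro n1 h1
  rw [Finset.sum_eq_single (n0 ^^^ n1)]
  · rw [if_pos]
    simp
  · intro n2 _ hn
    rw [if_neg]
    intro hc
    apply hn
    have := Nat.xor_eq_zero_iff.mp hc
    exact this.symm
  · intro hc
    exfalso
    apply hc
    rw [Finset.mem_range] at h0 h1 ⊢
    exact Nat.xor_lt_two_pow h0 h1

end Vale.Agent.Lib.P075
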