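import Vale.Agent.Lib.P075.Tr32

/-!
Singular value decomposition of a rectangular matrix and the equality of the three halves power
of the two products.
-/

open Matrix Finset BigOperators

set_option linter.unusedSectionVars false
set_option linter.unusedSimpArgs false

namespace Vale.Agent.Lib.P075

variable {m n : Type*} [Fintype m] [DecidableEq m] [Fintype n] [DecidableEq n]

/-- positivity of a rectangular congruence -/
lemma psd_rect_conj (V : Matrix m n ℝ) {S : Matrix n n ℝ} (hS : Psd S) : Psd (V * S * Vᵀ) where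
  symm := by
    simp only [Matrix.transpose_mul, Matrix.transpose_transpose, hS.symm, Matrix.mul_assoc]
  nonneg x := by
    have e : qf (V * S * Vᵀ) x = qf S (Vᵀ *ᵥ x) := by
      simp only [qf]
      rw [← Matrix.mulVec_mulVec, ← Matrix.mulVec_mulVec, Matrix.dotProduct_mulVec,
        ← Matrix.mulVec_transpose]
    rw [e]
    exact hS.nonneg _

lemma psd_tmul_rect (a : Matrix m n ℝ) : Psd (aᵀ * a) := by
  have := psd_rect_conj aᵀ (psd_diag (d := fun _ : m => (1 : ℝ)) (fun _ => zero_le_one))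
  simpa [Matrix.transpose_transpose] using this

lemma psd_mult_rect (a : Matrix m n ℝ) : Psd (a * aᵀ) := by
  have := psd_tmul_rect aᵀ
  rwa [Matrix.transpose_transpose] at this

/-- singular value decomposition -/
structure SvdD (a : Matrix m n ℝ) (U : Matrix m n ℝ) (V : Matrix n n ℝ) (σ : n → ℝ) : Prop where
  nonneg : ∀ i, 0 ≤ σ i
  orth1 : Vᵀ * V = 1
  orth2 : V * Vᵀ = 1
  decomp : a = U * diagonal σ * Vᵀ
  pi : Uᵀ * U = diagonal (fun i => σ i * (σ i)⁻¹)

lemma mul_pi (s : ℝ) : s * (s * s⁻¹) = s := by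
  by_cases h : s = 0
  · simp [h]
  · field_simp

lemma svd_exists (a : Matrix m n ℝ) : ∃ U V σ, SvdD a U V σ := by
  obtain ⟨V, lam, hV1, hV2, hP, hlam⟩ := psd_eig (psd_tmul_rect a)
  set σ : n → ℝ := fun i => Real.sqrt (lam i) with hσ
  have hσ0 : ∀ i, 0 ≤ σ i := fun i => Real.sqrt_nonneg _
  have hσ2 : ∀ i, σ i * σ i = lam i := fun i => Real.mul_self_sqrt (hlam i)
  set Y : Matrix m n ℝ := a * V with hY
  have hYY : Yᵀ * Y = diagonal lam := by
    calc Yᵀ * Y = Vᵀ * (aᵀ * a) * V := by simp only [hY, Matrix.transpose_mul, Matrix.mul_assoc]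
      _ = (Vᵀ * V) * diagonal lam * (Vᵀ * V) := by rw [hP]; simp only [Matrix.mul_assoc]
      _ = diagonal lam := by rw [hV1]; simp
  have hYcol : ∀ (x : m) (i : n), σ i = 0 → Y x i = 0 := by
    intro x i hi
    have h1 : (Yᵀ * Y) i i = lam i := by rw [hYY]; simp
    have h2 : lam i = 0 := by rw [← hσ2, hi]; ring
    rw [h2] at h1
    simp only [Matrix.mul_apply, Matrix.transpose_apply] at h1
    have h3 : ∀ z ∈ (Finset.univ : Finset m), 0 ≤ Y z i * Y z i := fun z _ => mul_self_nonneg _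
    have h4 := (Finset.sum_eq_zero_iff_of_nonneg h3).mp h1 x (Finset.mem_univ x)
    exact mul_self_eq_zero.mp h4
  refine ⟨Y * diagonal (fun i => (σ i)⁻¹), V, σ, hσ0, hV1, hV2, ?_, ?_⟩
  · have e1 : a = Y * Vᵀ := by
      rw [hY, Matrix.mul_assoc, hV2, Matrix.mul_one]
    have e2 : Y * diagonal (fun i => (σ i)⁻¹) * diagonal σ = Y := by
      rw [Matrix.mul_assoc, Matrix.diagonal_mul_diagonal]
      ext x i
      rw [Matrix.mul_diagonal]
      by_cases h : σ i = 0
      · rw [hYcol x i h]; simp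
      · field_simp
    rw [e2]
    exact e1
  · calc (Y * diagonal (fun i => (σ i)⁻¹))ᵀ * (Y * diagonal (fun i => (σ i)⁻¹))
        = diagonal (fun i => (σ i)⁻¹) * (Yᵀ * Y) * diagonal (fun i => (σ i)⁻¹) := by
          simp only [Matrix.transpose_mul, Matrix.diagonal_transpose, Matrix.mul_assoc]
      _ = diagonal (fun i => σ i * (σ i)⁻¹) := by
          rw [hYY, Matrix.diagonal_mul_diagonal, Matrix.diagonal_mul_diagonal]
          congr 1
          funext i
          rw [← hσ2]
          by_cases h : σ i = 0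
          · simp [h]
          · field_simp

namespace SvdD

variable {a : Matrix m n ℝ} {U : Matrix m n ℝ} {V : Matrix n n ℝ} {σ : n → ℝ}

lemma sig_pi_sig (h : SvdD a U V σ) {w : n → ℝ} : diagonal σ * (Uᵀ * U) * diagonal w = diagonal (fun i => σ i * w i) := by
  rw [h.pi, Matrix.diagonal_mul_diagonal, Matrix.diagonal_mul_diagonal]
  congr 1
  funext i
  rw [mul_pi]

lemma tmul (h : SvdD a U V σ) : aᵀ * a = V * diagonal (fun i => σ i * σ i) * Vᵀ := by
  rw [h.decomp]
  calc (U * diagonal σ * Vᵀ)ᵀ * (U * diagonal σ * Vᵀ)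
      = V * (diagonal σ * (Uᵀ * U) * diagonal σ) * Vᵀ := by
        simp only [Matrix.transpose_mul, Matrix.transpose_transpose, Matrix.diagonal_transpose, Matrix.mul_assoc]
    _ = _ := by rw [h.sig_pi_sig]

lemma mult (h : SvdD a U V σ) : a * aᵀ = U * diagonal (fun i => σ i * σ i) * Uᵀ := by
  rw [h.decomp]
  calc (U * diagonal σ * Vᵀ) * (U * diagonal σ * Vᵀ)ᵀ
      = U * (diagonal σ * (Vᵀ * V) * diagonal σ) * Uᵀ := by
        simp only [Matrix.transpose_mul, Matrix.transpose_transpose, Matrix.diagonal_transpose, Matrix.mul_assoc]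
    _ = _ := by rw [h.orth1, Matrix.mul_one, Matrix.diagonal_mul_diagonal]

lemma f32_tmul (h : SvdD a U V σ) : f32 (aᵀ * a) = ∑ i, σ i ^ 3 := by
  have hR : Psd (V * diagonal σ * Vᵀ) := psd_conj (psd_diag h.nonneg)
  have e1 : (V * diagonal σ * Vᵀ) * (V * diagonal σ * Vᵀ) = aᵀ * a := by
    rw [h.tmul, mul_conj_diag h.orth1]
  rw [f32_eq hR e1, e1, h.tmul, mul_conj_diag h.orth1]
  calc trace (V * (diagonal fun i => σ i * σ i * σ i) * Vᵀ)
      = trace ((Vᵀ * V) * (diagonal fun i => σ i * σ i * σ i)) := by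
        rw [Matrix.trace_mul_comm, ← Matrix.mul_assoc]
    _ = _ := by
        rw [h.orth1, Matrix.one_mul, Matrix.trace_diagonal]
        exact Finset.sum_congr rfl fun i _ => by ring

lemma f32_mult (h : SvdD a U V σ) : f32 (a * aᵀ) = ∑ i, σ i ^ 3 := by
  have hR : Psd (U * diagonal σ * Uᵀ) := psd_rect_conj U (psd_diag h.nonneg)
  have e1 : (U * diagonal σ * Uᵀ) * (U * diagonal σ * Uᵀ) = a * aᵀ := by
    rw [h.mult]
    calc (U * diagonal σ * Uᵀ) * (U * diagonal σ * Uᵀ)
        = U * (diagonal σ * (Uᵀ * U) * diagonal σ) * Uᵀ := by simp only [Matrix.mul_assoc]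
      _ = _ := by rw [h.sig_pi_sig]
  rw [f32_eq hR e1]
  calc trace ((U * diagonal σ * Uᵀ) * (U * diagonal σ * Uᵀ) * (U * diagonal σ * Uᵀ))
      = trace (U * (diagonal σ * (Uᵀ * U) * diagonal σ * (Uᵀ * U) * diagonal σ) * Uᵀ) := by
        simp only [Matrix.mul_assoc]
    _ = trace ((Uᵀ * U) * (diagonal σ * (Uᵀ * U) * diagonal σ * (Uᵀ * U) * diagonal σ)) := by
        rw [Matrix.trace_mul_comm, ← Matrix.mul_assoc]
    _ = _ := by
        rw [h.pi, Matrix.diagonal_mul_diagonal, Matrix.diagonal_mul_diagonal, Matrix.diagonal_mul_diagonal,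
          Matrix.diagonal_mul_diagonal, Matrix.diagonal_mul_diagonal, Matrix.trace_diagonal]
        apply Finset.sum_congr rfl
        intro i _
        by_cases h0 : σ i = 0
        · simp [h0]
        · field_simp

end SvdD

/-- the three halves power of the two products agree -/
lemma f32_tmul_eq (a : Matrix m n ℝ) : f32 (a * aᵀ) = f32 (aᵀ * a) := by
  obtain ⟨U, V, σ, h⟩ := svd_exists a
  rw [h.f32_tmul, h.f32_mult]

end Vale.Agent.Lib.P075
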