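import Vale.Agent.Lib.P075.Ypot

/-!
The trace of the three halves power of a positive matrix: Young inequality, the variational
formula, operator monotonicity of the square root and supermodularity.
-/

open Matrix Finset BigOperators

set_option linter.unusedSectionVars false
set_option linter.unusedSimpArgs false

namespace Vale.Agent.Lib.P075

variable {n : Type*} [Fintype n] [DecidableEq n]

lemma psd_sq_of_symm {X : Matrix n n ℝ} (hX : Xᵀ = X) : Psd (X * X) := by
  have := psd_mul_transpose X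
  rwa [hX] at this

lemma Psd.smul {S : Matrix n n ℝ} (hS : Psd S) {c : ℝ} (hc : 0 ≤ c) : Psd (c • S) where
  symm := by rw [Matrix.transpose_smul, hS.symm]
  nonneg x := by
    rw [qf_smul]
    exact mul_nonneg hc (hS.nonneg x)

lemma psd_conj {S V : Matrix n n ℝ} (hS : Psd S) : Psd (V * S * Vᵀ) where
  symm := by
    simp only [Matrix.transpose_mul, Matrix.transpose_transpose, hS.symm, Matrix.mul_assoc]
  nonneg x := by
    have e : qf (V * S * Vᵀ) x = qf S (Vᵀ *ᵥ x) := by
      simp only [qf]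
      rw [← Matrix.mulVec_mulVec, ← Matrix.mulVec_mulVec, dot_mulVec_transpose]
    rw [e]
    exact hS.nonneg _

lemma psd_diag {d : n → ℝ} (hd : ∀ i, 0 ≤ d i) : Psd (diagonal d) where
  symm := by simp
  nonneg x := by
    simp only [qf, Matrix.mulVec_diagonal, dotProduct]
    exact Finset.sum_nonneg fun i _ => by nlinarith [mul_nonneg (hd i) (mul_self_nonneg (x i))]

lemma psd_transpose_mul (X : Matrix n n ℝ) : Psd (Xᵀ * X) := by
  have := psd_mul_transpose Xᵀ
  rwa [Matrix.transpose_transpose] at this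

lemma trace_cyc (X Y Z : Matrix n n ℝ) : trace (X * (Y * Z)) = trace (Y * (Z * X)) := by
  rw [Matrix.trace_mul_comm, Matrix.mul_assoc]

/-- Young inequality for traces -/
lemma young_tr {R S : Matrix n n ℝ} (hR : Psd R) (hS : Psd S) :
    3 * trace (R * R * S) ≤ 2 * trace (R * R * R) + trace (S * S * S) := by
  have hsymm : (R - S)ᵀ = R - S := by rw [Matrix.transpose_sub, hR.symm, hS.symm]
  have h1 := trace_mul_psd_nonneg (psd_sq_of_symm hsymm) (G := (2 : ℝ) • R + S)
    (fun x => ((hR.smul (by norm_num)).add hS).nonneg x)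
  simp only [Matrix.sub_mul, Matrix.mul_sub, Matrix.add_mul, Matrix.mul_add, Matrix.mul_smul,
    Matrix.smul_mul, trace_add, trace_sub, trace_smul, smul_eq_mul, Matrix.mul_assoc] at h1
  have e1 : trace (S * (R * R)) = trace (R * (R * S)) := trace_cyc S R R
  have e2 : trace (R * (S * R)) = trace (R * (R * S)) := (trace_cyc R S R).trans e1
  have e3 : trace (S * (R * S)) = trace (R * (S * S)) := trace_cyc S R S
  have e4 : trace (S * (S * R)) = trace (R * (S * S)) := (trace_cyc S S R).trans e3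
  simp only [Matrix.mul_assoc]
  rw [e1, e2, e3, e4] at h1
  linarith

/-- a positive matrix diagonalised -/
lemma psd_eig {P : Matrix n n ℝ} (hP : Psd P) :
    ∃ (U : Matrix n n ℝ) (lam : n → ℝ), Uᵀ * U = 1 ∧ U * Uᵀ = 1 ∧
      P = U * diagonal lam * Uᵀ ∧ ∀ i, 0 ≤ lam i := by
  obtain ⟨U, lam, hU1, hU2, hPU⟩ := sym_eig hP.symm
  refine ⟨U, lam, hU1, hU2, hPU, ?_⟩
  intro i
  have h := hP.nonneg (colm U i)
  rw [← conj_diag, hPU] at h
  have e : Uᵀ * (U * diagonal lam * Uᵀ) * U = diagonal lam := by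
    calc Uᵀ * (U * diagonal lam * Uᵀ) * U = (Uᵀ * U) * diagonal lam * (Uᵀ * U) := by
          simp only [Matrix.mul_assoc]
      _ = diagonal lam := by rw [hU1]; simp
  rw [e] at h
  simpa using h

/-- existence of a positive square root -/
lemma exists_sqrt {P : Matrix n n ℝ} (hP : Psd P) : ∃ R : Matrix n n ℝ, Psd R ∧ R * R = P := by
  obtain ⟨U, lam, hU1, hU2, hPU, hlam⟩ := psd_eig hP
  refine ⟨U * diagonal (fun i => Real.sqrt (lam i)) * Uᵀ, ?_, ?_⟩
  · exact psd_conj (psd_diag fun i => Real.sqrt_nonneg _)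
  · rw [mul_conj_diag hU1, hPU]
    congr 3
    funext i
    exact Real.mul_self_sqrt (hlam i)

open Classical in
/-- the positive square root -/
noncomputable def msqrt (P : Matrix n n ℝ) : Matrix n n ℝ :=
  if h : Psd P then Classical.choose (exists_sqrt h) else 0

lemma msqrt_psd {P : Matrix n n ℝ} (h : Psd P) : Psd (msqrt P) := by
  simp only [msqrt, dif_pos h]
  exact (Classical.choose_spec (exists_sqrt h)).1

lemma msqrt_sq {P : Matrix n n ℝ} (h : Psd P) : msqrt P * msqrt P = P := by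
  simp only [msqrt, dif_pos h]
  exact (Classical.choose_spec (exists_sqrt h)).2

/-- the trace of the three halves power -/
noncomputable def f32 (P : Matrix n n ℝ) : ℝ := trace (P * msqrt P)

lemma f32_cube {P : Matrix n n ℝ} (h : Psd P) :
    f32 P = trace (msqrt P * msqrt P * msqrt P) := by
  rw [f32, msqrt_sq h]

/-- the value does not depend on the square root -/
lemma f32_eq {P R : Matrix n n ℝ} (hR : Psd R) (h : R * R = P) : f32 P = trace (R * R * R) := by
  have hP : Psd P := by
    rw [← h]; exact psd_sq_of_symm hR.symm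
  have hS := msqrt_psd hP
  have hSS := msqrt_sq hP
  rw [f32_cube hP]
  set S := msqrt P
  have h1 := young_tr hR hS
  have h2 := young_tr hS hR
  rw [h] at h1
  rw [hSS] at h2
  have h3 : trace (P * S) = trace (S * S * S) := by rw [hSS]
  have h4 : trace (P * R) = trace (R * R * R) := by rw [h]
  rw [h3] at h1
  rw [h4] at h2
  linarith

lemma f32_nonneg {P : Matrix n n ℝ} (h : Psd P) : 0 ≤ f32 P := by
  exact trace_mul_psd_nonneg h (msqrt_psd h).nonneg

/-- the variational lower bound -/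
lemma f32_var {U S : Matrix n n ℝ} (hU : Psd U) (hS : Psd S) :
    (3 / 2 : ℝ) * trace (U * S) - (1 / 2 : ℝ) * trace (S * S * S) ≤ f32 U := by
  have h1 := young_tr (msqrt_psd hU) hS
  rw [msqrt_sq hU] at h1
  rw [f32_cube hU, msqrt_sq hU]
  linarith

/-- the tangent inequality -/
lemma f32_tangent {U V : Matrix n n ℝ} (hU : Psd U) (hV : Psd V) :
    f32 V + (3 / 2 : ℝ) * (trace (U * msqrt V) - trace (V * msqrt V)) ≤ f32 U := by
  have h1 := f32_var hU (msqrt_psd hV)
  have h2 : trace (msqrt V * msqrt V * msqrt V) = trace (V * msqrt V) := by rw [msqrt_sq hV]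
  have h3 : f32 V = trace (V * msqrt V) := rfl
  rw [h2] at h1
  rw [h3]
  linarith

/-- midpoint convexity -/
lemma f32_mid {U V : Matrix n n ℝ} (hU : Psd U) (hV : Psd V) :
    f32 ((1 / 2 : ℝ) • (U + V)) ≤ (1 / 2 : ℝ) * (f32 U + f32 V) := by
  have hW : Psd ((1 / 2 : ℝ) • (U + V)) := (hU.add hV).smul (by norm_num)
  have hS := msqrt_psd hW
  have h1 := f32_var hU hS
  have h2 := f32_var hV hS
  have h3 : f32 ((1 / 2 : ℝ) • (U + V)) = trace (msqrt ((1 / 2 : ℝ) • (U + V)) * msqrt ((1 / 2 : ℝ) • (U + V)) * msqrt ((1 / 2 : ℝ) • (U + V))) :=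
    f32_cube hW
  have h4 : trace (msqrt ((1 / 2 : ℝ) • (U + V)) * msqrt ((1 / 2 : ℝ) • (U + V)) * msqrt ((1 / 2 : ℝ) • (U + V)))
      = (1 / 2 : ℝ) * (trace (U * msqrt ((1 / 2 : ℝ) • (U + V))) + trace (V * msqrt ((1 / 2 : ℝ) • (U + V)))) := by
    rw [msqrt_sq hW, Matrix.smul_mul, Matrix.add_mul, trace_smul, trace_add, smul_eq_mul]
  rw [h3]
  rw [h4] at h1 h2 ⊢
  linarith

/-- orthogonal invariance -/
lemma f32_conj {P V : Matrix n n ℝ} (hP : Psd P) (hV : Vᵀ * V = 1) :
    f32 (V * P * Vᵀ) = f32 P := by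
  have hS := msqrt_psd hP
  have hSS := msqrt_sq hP
  set S := msqrt P with hSdef
  have e1 : (V * S * Vᵀ) * (V * S * Vᵀ) = V * P * Vᵀ := by
    calc (V * S * Vᵀ) * (V * S * Vᵀ) = V * S * (Vᵀ * V) * S * Vᵀ := by
          simp only [Matrix.mul_assoc]
      _ = V * (S * S) * Vᵀ := by rw [hV]; simp only [Matrix.mul_one, Matrix.mul_assoc]
      _ = V * P * Vᵀ := by rw [hSS]
  rw [f32_eq (psd_conj hS) e1, e1, f32_cube hP, hSS]
  calc trace (V * P * Vᵀ * (V * S * Vᵀ)) = trace (V * (P * (Vᵀ * V) * S * Vᵀ)) := by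
        simp only [Matrix.mul_assoc]
    _ = trace ((P * (Vᵀ * V) * S * Vᵀ) * V) := Matrix.trace_mul_comm _ _
    _ = trace (P * S * (Vᵀ * V)) := by rw [hV]; simp only [Matrix.mul_assoc, Matrix.mul_one]; rw [hV]; simp
    _ = trace (P * S) := by rw [hV]; simp

lemma qf_zero_mulVec {R : Matrix n n ℝ} (hR : Psd R) {v : n → ℝ} (h : qf R v = 0) : R *ᵥ v = 0 := by
  obtain ⟨S, hS, hSS⟩ := exists_sqrt hR
  have h1 : nsq (S *ᵥ v) = 0 := by
    rw [nsq_mulVec_eq_qf, hS.symm, hSS, h]
  have h2 : S *ᵥ v = 0 := by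
    funext i
    rw [nsq_eq_sum, Finset.sum_eq_zero_iff_of_nonneg (fun _ _ => sq_nonneg _)] at h1
    have := h1 i (Finset.mem_univ i)
    simpa using this
  rw [← hSS, ← Matrix.mulVec_mulVec, h2, Matrix.mulVec_zero]

/-- operator monotonicity of the square root -/
lemma sqrt_mono_aux {R T : Matrix n n ℝ} (hR : Psd R) (hT : Psd T)
    (h : ∀ x, qf (R * R) x ≤ qf (T * T) x) (x : n → ℝ) : qf R x ≤ qf T x := by
  have hD : (T - R)ᵀ = T - R := by rw [Matrix.transpose_sub, hR.symm, hT.symm]
  obtain ⟨U, d, hU1, hU2, hDU⟩ := sym_eig hD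
  -- every eigenvalue is nonnegative
  have hd : ∀ i, 0 ≤ d i := by
    intro i
    set v := colm U i with hv
    have hv1 : nsq v = 1 := by
      rw [hv, colm_eq_mulVec, nsq_mulVec_eq_qf, hU1, qf_one, nsq_eq_sum]
      rw [Finset.sum_eq_single i]
      · simp
      · intro b _ hb
        simp [Pi.single_apply, hb]
      · simp
    have hDv : (T - R) *ᵥ v = d i • v := by
      have e : (T - R) * U = U * diagonal d := by
        rw [hDU]
        calc U * diagonal d * Uᵀ * U = U * diagonal d * (Uᵀ * U) := by simp only [Matrix.mul_assoc]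
          _ = U * diagonal d := by rw [hU1, Matrix.mul_one]
      have e2 : colm ((T - R) * U) i = (T - R) *ᵥ v := mul_colm _ _ _
      rw [← e2, e]
      funext a
      simp [colm, Matrix.mul_diagonal, hv, mul_comm]
    have hid : qf (T * T) v - qf (R * R) v = d i * (qf T v + qf R v) := by
      have e1 : T *ᵥ v = R *ᵥ v + d i • v := by
        rw [← hDv, Matrix.sub_mulVec]; abel
      have e2 : qf (T * T) v = (T *ᵥ v) ⬝ᵥ (T *ᵥ v) := by
        simp only [qf]
        rw [← Matrix.mulVec_mulVec, dot_mulVec_transpose, hT.symm]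
      have e3 : qf (R * R) v = (R *ᵥ v) ⬝ᵥ (R *ᵥ v) := by
        simp only [qf]
        rw [← Matrix.mulVec_mulVec, dot_mulVec_transpose, hR.symm]
      have e4 : qf T v = v ⬝ᵥ (R *ᵥ v) + d i * nsq v := by
        simp only [qf, e1, dotProduct_add, dotProduct_smul, smul_eq_mul, nsq]
      have e5 : qf R v = v ⬝ᵥ (R *ᵥ v) := rfl
      rw [e2, e3, e4, e5, e1]
      simp only [dotProduct_add, add_dotProduct, dotProduct_smul, smul_dotProduct, smul_eq_mul,
        nsq]
      rw [dotProduct_comm v (R *ᵥ v)]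
      ring
    have h0 := h v
    have hTv := hT.nonneg v
    have hRv := hR.nonneg v
    have hmul : 0 ≤ d i * (qf T v + qf R v) := by linarith
    by_contra hneg
    rw [not_le] at hneg
    have hw : qf T v + qf R v = 0 := by
      by_contra hne
      have hpos : 0 < qf T v + qf R v := lt_of_le_of_ne (add_nonneg hTv hRv) (Ne.symm hne)
      have := mul_neg_of_neg_of_pos hneg hpos
      linarith
    have hT0 : T *ᵥ v = 0 := qf_zero_mulVec hT (by linarith)
    have hR0 : R *ᵥ v = 0 := qf_zero_mulVec hR (by linarith)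
    have h5 : d i • v = 0 := by
      rw [← hDv, Matrix.sub_mulVec, hT0, hR0, sub_zero]
    have h6 : nsq (d i • v) = d i ^ 2 * nsq v := nsq_smul _ _
    rw [h5, hv1] at h6
    have h7 : nsq (0 : n → ℝ) = 0 := by simp [nsq]
    rw [h7] at h6
    have : d i ^ 2 = 0 := by linarith
    have : d i = 0 := by simpa using this
    linarith
  have h1 : qf (T - R) x = ∑ i, d i * (Uᵀ *ᵥ x) i ^ 2 := by
    rw [hDU, qf_conj_diag]
  have h2 : 0 ≤ qf (T - R) x := by
    rw [h1]
    exact Finset.sum_nonneg fun i _ => mul_nonneg (hd i) (sq_nonneg _)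
  rw [qf_sub] at h2
  linarith

lemma msqrt_mono {P Q : Matrix n n ℝ} (hP : Psd P) (hQ : Psd Q) (h : ∀ x, qf P x ≤ qf Q x) (x : n → ℝ) :
    qf (msqrt P) x ≤ qf (msqrt Q) x := by
  apply sqrt_mono_aux (msqrt_psd hP) (msqrt_psd hQ)
  rw [msqrt_sq hP, msqrt_sq hQ]
  exact h

/-- supermodularity of the trace of the three halves power -/
theorem f32_supermod {X Z Y : Matrix n n ℝ} (hX : Psd X) (hZ : Psd Z) (hY : Psd Y) :
    f32 (X + Y) + f32 (X + Z) ≤ f32 (X + Z + Y) + f32 X := by
  -- the constant in the discretisation error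
  set c : ℝ := trace (Z * msqrt (X + Z)) with hc
  have hc0 : 0 ≤ c := trace_mul_psd_nonneg hZ (msqrt_psd (hX.add hZ)).nonneg
  have key : ∀ N : ℕ, 0 < N →
      f32 (X + Y) - f32 X ≤ f32 (X + Z + Y) - f32 (X + Z) + (3 / 2 : ℝ) * c / N := by
    intro N hN
    have hN0 : (0 : ℝ) < N := by exact_mod_cast hN
    set W : ℕ → Matrix n n ℝ := fun k => X + ((k : ℝ) / N) • Z with hW
    have hWp : ∀ k, Psd (W k) := fun k => hX.add (hZ.smul (by positivity))
    have hWY : ∀ k, Psd (W k + Y) := fun k => (hWp k).add hY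
    set s : ℕ → ℝ := fun k => trace (Z * msqrt (W k)) with hs
    set H : ℕ → ℝ := fun k => f32 (W k + Y) - f32 (W k) + (3 / 2 : ℝ) * s k / N with hH
    have hstep : ∀ k, H k ≤ H (k + 1) := by
      intro k
      have e1 : W (k + 1) = W k + ((1 : ℝ) / N) • Z := by
        simp only [hW]
        rw [add_assoc, ← add_smul]
        congr 2
        push_cast
        field_simp
      have e2 : W (k + 1) + Y = (W k + Y) + ((1 : ℝ) / N) • Z := by
        rw [e1]; abel
      have e3 : W k = W (k + 1) - ((1 : ℝ) / N) • Z := by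
        rw [e1]; abel
      have hh1 := f32_tangent (hWY (k + 1)) (hWY k)
      have hh2 := f32_tangent (hWp k) (hWp (k + 1))
      have t1 : trace ((W (k + 1) + Y) * msqrt (W k + Y)) - trace ((W k + Y) * msqrt (W k + Y))
          = (1 / N : ℝ) * trace (Z * msqrt (W k + Y)) := by
        rw [e2, Matrix.add_mul (W k + Y), trace_add, Matrix.smul_mul, trace_smul, smul_eq_mul]
        ring
      have t2 : trace (W k * msqrt (W (k + 1))) - trace (W (k + 1) * msqrt (W (k + 1)))
          = - ((1 / N : ℝ) * trace (Z * msqrt (W (k + 1)))) := by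
        conv_lhs => rw [e3]
        rw [Matrix.sub_mul, trace_sub, Matrix.smul_mul, trace_smul, smul_eq_mul]
        ring
      rw [t1] at hh1
      rw [t2] at hh2
      have hmono : trace (Z * msqrt (W k)) ≤ trace (Z * msqrt (W k + Y)) := by
        have h0 : 0 ≤ trace (Z * (msqrt (W k + Y) - msqrt (W k))) := by
          apply trace_mul_psd_nonneg hZ
          intro x
          rw [qf_sub]
          have := msqrt_mono (hWp k) (hWY k) (fun y => by
            rw [qf_add (W k) Y]; linarith [hY.nonneg y]) x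
          linarith
        rw [Matrix.mul_sub, trace_sub] at h0
        linarith
      have hinv : (1 / N : ℝ) * trace (Z * msqrt (W k)) ≤ (1 / N : ℝ) * trace (Z * msqrt (W k + Y)) :=
        mul_le_mul_of_nonneg_left hmono (by positivity)
      simp only [hH, hs]
      have e5 : ∀ t : ℝ, (3 / 2 : ℝ) * t / N = (3 / 2 : ℝ) * ((1 / N : ℝ) * t) := by
        intro t; field_simp
      rw [e5, e5]
      linarith
    have hmono : H 0 ≤ H N := monotone_nat_of_le_succ hstep (Nat.zero_le N)
    have e0 : W 0 = X := by simp [hW]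
    have eN : W N = X + Z := by
      simp only [hW]
      rw [div_self hN0.ne', one_smul]
    have hs0 : 0 ≤ s 0 := trace_mul_psd_nonneg hZ (msqrt_psd (hWp 0)).nonneg
    simp only [hH, hs, e0, eN] at hmono
    simp only [hs, e0] at hs0
    have h1 : 0 ≤ (3 / 2 : ℝ) * trace (Z * msqrt X) / N := by positivity
    linarith
  -- pass to the limit
  have hlim : f32 (X + Y) - f32 X ≤ f32 (X + Z + Y) - f32 (X + Z) := by
    by_contra hcon
    rw [not_le] at hcon
    set g := f32 (X + Y) - f32 X - (f32 (X + Z + Y) - f32 (X + Z)) with hg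
    have hg0 : 0 < g := by rw [hg]; linarith
    obtain ⟨N, hN⟩ := exists_nat_gt ((3 / 2 : ℝ) * c / g)
    have hN0 : (0 : ℝ) < N := lt_of_le_of_lt (by positivity) hN
    have hN1 : 0 < N := by exact_mod_cast hN0
    have h1 := key N hN1
    rw [div_lt_iff₀ hg0] at hN
    have h2 : (3 / 2 : ℝ) * c / N < g := by
      rw [div_lt_iff₀ hN0]
      linarith
    rw [hg] at h2
    linarith
  linarith

/-- the defect of the three halves power -/
noncomputable def Dl (X Y : Matrix n n ℝ) : ℝ := f32 (X + Y) - f32 X - f32 Y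

lemma Dl_comm (X Y : Matrix n n ℝ) : Dl X Y = Dl Y X := by
  simp only [Dl]
  rw [add_comm X Y]
  ring

/-- the defect is monotone in the first variable -/
lemma Dl_mono_left {X Z Y : Matrix n n ℝ} (hX : Psd X) (hZ : Psd Z) (hY : Psd Y) :
    Dl X Y ≤ Dl (X + Z) Y := by
  have := f32_supermod hX hZ hY
  simp only [Dl]
  linarith

/-- the defect is monotone in both variables -/
lemma Dl_mono {X X' Y Y' : Matrix n n ℝ} (hX : Psd X) (hX' : Psd X') (hY : Psd Y) (hY' : Psd Y') :
    Dl X Y ≤ Dl (X + X') (Y + Y') := by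
  calc Dl X Y ≤ Dl (X + X') Y := Dl_mono_left hX hX' hY
    _ = Dl Y (X + X') := Dl_comm _ _
    _ ≤ Dl (Y + Y') (X + X') := Dl_mono_left hY hY' (hX.add hX')
    _ = Dl (X + X') (Y + Y') := Dl_comm _ _

end Vale.Agent.Lib.P075
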