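import Vale.Agent.Lib.P075.Coord

/-!
The trilinear bound: the trace of a triple product is controlled by the three defects.
-/

open Matrix Finset BigOperators

set_option linter.unusedSectionVars false
set_option linter.unusedSimpArgs false

namespace Vale.Agent.Lib.P075

variable {n : Type*} [Fintype n] [DecidableEq n]

/-- indicator of `s ≤ t` -/
noncomputable def le1 (s t : ℝ) : ℝ := if s ≤ t then 1 else 0

/-- indicator of `s < t` -/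
noncomputable def lt1 (s t : ℝ) : ℝ := if s < t then 1 else 0

lemma ind_partition (s t u : ℝ) :
    le1 t s * le1 u s + le1 u t * lt1 s t + lt1 s u * lt1 t u = 1 := by
  simp only [le1, lt1]
  split_ifs <;> first | (exfalso; linarith) | norm_num

/-- bilinear bound for a contraction -/
lemma bil_abs {ρ : Matrix n n ℝ} (hρ : OpB ρ 1) (x z : n → ℝ) :
    2 * |∑ β, ∑ γ, x β * ρ β γ * z γ| ≤ ∑ β, x β ^ 2 + ∑ γ, z γ ^ 2 := by
  have e : ∑ β, ∑ γ, x β * ρ β γ * z γ = x ⬝ᵥ ρ *ᵥ z := by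
    simp only [dotProduct, Matrix.mulVec, Finset.mul_sum]
    exact Finset.sum_congr rfl fun β _ => Finset.sum_congr rfl fun γ _ => by ring
  have h1 : nsq (ρ *ᵥ z) ≤ nsq z := by simpa using hρ z
  rw [e, ← nsq_eq_sum, ← nsq_eq_sum]
  rcases abs_cases (x ⬝ᵥ ρ *ᵥ z) with ⟨h, _⟩ | ⟨h, _⟩
  · rw [h]
    have := two_dot_le x (ρ *ᵥ z)
    linarith
  · rw [h]
    have h2 := two_dot_le (-x) (ρ *ᵥ z)
    have h3 : nsq (-x) = nsq x := by simp [nsq_eq_sum]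
    rw [h3, neg_dotProduct] at h2
    linarith

/-- the bound in one region, for general cutoffs -/
lemma region_bound {σ : n → ℝ} (τ μ : n → ℝ) (ρ₁ : Matrix n n ℝ) {ρ₂ : Matrix n n ℝ} (ρ₀ A C : Matrix n n ℝ)
    (hσ : ∀ i, 0 ≤ σ i) (hρ : OpB ρ₂ 1) :
    2 * |∑ α, ∑ β, ∑ γ, A α β * C α γ * (σ α * ρ₁ α β * τ β * ρ₂ β γ * μ γ * ρ₀ γ α)| ≤
      ∑ α, ∑ β, σ α * (A α β * τ β * ρ₁ α β) ^ 2 + ∑ α, ∑ γ, σ α * (C α γ * μ γ * ρ₀ γ α) ^ 2 := by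
  rw [← Finset.sum_add_distrib]
  have h1 := Finset.abs_sum_le_sum_abs (fun α => ∑ β, ∑ γ, A α β * C α γ * (σ α * ρ₁ α β * τ β * ρ₂ β γ * μ γ * ρ₀ γ α))
    Finset.univ
  have h2 : ∀ α, 2 * |∑ β, ∑ γ, A α β * C α γ * (σ α * ρ₁ α β * τ β * ρ₂ β γ * μ γ * ρ₀ γ α)| ≤
      ∑ β, σ α * (A α β * τ β * ρ₁ α β) ^ 2 + ∑ γ, σ α * (C α γ * μ γ * ρ₀ γ α) ^ 2 := by
    intro α
    have e : ∑ β, ∑ γ, A α β * C α γ * (σ α * ρ₁ α β * τ β * ρ₂ β γ * μ γ * ρ₀ γ α) =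
        σ α * ∑ β, ∑ γ, (A α β * τ β * ρ₁ α β) * ρ₂ β γ * (C α γ * μ γ * ρ₀ γ α) := by
      rw [Finset.mul_sum]
      apply Finset.sum_congr rfl; intro β _
      rw [Finset.mul_sum]
      apply Finset.sum_congr rfl; intro γ _
      ring
    rw [e, abs_mul, abs_of_nonneg (hσ α)]
    have h3 := bil_abs hρ (fun β => A α β * τ β * ρ₁ α β) (fun γ => C α γ * μ γ * ρ₀ γ α)
    have h4 := mul_le_mul_of_nonneg_left h3 (hσ α)
    rw [mul_add, Finset.mul_sum, Finset.mul_sum] at h4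
    linarith
  calc _ ≤ 2 * ∑ α, |∑ β, ∑ γ, A α β * C α γ * (σ α * ρ₁ α β * τ β * ρ₂ β γ * μ γ * ρ₀ γ α)| := by
        apply mul_le_mul_of_nonneg_left h1 (by norm_num)
    _ = ∑ α, 2 * |∑ β, ∑ γ, A α β * C α γ * (σ α * ρ₁ α β * τ β * ρ₂ β γ * μ γ * ρ₀ γ α)| := by
        rw [Finset.mul_sum]
    _ ≤ _ := Finset.sum_le_sum fun α _ => h2 α

lemma Kh_comm (s t r : ℝ) : Kh s t r = Kh t s r := by
  simp only [Kh]
  rw [add_comm, mul_comm s t]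

/-- the pointwise kernel bound -/
lemma kernel_le {s t : ℝ} (hs : 0 ≤ s) (ht : 0 ≤ t) (r : ℝ) :
    s * (le1 t s * t * r) ^ 2 + t * (lt1 s t * s * r) ^ 2 ≤ 2 * Kh s t r := by
  simp only [Kh, le1, lt1]
  by_cases h0 : s + t = 0
  · have h1 : s = 0 := by linarith
    have h2 : t = 0 := by linarith
    simp [h1, h2]
  have hk : 0 < s + t := lt_of_le_of_ne (add_nonneg hs ht) (Ne.symm h0)
  rw [← mul_div_assoc, le_div_iff₀ hk]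
  by_cases hts : t ≤ s
  · have hn : ¬ s < t := not_lt.mpr hts
    simp only [if_pos hts, if_neg hn]
    have : 0 ≤ s * t ^ 2 * r ^ 2 * (s - t) := by
      have := sub_nonneg.mpr hts
      positivity
    nlinarith
  · have hst : s < t := not_le.mp hts
    simp only [if_neg hts, if_pos hst]
    have : 0 ≤ t * s ^ 2 * r ^ 2 * (t - s) := by
      have := sub_nonneg.mpr hst.le
      positivity
    nlinarith

/-- **The expanded trilinear bound.** -/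
theorem tri_expand_bound {σ τ μ : n → ℝ} {ρ₁ ρ₂ ρ₀ : Matrix n n ℝ} (hσ : ∀ i, 0 ≤ σ i) (hτ : ∀ i, 0 ≤ τ i)
    (hμ : ∀ i, 0 ≤ μ i) (h₁ : OpB ρ₁ 1) (h₂ : OpB ρ₂ 1) (h₀ : OpB ρ₀ 1) :
    |∑ α, ∑ β, ∑ γ, σ α * ρ₁ α β * τ β * ρ₂ β γ * μ γ * ρ₀ γ α| ≤
      EE σ τ ρ₁ + EE τ μ ρ₂ + EE μ σ ρ₀ := by
  set A₁ : Matrix n n ℝ := Matrix.of fun α β => le1 (τ β) (σ α) with hA₁
  set C₁ : Matrix n n ℝ := Matrix.of fun α γ => le1 (μ γ) (σ α) with hC₁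
  set A₂ : Matrix n n ℝ := Matrix.of fun β γ => le1 (μ γ) (τ β) with hA₂
  set C₂ : Matrix n n ℝ := Matrix.of fun β α => lt1 (σ α) (τ β) with hC₂
  set A₃ : Matrix n n ℝ := Matrix.of fun γ α => lt1 (σ α) (μ γ) with hA₃
  set C₃ : Matrix n n ℝ := Matrix.of fun γ β => lt1 (τ β) (μ γ) with hC₃
  have r1 := region_bound τ μ ρ₁ ρ₀ A₁ C₁ hσ h₂
  have r2 := region_bound μ σ ρ₂ ρ₁ A₂ C₂ hτ h₀
  have r3 := region_bound σ τ ρ₀ ρ₂ A₃ C₃ hμ h₁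
  -- the sum splits according to the largest index
  have hsplit : ∑ α, ∑ β, ∑ γ, σ α * ρ₁ α β * τ β * ρ₂ β γ * μ γ * ρ₀ γ α =
      ∑ α, ∑ β, ∑ γ, A₁ α β * C₁ α γ * (σ α * ρ₁ α β * τ β * ρ₂ β γ * μ γ * ρ₀ γ α)
      + ∑ α, ∑ β, ∑ γ, A₂ β γ * C₂ β α * (τ β * ρ₂ β γ * μ γ * ρ₀ γ α * σ α * ρ₁ α β)
      + ∑ α, ∑ β, ∑ γ, A₃ γ α * C₃ γ β * (μ γ * ρ₀ γ α * σ α * ρ₁ α β * τ β * ρ₂ β γ) := by
    rw [← Finset.sum_add_distrib, ← Finset.sum_add_distrib]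
    apply Finset.sum_congr rfl; intro α _
    rw [← Finset.sum_add_distrib, ← Finset.sum_add_distrib]
    apply Finset.sum_congr rfl; intro β _
    rw [← Finset.sum_add_distrib, ← Finset.sum_add_distrib]
    apply Finset.sum_congr rfl; intro γ _
    have := ind_partition (σ α) (τ β) (μ γ)
    simp only [hA₁, hC₁, hA₂, hC₂, hA₃, hC₃, Matrix.of_apply]
    calc σ α * ρ₁ α β * τ β * ρ₂ β γ * μ γ * ρ₀ γ α
        = (le1 (τ β) (σ α) * le1 (μ γ) (σ α) + le1 (μ γ) (τ β) * lt1 (σ α) (τ β)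
            + lt1 (σ α) (μ γ) * lt1 (τ β) (μ γ)) * (σ α * ρ₁ α β * τ β * ρ₂ β γ * μ γ * ρ₀ γ α) := by
          rw [this, one_mul]
      _ = _ := by ring
  have hB : ∑ α, ∑ β, ∑ γ, A₂ β γ * C₂ β α * (τ β * ρ₂ β γ * μ γ * ρ₀ γ α * σ α * ρ₁ α β) =
      ∑ β, ∑ γ, ∑ α, A₂ β γ * C₂ β α * (τ β * ρ₂ β γ * μ γ * ρ₀ γ α * σ α * ρ₁ α β) := by
    rw [Finset.sum_comm]
    apply Finset.sum_congr rfl; intro β _
    rw [Finset.sum_comm]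
  have hD : ∑ α, ∑ β, ∑ γ, A₃ γ α * C₃ γ β * (μ γ * ρ₀ γ α * σ α * ρ₁ α β * τ β * ρ₂ β γ) =
      ∑ γ, ∑ α, ∑ β, A₃ γ α * C₃ γ β * (μ γ * ρ₀ γ α * σ α * ρ₁ α β * τ β * ρ₂ β γ) := by
    calc ∑ α, ∑ β, ∑ γ, A₃ γ α * C₃ γ β * (μ γ * ρ₀ γ α * σ α * ρ₁ α β * τ β * ρ₂ β γ)
        = ∑ α, ∑ γ, ∑ β, A₃ γ α * C₃ γ β * (μ γ * ρ₀ γ α * σ α * ρ₁ α β * τ β * ρ₂ β γ) :=
          Finset.sum_congr rfl fun α _ => Finset.sum_comm
      _ = _ := Finset.sum_comm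
  rw [hsplit, hB, hD]
  have g1 : ∑ α, ∑ β, σ α * (A₁ α β * τ β * ρ₁ α β) ^ 2 + ∑ β, ∑ α, τ β * (C₂ β α * σ α * ρ₁ α β) ^ 2
      ≤ 2 * EE σ τ ρ₁ := by
    rw [Finset.sum_comm (f := fun β α => τ β * (C₂ β α * σ α * ρ₁ α β) ^ 2), ← Finset.sum_add_distrib]
    simp only [EE, Finset.mul_sum]
    apply Finset.sum_le_sum; intro α _
    rw [← Finset.sum_add_distrib]
    apply Finset.sum_le_sum; intro β _
    exact kernel_le (hσ α) (hτ β) _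
  have g2 : ∑ β, ∑ γ, τ β * (A₂ β γ * μ γ * ρ₂ β γ) ^ 2 + ∑ γ, ∑ β, μ γ * (C₃ γ β * τ β * ρ₂ β γ) ^ 2
      ≤ 2 * EE τ μ ρ₂ := by
    rw [Finset.sum_comm (f := fun γ β => μ γ * (C₃ γ β * τ β * ρ₂ β γ) ^ 2), ← Finset.sum_add_distrib]
    simp only [EE, Finset.mul_sum]
    apply Finset.sum_le_sum; intro β _
    rw [← Finset.sum_add_distrib]
    apply Finset.sum_le_sum; intro γ _
    exact kernel_le (hτ β) (hμ γ) _
  have g3 : ∑ α, ∑ γ, σ α * (C₁ α γ * μ γ * ρ₀ γ α) ^ 2 + ∑ γ, ∑ α, μ γ * (A₃ γ α * σ α * ρ₀ γ α) ^ 2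
      ≤ 2 * EE μ σ ρ₀ := by
    rw [Finset.sum_comm (f := fun γ α => μ γ * (A₃ γ α * σ α * ρ₀ γ α) ^ 2), ← Finset.sum_add_distrib]
    simp only [EE, Finset.mul_sum]
    rw [Finset.sum_comm (f := fun γ α => 2 * Kh (μ γ) (σ α) (ρ₀ γ α))]
    apply Finset.sum_le_sum; intro α _
    rw [← Finset.sum_add_distrib]
    apply Finset.sum_le_sum; intro γ _
    rw [Kh_comm]
    exact kernel_le (hσ α) (hμ γ) _
  have h3 := abs_add_three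
    (∑ α, ∑ β, ∑ γ, A₁ α β * C₁ α γ * (σ α * ρ₁ α β * τ β * ρ₂ β γ * μ γ * ρ₀ γ α))
    (∑ β, ∑ γ, ∑ α, A₂ β γ * C₂ β α * (τ β * ρ₂ β γ * μ γ * ρ₀ γ α * σ α * ρ₁ α β))
    (∑ γ, ∑ α, ∑ β, A₃ γ α * C₃ γ β * (μ γ * ρ₀ γ α * σ α * ρ₁ α β * τ β * ρ₂ β γ))
  linarith

/-- the expanded form of the trace of a triple product -/
lemma trace_tri_expand (σ τ μ : n → ℝ) (ρ₁ ρ₂ ρ₀ : Matrix n n ℝ) :
    trace (diagonal σ * ρ₁ * diagonal τ * ρ₂ * diagonal μ * ρ₀) =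
      ∑ α, ∑ β, ∑ γ, σ α * ρ₁ α β * τ β * ρ₂ β γ * μ γ * ρ₀ γ α := by
  have e1 : ∀ α β, (diagonal σ * ρ₁ * diagonal τ) α β = σ α * ρ₁ α β * τ β := by
    intro α β
    simp [Matrix.mul_diagonal, Matrix.diagonal_mul]
  have e2 : ∀ α γ, (diagonal σ * ρ₁ * diagonal τ * ρ₂) α γ = ∑ β, σ α * ρ₁ α β * τ β * ρ₂ β γ := by
    intro α γ
    rw [Matrix.mul_apply]
    simp only [e1]
  simp only [Matrix.trace, Matrix.diag_apply]
  apply Finset.sum_congr rfl; intro α _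
  rw [Matrix.mul_apply]
  simp only [Matrix.mul_diagonal, e2, Finset.sum_mul]
  rw [Finset.sum_comm]

namespace SvdD

variable {a b c U₁ U₂ U₃ V₁ V₂ V₃ : Matrix n n ℝ} {σ τ μ : n → ℝ}

/-- the coupling of two singular frames is a contraction -/
lemma opb_coupling (hb : SvdD b U₂ V₂ τ) {W : Matrix n n ℝ} (hW : W * Wᵀ = 1) : OpB (Wᵀ * U₂) 1 := by
  intro x
  rw [one_mul, nsq_mulVec_eq_qf]
  have e : (Wᵀ * U₂)ᵀ * (Wᵀ * U₂) = U₂ᵀ * U₂ := by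
    calc (Wᵀ * U₂)ᵀ * (Wᵀ * U₂) = U₂ᵀ * (W * Wᵀ) * U₂ := by
          simp only [Matrix.transpose_mul, Matrix.transpose_transpose, Matrix.mul_assoc]
      _ = _ := by rw [hW, Matrix.mul_one]
  rw [e, hb.pi, nsq_eq_sum]
  simp only [qf, Matrix.mulVec_diagonal, dotProduct]
  apply Finset.sum_le_sum
  intro i _
  by_cases h : τ i = 0
  · simp [h]
    positivity
  · have : τ i * (τ i)⁻¹ = 1 := mul_inv_cancel₀ h
    rw [this]
    nlinarith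

lemma coupling_sq (hb : SvdD b U₂ V₂ τ) {W : Matrix n n ℝ} (hW : W * Wᵀ = 1) :
    diagonal τ * ((Wᵀ * U₂)ᵀ * (Wᵀ * U₂)) * diagonal τ = diagonal (fun j => τ j * τ j) := by
  have e : (Wᵀ * U₂)ᵀ * (Wᵀ * U₂) = U₂ᵀ * U₂ := by
    calc (Wᵀ * U₂)ᵀ * (Wᵀ * U₂) = U₂ᵀ * (W * Wᵀ) * U₂ := by
          simp only [Matrix.transpose_mul, Matrix.transpose_transpose, Matrix.mul_assoc]
      _ = _ := by rw [hW, Matrix.mul_one]
  rw [e, hb.sig_pi_sig]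

/-- the defect of a pair is bounded below by the kernel sum -/
theorem pair_lower (ha : SvdD a U₁ V₁ σ) (hb : SvdD b U₂ V₂ τ) :
    (3 / 2 : ℝ) * EE σ τ (V₁ᵀ * U₂) ≤ Dl (aᵀ * a) (b * bᵀ) := by
  have h1 := coord_lower ha.nonneg hb.nonneg (hb.coupling_sq ha.orth2)
  set ρ := V₁ᵀ * U₂ with hρ
  have hU : V₁ * ρ = U₂ := by
    rw [hρ, ← Matrix.mul_assoc, ha.orth2, Matrix.one_mul]
  set Q := diagonal (fun i => σ i * σ i) + ρ * diagonal (fun j => τ j * τ j) * ρᵀ with hQ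
  have hQp : Psd Q := by
    apply Psd.add
    · exact psd_diag fun i => mul_self_nonneg _
    · exact psd_conj (psd_diag fun i => mul_self_nonneg _)
  have e : aᵀ * a + b * bᵀ = V₁ * Q * V₁ᵀ := by
    rw [ha.tmul, hb.mult, hQ, ← hU]
    simp only [Matrix.mul_add, Matrix.add_mul, Matrix.transpose_mul, Matrix.mul_assoc]
  have e2 : f32 (aᵀ * a + b * bᵀ) = f32 Q := by
    rw [e, f32_conj hQp ha.orth1]
  simp only [Dl]
  rw [e2, ha.f32_tmul, hb.f32_mult]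
  linarith

end SvdD

/-- **The trace of a triple product is controlled by the three defects.** -/
theorem trace_tri_le (a b c : Matrix n n ℝ) :
    (3 / 2 : ℝ) * |trace (a * b * c)| ≤ Dl (aᵀ * a) (b * bᵀ) + Dl (bᵀ * b) (c * cᵀ) + Dl (cᵀ * c) (a * aᵀ) := by
  obtain ⟨U₁, V₁, σ, ha⟩ := svd_exists a
  obtain ⟨U₂, V₂, τ, hb⟩ := svd_exists b
  obtain ⟨U₃, V₃, μ, hc⟩ := svd_exists c
  have p1 := ha.pair_lower hb
  have p2 := hb.pair_lower hc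
  have p3 := hc.pair_lower ha
  have e : trace (a * b * c) = trace (diagonal σ * (V₁ᵀ * U₂) * diagonal τ * (V₂ᵀ * U₃) * diagonal μ * (V₃ᵀ * U₁)) := by
    rw [ha.decomp, hb.decomp, hc.decomp]
    calc trace (U₁ * diagonal σ * V₁ᵀ * (U₂ * diagonal τ * V₂ᵀ) * (U₃ * diagonal μ * V₃ᵀ))
        = trace (U₁ * (diagonal σ * (V₁ᵀ * U₂) * diagonal τ * (V₂ᵀ * U₃) * diagonal μ * V₃ᵀ)) := by
          simp only [Matrix.mul_assoc]
      _ = trace ((diagonal σ * (V₁ᵀ * U₂) * diagonal τ * (V₂ᵀ * U₃) * diagonal μ * V₃ᵀ) * U₁) :=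
          Matrix.trace_mul_comm _ _
      _ = _ := by simp only [Matrix.mul_assoc]
  have hT := tri_expand_bound ha.nonneg hb.nonneg hc.nonneg (hb.opb_coupling ha.orth2)
    (hc.opb_coupling hb.orth2) (ha.opb_coupling hc.orth2)
  rw [e, trace_tri_expand]
  linarith


end Vale.Agent.Lib.P075
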