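import Vale.Agent.Lib.P075.Raise

/-!
The spectral window argument.
-/

open Matrix Finset BigOperators

set_option linter.unusedSectionVars false
set_option linter.unusedSimpArgs false

namespace Vale.Agent.Lib.P075

variable {n : Type*} [Fintype n] [DecidableEq n]

/-- thresholds -/
noncomputable def th4 (p : ℕ) : ℝ := (1 / 4 : ℝ) ^ p

/-- weights of the levels -/
noncomputable def kap (t p : ℕ) : ℝ := if p ≤ t then 200 * (t : ℝ) else 200 * 2 ^ (p - t)

lemma th4_pos (p : ℕ) : 0 < th4 p := by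
  simp only [th4]; positivity

lemma th4_succ (p : ℕ) : th4 p = 4 * th4 (p + 1) := by
  simp only [th4, pow_succ]; ring

lemma th4_anti {p q : ℕ} (h : p ≤ q) : th4 q ≤ th4 p :=
  pow_le_pow_of_le_one (by norm_num) (by norm_num) h

lemma th4_zero : th4 0 = 1 := by simp [th4]

lemma kap_pos {t p : ℕ} (hp : 1 ≤ p) : 0 < kap t p := by
  unfold kap
  split_ifs with h
  · have : (0 : ℝ) < t := by exact_mod_cast (lt_of_lt_of_le hp h)
    positivity
  · positivity

lemma nsq_sum_weighted {ι : Type*} (s : Finset ι) (y : ι → n → ℝ) (w : ι → ℝ)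
    (hw : ∀ p ∈ s, 0 < w p) :
    nsq (∑ p ∈ s, y p) ≤ (∑ p ∈ s, w p) * ∑ p ∈ s, nsq (y p) / w p := by
  by_cases hs : s.Nonempty
  · have hpos : 0 < ∑ p ∈ s, w p := Finset.sum_pos hw hs
    simp only [nsq_eq_sum, Finset.sum_div]
    rw [Finset.sum_comm, Finset.mul_sum]
    apply Finset.sum_le_sum
    intro i _
    have h1 := Finset.sq_sum_div_le_sum_sq_div s (fun p => y p i) hw
    rw [div_le_iff₀ hpos] at h1
    simp only [Finset.sum_apply]
    linarith
  · rw [Finset.not_nonempty_iff_eq_empty] at hs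
    subst hs
    simp [nsq]

lemma nsq_sum_card {ι : Type*} (s : Finset ι) (y : ι → n → ℝ) :
    nsq (∑ p ∈ s, y p) ≤ (s.card : ℝ) * ∑ p ∈ s, nsq (y p) := by
  have := nsq_sum_weighted s y (fun _ => 1) (fun _ _ => one_pos)
  simpa using this

lemma sum_half (t L : ℕ) (h : t ≤ L) :
    ∑ p ∈ Ioc t L, (1 / 2 : ℝ) ^ (p - t) ≤ 1 - (1 / 2 : ℝ) ^ (L - t) := by
  induction L, h using Nat.le_induction with
  | base => simp
  | succ L hL ih =>
    rw [Finset.sum_Ioc_succ_top hL]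
    have e : L + 1 - t = (L - t) + 1 := by omega
    rw [e, pow_succ]
    linarith

lemma sum_half_le (t L : ℕ) : ∑ p ∈ Ioc t L, (1 / 2 : ℝ) ^ (p - t) ≤ 1 := by
  by_cases h : t ≤ L
  · have := sum_half t L h
    have h2 : (0 : ℝ) ≤ (1 / 2 : ℝ) ^ (L - t) := by positivity
    linarith
  · rw [Finset.Ioc_eq_empty (by omega)]
    simp

/-- coercivity gives the lower bound on the eigenvalues -/
lemma eig_lower {S U : Matrix n n ℝ} {lam : n → ℝ} {e : ℝ} (hS : Coer S e) (hU1 : Uᵀ * U = 1)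
    (hSU : S = U * diagonal lam * Uᵀ) (i : n) : e ≤ lam i := by
  have h := hS.lower (colm U i)
  rw [← conj_diag, hSU] at h
  have h2 : nsq (colm U i) = 1 := by
    rw [colm_eq_mulVec, nsq_orth hU1]
    simp [nsq_eq_sum, Pi.single_apply]
  have e2 : Uᵀ * (U * diagonal lam * Uᵀ) * U = diagonal lam := by
    calc Uᵀ * (U * diagonal lam * Uᵀ) * U = (Uᵀ * U) * diagonal lam * (Uᵀ * U) := by
          simp only [Matrix.mul_assoc]
      _ = diagonal lam := by rw [hU1]; simp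
  rw [e2, h2] at h
  simpa using h

lemma orth_mulVec {U : Matrix n n ℝ} (hU1 : Uᵀ * U = 1) (c : n → ℝ) : Uᵀ *ᵥ (U *ᵥ c) = c := by
  rw [Matrix.mulVec_mulVec, hU1, Matrix.one_mulVec]

/-- the conjugated matrix on the coordinates -/
lemma shift_mulVec {S U : Matrix n n ℝ} {lam : n → ℝ} (hU1 : Uᵀ * U = 1)
    (hSU : S = U * diagonal lam * Uᵀ) (θ : ℝ) (c : n → ℝ) :
    (S + θ • 1) *ᵥ (U *ᵥ c) = U *ᵥ fun i => (lam i + θ) * c i := by
  rw [Matrix.add_mulVec, Matrix.smul_mulVec, Matrix.one_mulVec, hSU, ← Matrix.mulVec_mulVec,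
    orth_mulVec hU1, ← Matrix.mulVec_mulVec, ← Matrix.mulVec_smul, ← Matrix.mulVec_add]
  congr 1
  funext i
  simp [Matrix.mulVec_diagonal]
  ring

/-- **The window bound.** -/
theorem windows_bound {L t : ℕ} (htL : t ≤ L) {S B a f : Matrix n n ℝ} (hS : Coer S (th4 L))
    (haf : a + f = B) (hB : OpB Bᵀ 1) (hf : OpB fᵀ (th4 t))
    (hZ : ∀ p ∈ Icc 1 L, ∀ x, nsq ((if p ≤ t then B else a)ᵀ *ᵥ x)
      ≤ (8 / (kap t p * th4 p)) * nsq ((S + th4 p • 1) *ᵥ x)) (x : n → ℝ) :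
    nsq (aᵀ *ᵥ x) ≤ 9 * qf S x := by
  classical
  obtain ⟨U, lam, hU1, hU2, hSU⟩ := sym_eig hS.symm
  have hlam : ∀ i, th4 L ≤ lam i := eig_lower hS hU1 hSU
  have hlam0 : ∀ i, 0 < lam i := fun i => lt_of_lt_of_le (th4_pos L) (hlam i)
  -- window index
  have hex : ∀ i, ∃ p, th4 p ≤ lam i := fun i => ⟨L, hlam i⟩
  set w : n → ℕ := fun i => Nat.find (hex i) with hw
  have hw1 : ∀ i, th4 (w i) ≤ lam i := fun i => Nat.find_spec (hex i)
  have hw2 : ∀ i, w i ≤ L := fun i => Nat.find_min' (hex i) (hlam i)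
  have hw3 : ∀ i p, w i = p + 1 → lam i < 4 * th4 (p + 1) := by
    intro i p h
    have h1 : ¬ th4 p ≤ lam i := Nat.find_min (hex i) (by
      have : Nat.find (hex i) = p + 1 := h
      omega)
    rw [← th4_succ]
    exact not_le.mp h1
  set c := Uᵀ *ᵥ x with hc
  have hxc : x = U *ᵥ c := by
    rw [hc, Matrix.mulVec_mulVec, hU2, Matrix.one_mulVec]
  -- the pieces
  set cut : ℕ → n → ℝ := fun p i => if w i = p then c i else 0 with hcut
  set xp : ℕ → n → ℝ := fun p => U *ᵥ cut p with hxp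
  set Qp : ℕ → ℝ := fun p => ∑ i, lam i * cut p i ^ 2 with hQp
  have hQ0 : ∀ p, 0 ≤ Qp p := fun p =>
    Finset.sum_nonneg fun i _ => mul_nonneg (hlam0 i).le (sq_nonneg _)
  have hshift : ∀ (θ : ℝ) (c' : n → ℝ), nsq ((S + θ • 1) *ᵥ (U *ᵥ c')) = ∑ i, ((lam i + θ) * c' i) ^ 2 := by
    intro θ c'
    rw [shift_mulVec hU1 hSU, nsq_orth hU1, nsq_eq_sum]
  -- per level estimate
  have hlevel : ∀ p ∈ Icc 1 L, nsq ((if p ≤ t then B else a)ᵀ *ᵥ xp p) ≤ (200 / kap t p) * Qp p := by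
    intro p hp
    have hp1 : 1 ≤ p := (Finset.mem_Icc.mp hp).1
    have hk := kap_pos (t := t) hp1
    have hθ := th4_pos p
    have h1 := hZ p hp (xp p)
    have h2 : nsq ((S + th4 p • 1) *ᵥ xp p) ≤ 25 * th4 p * Qp p := by
      simp only [hxp]
      rw [hshift, hQp, Finset.mul_sum]
      apply Finset.sum_le_sum
      intro i _
      simp only [hcut]
      split_ifs with hi
      · have h3 : th4 p ≤ lam i := hi ▸ hw1 i
        have h4 : lam i < 4 * th4 p := by
          obtain ⟨q, rfl⟩ : ∃ q, p = q + 1 := ⟨p - 1, by omega⟩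
          exact hw3 i q hi
        have h5 : (lam i + th4 p) ^ 2 ≤ 25 * th4 p * lam i := by nlinarith
        calc ((lam i + th4 p) * c i) ^ 2 = (lam i + th4 p) ^ 2 * c i ^ 2 := by ring
          _ ≤ (25 * th4 p * lam i) * c i ^ 2 := mul_le_mul_of_nonneg_right h5 (sq_nonneg _)
          _ = _ := by ring
      · simp
    calc _ ≤ (8 / (kap t p * th4 p)) * nsq ((S + th4 p • 1) *ᵥ xp p) := h1
      _ ≤ (8 / (kap t p * th4 p)) * (25 * th4 p * Qp p) :=
          mul_le_mul_of_nonneg_left h2 (by positivity)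
      _ = (200 / kap t p) * Qp p := by field_simp; ring
  -- the sum of the pieces
  have hsumQ : ∑ p ∈ range (L + 1), Qp p = qf S x := by
    rw [hxc, hSU, qf_conj_diag, orth_mulVec hU1]
    simp only [hQp]
    rw [Finset.sum_comm]
    apply Finset.sum_congr rfl
    intro i _
    rw [← Finset.mul_sum]
    congr 1
    simp only [hcut]
    have : ∀ p, (if w i = p then c i else 0) ^ 2 = if w i = p then c i ^ 2 else 0 := by
      intro p; split_ifs <;> simp
    simp only [this]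
    rw [Finset.sum_ite_eq, if_pos (Finset.mem_range.mpr (Nat.lt_succ_of_le (hw2 i)))]
  -- decomposition of the vector
  have hxsum : x = ∑ p ∈ range (L + 1), xp p := by
    simp only [hxp]
    rw [← Matrix.mulVec_sum, hxc]
    congr 1
    funext i
    simp only [Finset.sum_apply, hcut]
    rw [Finset.sum_ite_eq, if_pos (Finset.mem_range.mpr (Nat.lt_succ_of_le (hw2 i)))]
  -- splitting of the index set
  have hsplit : range (L + 1) = range (t + 1) ∪ Ioc t L := by
    ext p; simp only [Finset.mem_range, Finset.mem_union, Finset.mem_Ioc]; omega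
  have hdisj : Disjoint (range (t + 1)) (Ioc t L) := by
    rw [Finset.disjoint_left]
    intro p hp hq
    simp only [Finset.mem_range, Finset.mem_Ioc] at hp hq
    omega
  have hsplit2 : range (t + 1) = insert 0 (Icc 1 t) := by
    ext p; simp only [Finset.mem_range, Finset.mem_insert, Finset.mem_Icc]; omega
  have h0notin : (0 : ℕ) ∉ Icc 1 t := by simp
  set XU := ∑ p ∈ range (t + 1), xp p with hXU
  set XL := ∑ p ∈ Ioc t L, xp p with hXL
  set XM := ∑ p ∈ Icc 1 t, xp p with hXM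
  set QL := ∑ p ∈ Ioc t L, Qp p with hQL
  set QM := ∑ p ∈ Icc 1 t, Qp p with hQM
  have hQLn : 0 ≤ QL := Finset.sum_nonneg fun p _ => hQ0 p
  have hQMn : 0 ≤ QM := Finset.sum_nonneg fun p _ => hQ0 p
  have hx2 : x = XU + XL := by
    rw [hxsum, hsplit, Finset.sum_union hdisj]
  have hXU2 : XU = xp 0 + XM := by
    rw [hXU, hsplit2, Finset.sum_insert h0notin]
  have hqtot : Qp 0 + QM + QL = qf S x := by
    rw [← hsumQ, hsplit, Finset.sum_union hdisj, hsplit2, Finset.sum_insert h0notin]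
  -- low part
  have hlow : nsq (aᵀ *ᵥ XL) ≤ QL := by
    have e : aᵀ *ᵥ XL = ∑ p ∈ Ioc t L, aᵀ *ᵥ xp p := by
      rw [hXL, Matrix.mulVec_sum]
    rw [e]
    have h1 := nsq_sum_weighted (Ioc t L) (fun p => aᵀ *ᵥ xp p) (fun p => (1 / 2 : ℝ) ^ (p - t))
      (fun p _ => by positivity)
    have h2 : ∑ p ∈ Ioc t L, nsq (aᵀ *ᵥ xp p) / (1 / 2 : ℝ) ^ (p - t) ≤ QL := by
      apply Finset.sum_le_sum
      intro p hp
      have hp' := Finset.mem_Ioc.mp hp
      have hp1 : p ∈ Icc 1 L := Finset.mem_Icc.mpr ⟨by omega, hp'.2⟩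
      have h3 := hlevel p hp1
      rw [if_neg (by omega)] at h3
      have h4 : kap t p = 200 * 2 ^ (p - t) := by
        unfold kap
        rw [if_neg (by omega)]
      rw [h4] at h3
      have h5 : (0 : ℝ) < 2 ^ (p - t) := by positivity
      have h6 : ((1 : ℝ) / 2) ^ (p - t) = 1 / 2 ^ (p - t) := by
        rw [one_div, one_div, inv_pow]
      rw [h6, div_div_eq_mul_div, div_one]
      calc nsq (aᵀ *ᵥ xp p) * 2 ^ (p - t) ≤ (200 / (200 * 2 ^ (p - t))) * Qp p * 2 ^ (p - t) :=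
            mul_le_mul_of_nonneg_right h3 h5.le
        _ = Qp p := by field_simp
    have h7 := sum_half_le t L
    have h8 : 0 ≤ ∑ p ∈ Ioc t L, nsq (aᵀ *ᵥ xp p) / (1 / 2 : ℝ) ^ (p - t) :=
      Finset.sum_nonneg fun p _ => div_nonneg (nsq_nonneg _) (by positivity)
    calc _ ≤ _ := h1
      _ ≤ 1 * ∑ p ∈ Ioc t L, nsq (aᵀ *ᵥ xp p) / (1 / 2 : ℝ) ^ (p - t) :=
          mul_le_mul_of_nonneg_right h7 h8
      _ ≤ QL := by linarith
  -- middle part
  have hmid : nsq (Bᵀ *ᵥ XM) ≤ QM := by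
    have e : Bᵀ *ᵥ XM = ∑ p ∈ Icc 1 t, Bᵀ *ᵥ xp p := by
      rw [hXM, Matrix.mulVec_sum]
    rw [e]
    have h1 := nsq_sum_card (Icc 1 t) (fun p => Bᵀ *ᵥ xp p)
    have h2 : ((Icc 1 t).card : ℝ) = t := by simp
    rw [h2, Finset.mul_sum] at h1
    refine h1.trans (Finset.sum_le_sum ?_)
    intro p hp
    have hp' := Finset.mem_Icc.mp hp
    have hp1 : p ∈ Icc 1 L := Finset.mem_Icc.mpr ⟨hp'.1, by omega⟩
    have h3 := hlevel p hp1
    rw [if_pos hp'.2] at h3
    have h4 : kap t p = 200 * t := by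
      unfold kap
      rw [if_pos hp'.2]
    rw [h4] at h3
    have h5 : (0 : ℝ) < t := by exact_mod_cast (by omega : 0 < t)
    calc (t : ℝ) * nsq (Bᵀ *ᵥ xp p) ≤ t * ((200 / (200 * t)) * Qp p) :=
          mul_le_mul_of_nonneg_left h3 h5.le
      _ = Qp p := by field_simp
  -- top part
  have htop : nsq (Bᵀ *ᵥ xp 0) ≤ Qp 0 := by
    have h1 := hB (xp 0)
    rw [one_mul] at h1
    refine h1.trans ?_
    simp only [hxp]
    rw [nsq_orth hU1, nsq_eq_sum]
    apply Finset.sum_le_sum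
    intro i _
    simp only [hcut]
    split_ifs with hi
    · have h3 : th4 0 ≤ lam i := hi ▸ hw1 i
      rw [th4_zero] at h3
      nlinarith [sq_nonneg (c i)]
    · simp
  -- the part with the small matrix
  have hsmall : nsq (fᵀ *ᵥ XU) ≤ Qp 0 + QM := by
    have h1 := hf XU
    refine h1.trans ?_
    have e1 : XU = U *ᵥ ∑ p ∈ range (t + 1), cut p := by
      rw [hXU, Matrix.mulVec_sum]
    rw [e1, nsq_orth hU1, nsq_eq_sum, Finset.mul_sum]
    have e2 : Qp 0 + QM = ∑ p ∈ range (t + 1), Qp p := by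
      rw [hsplit2, Finset.sum_insert h0notin]
    rw [e2]
    simp only [hQp]
    rw [Finset.sum_comm]
    apply Finset.sum_le_sum
    intro i _
    rw [← Finset.mul_sum]
    simp only [Finset.sum_apply, hcut]
    have e3 : ∀ p, (if w i = p then c i else 0) ^ 2 = if w i = p then c i ^ 2 else 0 := by
      intro p; split_ifs <;> simp
    simp only [e3]
    rw [Finset.sum_ite_eq, Finset.sum_ite_eq]
    split_ifs with hi
    · have h3 : w i ≤ t := by
        have := Finset.mem_range.mp hi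
        omega
      have h4 : th4 t ≤ lam i := (th4_anti h3).trans (hw1 i)
      exact mul_le_mul_of_nonneg_right h4 (sq_nonneg _)
    · simp
  -- assembling
  have hU' : nsq (Bᵀ *ᵥ XU) ≤ 2 * Qp 0 + 2 * QM := by
    rw [hXU2, Matrix.mulVec_add]
    have := nsq_add_le (Bᵀ *ᵥ xp 0) (Bᵀ *ᵥ XM)
    linarith
  have hdecomp : aᵀ *ᵥ x = aᵀ *ᵥ XL + Bᵀ *ᵥ XU + (-(1 : ℝ)) • (fᵀ *ᵥ XU) := by
    have hBa : Bᵀ = aᵀ + fᵀ := by rw [← haf, Matrix.transpose_add]
    rw [hx2, hBa, Matrix.mulVec_add, Matrix.add_mulVec]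
    simp only [neg_smul, one_smul]
    abel
  rw [hdecomp]
  have h3 := nsq_add3_le (aᵀ *ᵥ XL) (Bᵀ *ᵥ XU) ((-(1 : ℝ)) • (fᵀ *ᵥ XU))
  rw [nsq_smul] at h3
  have h4 := hQ0 0
  rw [← hqtot]
  have h5 : (-(1 : ℝ)) ^ 2 = 1 := by norm_num
  rw [h5, one_mul] at h3
  linarith

/-- the operator bound gives the bound on the inverse form -/
lemma qinv_le_of_transpose {S a : Matrix n n ℝ} {e c : ℝ} (hS : Coer S e) (he : 0 < e) (hc : 0 ≤ c)
    (h : ∀ x, nsq (aᵀ *ᵥ x) ≤ c * qf S x) (y : n → ℝ) : qinv S (a *ᵥ y) ≤ c * nsq y := by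
  set u := S⁻¹ *ᵥ (a *ᵥ y) with hu
  have h1 : qinv S (a *ᵥ y) = qf S u := qinv_eq_qf hS he _
  have h2 : qf S u = (aᵀ *ᵥ u) ⬝ᵥ y := by
    simp only [qf]
    rw [hS.mul_inv_mulVec he, dot_mulVec_transpose]
  have h3 := dot_sq_le (aᵀ *ᵥ u) y
  have h4 := h u
  have h5 := nsq_nonneg y
  have h6 : 0 ≤ qf S u := by
    have := hS.lower u
    have h7 := mul_nonneg he.le (nsq_nonneg u)
    linarith
  rw [h1]
  rw [← h2] at h3
  by_cases h0 : qf S u = 0
  · rw [h0]; exact mul_nonneg hc h5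
  have hpos : 0 < qf S u := lt_of_le_of_ne h6 (Ne.symm h0)
  have h8 : qf S u * qf S u ≤ qf S u * (c * nsq y) := by
    calc qf S u * qf S u = qf S u ^ 2 := by ring
      _ ≤ nsq (aᵀ *ᵥ u) * nsq y := h3
      _ ≤ (c * qf S u) * nsq y := mul_le_mul_of_nonneg_right h4 h5
      _ = qf S u * (c * nsq y) := by ring
  exact le_of_mul_le_mul_left h8 hpos

end Vale.Agent.Lib.P075
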