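import Vale.Agent.Lib.P075.Ext

/-!
The inverse-form potential.
-/

open Matrix Finset BigOperators

set_option linter.unusedSectionVars false
set_option linter.unusedSimpArgs false

namespace Vale.Agent.Lib.P075

variable {n : Type*} [Fintype n] [DecidableEq n]

lemma Psd.add {S T : Matrix n n ℝ} (hS : Psd S) (hT : Psd T) : Psd (S + T) where
  symm := by rw [Matrix.transpose_add, hS.symm, hT.symm]
  nonneg x := by
    rw [qf_add]
    exact add_nonneg (hS.nonneg x) (hT.nonneg x)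

lemma Psd.of_coer {S : Matrix n n ℝ} {e : ℝ} (h : Coer S e) (he : 0 ≤ e) : Psd S where
  symm := h.symm
  nonneg x := (mul_nonneg he (nsq_nonneg x)).trans (h.lower x)

lemma Psd.shift {S : Matrix n n ℝ} (hS : Psd S) {θ : ℝ} : Coer (S + θ • 1) θ where
  symm := by
    rw [Matrix.transpose_add, hS.symm, Matrix.transpose_smul, Matrix.transpose_one]
  lower x := by
    rw [qf_add, qf_smul, qf_one]
    linarith [hS.nonneg x]

lemma Coer.mono_add {D T : Matrix n n ℝ} {e : ℝ} (hD : Coer D e) (hT : Psd T) : Coer (D + T) e where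
  symm := by rw [Matrix.transpose_add, hD.symm, hT.symm]
  lower x := by
    rw [qf_add]
    linarith [hD.lower x, hT.nonneg x]

lemma psd_mul_transpose (m : Matrix n n ℝ) : Psd (m * mᵀ) where
  symm := by simp [Matrix.transpose_mul]
  nonneg x := by
    have := nsq_mulVec_eq_qf mᵀ x
    rw [Matrix.transpose_transpose] at this
    rw [← this]
    exact nsq_nonneg _

lemma qf_mul_transpose (m : Matrix n n ℝ) (x : n → ℝ) : qf (m * mᵀ) x = nsq (mᵀ *ᵥ x) := by
  have := nsq_mulVec_eq_qf mᵀ x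
  rw [Matrix.transpose_transpose] at this
  exact this.symm

/-- the inverse-form potential at level `θ` -/
noncomputable def Yp (θ : ℝ) (S Z : Matrix n n ℝ) : ℝ :=
  θ * ∑ z, qinv (S + θ • 1) (colm Z z)

lemma Yp_nonneg {θ : ℝ} (hθ : 0 < θ) {S : Matrix n n ℝ} (hS : Psd S) (Z : Matrix n n ℝ) :
    0 ≤ Yp θ S Z :=
  mul_nonneg hθ.le (Finset.sum_nonneg fun _ _ => qinv_nonneg hS.shift hθ _)

lemma Yp_anti {θ : ℝ} (hθ : 0 < θ) {S S' : Matrix n n ℝ} (hS : Psd S) (hS' : Psd S')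
    (hle : ∀ x, qf S x ≤ qf S' x) (Z : Matrix n n ℝ) : Yp θ S' Z ≤ Yp θ S Z := by
  apply mul_le_mul_of_nonneg_left _ hθ.le
  apply Finset.sum_le_sum
  intro z _
  apply qinv_anti hS.shift hθ hS'.shift hθ
  intro x
  rw [qf_add, qf_add]
  linarith [hle x]

lemma Yp_le_hs {θ : ℝ} (hθ : 0 < θ) {S : Matrix n n ℝ} (hS : Psd S) (Z : Matrix n n ℝ) :
    Yp θ S Z ≤ hs Z := by
  rw [hs_eq_sum_col, Yp, Finset.mul_sum]
  apply Finset.sum_le_sum
  intro z _
  have := qinv_le hS.shift hθ (colm Z z)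
  calc θ * qinv (S + θ • 1) (colm Z z) ≤ θ * (nsq (colm Z z) / θ) :=
        mul_le_mul_of_nonneg_left this hθ.le
    _ = nsq (colm Z z) := by field_simp

lemma Yp_zero (θ : ℝ) (S : Matrix n n ℝ) : Yp θ S 0 = 0 := by
  have : ∀ z : n, qinv (S + θ • 1) (colm (0 : Matrix n n ℝ) z) = 0 := by
    intro z
    have : colm (0 : Matrix n n ℝ) z = 0 := by
      funext a; simp [colm]
    rw [this]
    simp [qinv]
  simp [Yp, this]

/-! ### Gluing vectors along the top bit -/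

/-- vector on `Bool × n` from its two sections -/
def glue (w : Bool → n → ℝ) : Bool × n → ℝ := fun p => w p.1 p.2

/-- vector concentrated on one section -/
def lift (j : Bool) (u : n → ℝ) : Bool × n → ℝ := fun p => if p.1 = j then u p.2 else 0

lemma qf_eq_sum (S : Matrix n n ℝ) (x : n → ℝ) : qf S x = ∑ a, ∑ b, x a * S a b * x b := by
  simp only [qf, dotProduct, Matrix.mulVec, Finset.mul_sum]
  apply Finset.sum_congr rfl; intro a _
  apply Finset.sum_congr rfl; intro b _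
  ring

lemma nsq_glue (w : Bool → n → ℝ) : nsq (glue w) = ∑ j, nsq (w j) := by
  simp only [nsq_eq_sum, glue, Fintype.sum_prod_type]

/-- the pinching identity -/
lemma qf_glue_add (S : Matrix (Bool × n) (Bool × n) ℝ) (w : Bool → n → ℝ) :
    qf S (glue w) + qf S (glue fun j => sg j • w j) = ∑ j, qf (blk S j j) (w j) := by
  simp only [qf_eq_sum, glue, Fintype.sum_prod_type, Fintype.sum_bool, blk_apply, Pi.smul_apply,
    smul_eq_mul, sg_true, sg_false, ← Finset.sum_add_distrib]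
  apply Finset.sum_congr rfl; intro a _
  apply Finset.sum_congr rfl; intro b _
  ring

/-- pinching for a positive matrix -/
lemma qf_glue_le {S : Matrix (Bool × n) (Bool × n) ℝ} (hS : Psd S) (w : Bool → n → ℝ) :
    qf S (glue w) ≤ ∑ j, qf (blk S j j) (w j) := by
  have h1 := qf_glue_add S w
  have h2 := hS.nonneg (glue fun j => sg j • w j)
  linarith

lemma dot_glue_col (Z : Matrix (Bool × n) (Bool × n) ℝ) (w : Bool → n → ℝ) (l : Bool) (b : n) :
    2 * (glue w ⬝ᵥ colm Z (l, b)) = ∑ j, w j ⬝ᵥ colm (blk Z j l) b := by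
  simp only [dotProduct, glue, colm, Fintype.sum_prod_type, Fintype.sum_bool, blk_apply,
    Finset.mul_sum, mul_add]
  rw [← Finset.sum_add_distrib, ← Finset.sum_add_distrib]
  apply Finset.sum_congr rfl; intro a _
  ring

/-- the child inequality for the potential -/
theorem Yp_child {θ : ℝ} (hθ : 0 < θ) {S : Matrix (Bool × n) (Bool × n) ℝ} (hS : Psd S)
    (hSb : ∀ j, Psd (blk S j j)) (Z : Matrix (Bool × n) (Bool × n) ℝ) :
    (1 / 4 : ℝ) * ∑ j, ∑ l, Yp θ (blk S j j) (blk Z j l) ≤ Yp θ S Z := by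
  have key : ∀ (l : Bool) (b : n),
      (1 / 4 : ℝ) * ∑ j, qinv (blk S j j + θ • 1) (colm (blk Z j l) b)
        ≤ qinv (S + θ • 1) (colm Z (l, b)) := by
    intro l b
    set u : Bool → n → ℝ := fun j => (blk S j j + θ • 1)⁻¹ *ᵥ colm (blk Z j l) b with hu
    set w : Bool → n → ℝ := fun j => (1 / 2 : ℝ) • u j with hw
    have h1 := qinv_var (hS.shift (θ := θ)) hθ (glue w) (colm Z (l, b))
    have h2 := dot_glue_col Z w l b
    have h3 : ∀ j, qf (blk S j j + θ • 1) (u j) = qinv (blk S j j + θ • 1) (colm (blk Z j l) b) :=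
      fun j => (qinv_eq_qf (hSb j).shift hθ _).symm
    have h4 : ∀ j, u j ⬝ᵥ colm (blk Z j l) b = qinv (blk S j j + θ • 1) (colm (blk Z j l) b) := by
      intro j
      simp only [hu, qinv]
      exact dotProduct_comm _ _
    have h5 : qf (S + θ • 1) (glue w) ≤ ∑ j, qf (blk S j j + θ • 1) (w j) := by
      rw [qf_add, qf_smul, qf_one, nsq_glue]
      have h6 := qf_glue_le hS w
      simp only [qf_add, qf_smul, qf_one, Finset.sum_add_distrib, ← Finset.mul_sum]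
      linarith
    have h6 : ∀ j, qf (blk S j j + θ • 1) (w j) = (1 / 4 : ℝ) * qinv (blk S j j + θ • 1) (colm (blk Z j l) b) := by
      intro j
      simp only [hw]
      rw [qf_vsmul, h3]
      ring
    have h7 : ∀ j, w j ⬝ᵥ colm (blk Z j l) b = (1 / 2 : ℝ) * qinv (blk S j j + θ • 1) (colm (blk Z j l) b) := by
      intro j
      simp only [hw]
      rw [smul_dotProduct, h4]
      rfl
    simp only [h7] at h2
    simp only [h6] at h5
    rw [← Finset.mul_sum] at h2 h5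
    linarith
  simp only [Yp, Fintype.sum_prod_type]
  have h8 : ∑ l, ∑ b, (1 / 4 : ℝ) * ∑ j, qinv (blk S j j + θ • 1) (colm (blk Z j l) b)
      ≤ ∑ l, ∑ b, qinv (S + θ • 1) (colm Z (l, b)) :=
    Finset.sum_le_sum fun l _ => Finset.sum_le_sum fun b _ => key l b
  have h9 := mul_le_mul_of_nonneg_left h8 hθ.le
  refine le_trans (le_of_eq ?_) h9
  simp only [Fintype.sum_bool, Finset.mul_sum, mul_add, Finset.sum_add_distrib]
  ring_nf

/-- the additive increment of the inverse form under extraction -/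
lemma qinv_add_rank {D : Matrix n n ℝ} {e : ℝ} (hD : Coer D e) (he : 0 < e)
    {m P : Matrix n n ℝ} (hPT : Pᵀ = P) (hPP : P * P = P) (hmP : m * P = m) (y ζ : n → ℝ) :
    qinv (D + m * mᵀ) (y + m *ᵥ ζ) ≤ qinv D y + qf P ζ := by
  have hD' : Coer (D + m * mᵀ) e := hD.mono_add (psd_mul_transpose m)
  set u := (D + m * mᵀ)⁻¹ *ᵥ (y + m *ᵥ ζ) with hu
  set q := mᵀ *ᵥ u with hq
  have hDu : (D + m * mᵀ) *ᵥ u = y + m *ᵥ ζ := hD'.mul_inv_mulVec he _
  have hR1 : qinv (D + m * mᵀ) (y + m *ᵥ ζ) = qf (D + m * mᵀ) u := qinv_eq_qf hD' he _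
  have hR2 : qf (D + m * mᵀ) u = u ⬝ᵥ (y + m *ᵥ ζ) := by
    simp only [qf]; rw [hDu]
  have hR3 : qf (D + m * mᵀ) u = qf D u + nsq q := by
    rw [qf_add, qf_mul_transpose]
  have hR4 : u ⬝ᵥ (y + m *ᵥ ζ) = u ⬝ᵥ y + q ⬝ᵥ ζ := by
    rw [dotProduct_add, dot_mulVec_transpose]
  have hvar := qinv_var hD he u y
  -- q is in the range of P
  have hPq : P *ᵥ q = q := by
    have : mᵀ = P * mᵀ := by
      conv_lhs => rw [← hmP, Matrix.transpose_mul, hPT]
    rw [hq, Matrix.mulVec_mulVec, ← this]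
  have h1 : q ⬝ᵥ ζ = q ⬝ᵥ (P *ᵥ ζ) := by
    conv_lhs => rw [← hPq]
    rw [dot_mulVec_transpose (X := P) (x := q) (y := ζ), hPT]
  have h2 : nsq (P *ᵥ ζ) = qf P ζ := by
    rw [nsq_mulVec_eq_qf, hPT, hPP]
  have h3 := two_dot_le q (P *ᵥ ζ)
  rw [hR1]
  rw [h1] at hR4
  linarith

theorem Yp_add {θ : ℝ} (hθ : 0 < θ) {S : Matrix n n ℝ} (hS : Psd S)
    {m P : Matrix n n ℝ} (hPT : Pᵀ = P) (hPP : P * P = P) (hmP : m * P = m) (Z : Matrix n n ℝ) :
    Yp θ (S + m * mᵀ) (Z + m) ≤ Yp θ S Z + θ * trace P := by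
  have e : (S + m * mᵀ + θ • 1 : Matrix n n ℝ) = (S + θ • 1) + m * mᵀ := by
    abel
  have key : ∀ z, qinv (S + m * mᵀ + θ • 1) (colm (Z + m) z)
      ≤ qinv (S + θ • 1) (colm Z z) + qf P (Pi.single z 1) := by
    intro z
    have h1 : colm (Z + m) z = colm Z z + m *ᵥ Pi.single z 1 := by
      funext a
      simp [colm, Matrix.mulVec_single]
    rw [h1, e]
    exact qinv_add_rank hS.shift hθ hPT hPP hmP _ _
  simp only [Yp]
  rw [trace_eq_sum_qf, ← mul_add, ← Finset.sum_add_distrib]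
  exact mul_le_mul_of_nonneg_left (Finset.sum_le_sum fun z _ => key z) hθ.le

/-! ### Rank one raising -/

lemma vecMulVec_mulVec' (w u : n → ℝ) : (vecMulVec w w) *ᵥ u = (w ⬝ᵥ u) • w := by
  funext a
  simp [Matrix.mulVec, dotProduct, vecMulVec_apply, Finset.mul_sum, Finset.sum_mul, mul_comm,
    mul_left_comm, mul_assoc]

lemma qf_vecMulVec (w u : n → ℝ) : qf (vecMulVec w w) u = (w ⬝ᵥ u) ^ 2 := by
  simp only [qf, vecMulVec_mulVec', dotProduct_smul, smul_eq_mul, dotProduct_comm u w]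
  ring

lemma psd_vecMulVec (w : n → ℝ) {ρ : ℝ} (hρ : 0 ≤ ρ) : Psd (ρ • vecMulVec w w) where
  symm := by
    ext a b
    simp [vecMulVec_apply, mul_comm]
  nonneg x := by
    rw [qf_smul, qf_vecMulVec]
    exact mul_nonneg hρ (sq_nonneg _)

/-- exact formula for the drop under a rank one raising -/
lemma qinv_rank_one {D : Matrix n n ℝ} {θ : ℝ} (hD : Coer D θ) (hθ : 0 < θ) (x : n → ℝ)
    {ρ : ℝ} (hρ : 0 ≤ ρ) (hρ1 : ρ * (D *ᵥ x ⬝ᵥ x) ≤ 1) (y : n → ℝ) :
    qinv (D + ρ • vecMulVec (D *ᵥ x) (D *ᵥ x)) y ≤ qinv D y - (ρ / 2) * (x ⬝ᵥ y) ^ 2 := by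
  set w := D *ᵥ x with hw
  have hD' : Coer (D + ρ • vecMulVec w w) θ := hD.mono_add (psd_vecMulVec w hρ)
  set u := (D + ρ • vecMulVec w w)⁻¹ *ᵥ y with hu
  have hDu : (D + ρ • vecMulVec w w) *ᵥ u = y := hD'.mul_inv_mulVec hθ y
  set t := w ⬝ᵥ u with ht
  have hDu2 : D *ᵥ u + (ρ * t) • w = y := by
    rw [← hDu, Matrix.add_mulVec, Matrix.smul_mulVec, vecMulVec_mulVec', smul_smul]
  -- v = u + ρ t x solves D v = y
  set v := u + (ρ * t) • x with hv
  have hDv : D *ᵥ v = y := by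
    rw [hv, Matrix.mulVec_add, Matrix.mulVec_smul, hDu2]
  have hv2 : D⁻¹ *ᵥ y = v := by
    rw [← hDv, hD.inv_mul_mulVec hθ]
  have e1 : qinv D y = y ⬝ᵥ v := by rw [qinv, hv2]
  have e2 : qinv (D + ρ • vecMulVec w w) y = y ⬝ᵥ u := rfl
  have e3 : y ⬝ᵥ v = y ⬝ᵥ u + ρ * t * (x ⬝ᵥ y) := by
    rw [hv, dotProduct_add, dotProduct_smul, dotProduct_comm y x]
    rfl
  set g := w ⬝ᵥ x with hg
  set a := x ⬝ᵥ y with ha
  have e4 : a = t * (1 + ρ * g) := by
    have h1 : x ⬝ᵥ y = x ⬝ᵥ (D *ᵥ u) + ρ * t * (x ⬝ᵥ w) := by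
      rw [← hDu2, dotProduct_add, dotProduct_smul]
      rfl
    have h2 : x ⬝ᵥ (D *ᵥ u) = t := by
      rw [dot_mulVec_transpose, hD.symm]
    have h3 : x ⬝ᵥ w = g := dotProduct_comm _ _
    rw [ha, h1, h2, h3]
    ring
  have hg0 : 0 ≤ g := by
    have := hD.lower x
    have h1 : qf D x = g := by
      simp only [qf, hg, hw]
      exact dotProduct_comm _ _
    have h2 := mul_nonneg hθ.le (nsq_nonneg x)
    linarith
  have h5 : 0 ≤ ρ * g := mul_nonneg hρ hg0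
  have h6 : a ^ 2 ≤ 2 * (t * a) := by
    rw [e4]
    have : 0 ≤ t ^ 2 * (1 + ρ * g) := mul_nonneg (sq_nonneg _) (by linarith)
    nlinarith
  have h7 : (ρ / 2) * a ^ 2 ≤ ρ * (t * a) := by nlinarith
  rw [e2]
  rw [e3] at e1
  linarith

lemma sum_sq_dot_col (Z : Matrix n n ℝ) (x : n → ℝ) :
    ∑ z, (x ⬝ᵥ colm Z z) ^ 2 = nsq (Zᵀ *ᵥ x) := by
  rw [nsq_eq_sum]
  apply Finset.sum_congr rfl
  intro z _
  congr 1
  simp [dotProduct, Matrix.mulVec, colm, Matrix.transpose_apply, mul_comm]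

/-- the drop of the potential under a raising -/
theorem Yp_raise {θ : ℝ} (hθ : 0 < θ) {S : Matrix n n ℝ} (hS : Psd S) (x : n → ℝ)
    {ρ : ℝ} (hρ : 0 ≤ ρ) (hρ1 : ρ * ((S + θ • 1) *ᵥ x ⬝ᵥ x) ≤ 1) (Z : Matrix n n ℝ) :
    Yp θ (S + ρ • vecMulVec ((S + θ • 1) *ᵥ x) ((S + θ • 1) *ᵥ x)) Z
      ≤ Yp θ S Z - θ * ((ρ / 2) * nsq (Zᵀ *ᵥ x)) := by
  set w := (S + θ • 1) *ᵥ x with hw
  have e : (S + ρ • vecMulVec w w + θ • 1 : Matrix n n ℝ) = (S + θ • 1) + ρ • vecMulVec w w := by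
    abel
  simp only [Yp]
  rw [e, ← sum_sq_dot_col, ← mul_sub, Finset.mul_sum (s := Finset.univ) (a := ρ / 2), ← Finset.sum_sub_distrib]
  apply mul_le_mul_of_nonneg_left _ hθ.le
  apply Finset.sum_le_sum
  intro z _
  exact qinv_rank_one hS.shift hθ x hρ hρ1 _

/-- a bound for the raising parameter -/
lemma rho_bound {θ : ℝ} (hθ : 0 < θ) {D : Matrix n n ℝ} (hD : Coer D θ) (x : n → ℝ)
    (hw : 0 < nsq (D *ᵥ x)) : (θ / nsq (D *ᵥ x)) * (D *ᵥ x ⬝ᵥ x) ≤ 1 := by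
  set w := D *ᵥ x with hwd
  set g := w ⬝ᵥ x with hg
  have h1 : θ * nsq x ≤ g := by
    have := hD.lower x
    have h2 : qf D x = g := by
      simp only [qf, hg, hwd]
      exact dotProduct_comm _ _
    linarith
  have h2 : g ^ 2 ≤ nsq w * nsq x := dot_sq_le w x
  have hx := nsq_nonneg x
  have hg0 : 0 ≤ g := le_trans (mul_nonneg hθ.le hx) h1
  rw [div_mul_eq_mul_div, div_le_one hw]
  by_cases hg1 : g = 0
  · rw [hg1]; simpa using hw.le
  have hgpos : 0 < g := lt_of_le_of_ne hg0 (Ne.symm hg1)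
  have h3 : g * (θ * g) ≤ g * nsq w := by
    nlinarith
  exact le_of_mul_le_mul_left h3 hgpos

end Vale.Agent.Lib.P075
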